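import Mathlib

open Finset Matrix

noncomputable section

namespace Vale.Agent.P162

variable {ι : Type*} [Fintype ι] [DecidableEq ι]

def Nn (j : ℕ) (X : Matrix ι ι ℝ) : ℝ := trace ((X * Xᵀ) ^ 2 ^ j)

theorem trace_mul_transpose (X : Matrix ι ι ℝ) : trace (X * Xᵀ) = ∑ i, ∑ j, X i j ^ 2 := by
  simp [trace, mul_apply, sq]

theorem trace_cs (X Y : Matrix ι ι ℝ) : trace (X * Y) ^ 2 ≤ trace (X * Xᵀ) * trace (Y * Yᵀ) := by
  have := sum_mul_sq_le_sq_mul_sq (univ : Finset (ι × ι)) (fun p => X p.1 p.2) (fun p => Y p.2 p.1)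
  rw [trace_mul_transpose, trace_mul_transpose, sum_comm (f := fun i j => Y i j ^ 2)]
  simpa [trace, mul_apply, Fintype.sum_prod_type] using this

theorem trace_pow_comm (A B : Matrix ι ι ℝ) (m : ℕ) : trace ((A * B) ^ m) = trace ((B * A) ^ m) := by
  cases m with
  | zero => simp
  | succ m => rw [pow_succ, ← mul_assoc, mul_pow_mul, trace_mul_comm, ← mul_assoc, pow_succ']

theorem Nn_nonneg (j : ℕ) (X : Matrix ι ι ℝ) : 0 ≤ Nn j X := by
  cases j with
  | zero => rw [Nn, pow_zero, pow_one, trace_mul_transpose]; positivity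
  | succ j =>
    have : (X * Xᵀ) ^ 2 ^ (j + 1) = (X * Xᵀ) ^ 2 ^ j * ((X * Xᵀ) ^ 2 ^ j)ᵀ := by
      rw [transpose_pow, transpose_mul, transpose_transpose, ← pow_add, pow_succ, mul_two]
    rw [Nn, this, trace_mul_transpose]; positivity

theorem Nn_left (j : ℕ) (X : Matrix ι ι ℝ) : Nn j (Xᵀ * X) = Nn (j + 1) X := by
  rw [Nn, Nn, transpose_mul, transpose_transpose, ← sq, ← pow_mul, trace_pow_comm, pow_succ']

theorem Nn_right (j : ℕ) (X : Matrix ι ι ℝ) : Nn j (X * Xᵀ) = Nn (j + 1) X := by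
  rw [Nn, Nn, transpose_mul, transpose_transpose, ← sq, ← pow_mul, pow_succ']

theorem Nn_mul_eq (j : ℕ) (X Z : Matrix ι ι ℝ) :
    Nn j (X * Z) = trace ((Xᵀ * X * (Z * Zᵀ)) ^ 2 ^ j) := by
  rw [Nn, transpose_mul, ← mul_assoc, trace_pow_comm]
  simp only [mul_assoc]

theorem schatten (j : ℕ) : (∀ X Z : Matrix ι ι ℝ, Nn j (X * Z) ^ 2 ≤ Nn (j + 1) X * Nn (j + 1) Z) ∧
    ∀ Y : Matrix ι ι ℝ, trace (Y ^ 2 ^ (j + 1)) ≤ Nn j Y := by
  induction j with
  | zero =>
    constructor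
    · intro X Z
      rw [Nn_mul_eq, ← Nn_left 0 X, ← Nn_right 0 Z]
      simpa [Nn] using trace_cs (Xᵀ * X) (Z * Zᵀ)
    · intro Y
      have := trace_cs Y Y
      rw [← sq, ← sq] at this
      have h := Nn_nonneg 0 Y
      simp only [Nn, pow_zero, pow_one, zero_add] at h ⊢
      exact (abs_le_of_sq_le_sq' this h).2
  | succ j ih =>
    constructor
    · intro X Z
      have h1 := ih.2 (Xᵀ * X * (Z * Zᵀ))
      rw [← Nn_mul_eq] at h1
      have h2 := ih.1 (Xᵀ * X) (Z * Zᵀ)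
      rw [Nn_left, Nn_right] at h2
      exact (pow_le_pow_left₀ (Nn_nonneg _ _) h1 2).trans h2
    · intro Y
      have h1 := ih.2 (Y * Y)
      have h2 := ih.1 Y Y
      rw [← sq (Nn _ _)] at h2
      rw [← sq, ← pow_mul, ← pow_succ', sq] at h1
      exact h1.trans (abs_le_of_sq_le_sq' h2 (Nn_nonneg _ _)).2

theorem Nn_pow_le (j : ℕ) : ∀ (i : ℕ) (Y : Matrix ι ι ℝ), Nn i (Y ^ 2 ^ j) ≤ Nn (i + j) Y := by
  induction j with
  | zero => intro i Y; simp
  | succ j ih =>
    intro i Y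
    rw [pow_succ', pow_mul]
    refine (ih i _).trans ?_
    have h2 := (schatten (i + j)).1 Y Y
    rw [← sq (Nn _ _), ← sq Y] at h2
    exact (abs_le_of_sq_le_sq' h2 (Nn_nonneg _ _)).2

theorem holder {J κ : Type*} [Fintype J] [Fintype κ] (w : ℝ) (hw : 0 < w)
    (hw1 : ∑ _j : J, w = 1) (a : J → κ → ℝ) (ha : ∀ j z, 0 ≤ a j z) :
    ∑ z, ∏ j, a j z ^ w ≤ ∏ j, (∑ z, a j z) ^ w := by
  by_cases h : ∃ j, ∑ z, a j z = 0
  · obtain ⟨j, hj⟩ := h
    rw [sum_eq_zero_iff_of_nonneg fun z _ => ha j z] at hj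
    rw [sum_eq_zero fun z _ => prod_eq_zero (mem_univ j) (by
      rw [hj z (mem_univ z), Real.zero_rpow hw.ne'])]
    exact prod_nonneg fun j _ => Real.rpow_nonneg (sum_nonneg fun z _ => ha j z) _
  push Not at h
  have hS : ∀ j, 0 < ∑ z, a j z := fun j => lt_of_le_of_ne (sum_nonneg fun z _ => ha j z) (h j).symm
  have h1 : ∀ z, ∏ j, a j z ^ w ≤ (∏ j, (∑ z, a j z) ^ w) * ∑ j, w * (a j z / ∑ z, a j z) := by
    intro z
    have := Real.geom_mean_le_arith_mean_weighted univ (fun _ => w) (fun j => a j z / ∑ z, a j z)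
      (fun _ _ => hw.le) hw1 (fun j _ => div_nonneg (ha j z) (hS j).le)
    refine le_trans (le_of_eq ?_) (mul_le_mul_of_nonneg_left this
      (prod_nonneg fun j _ => Real.rpow_nonneg (hS j).le _))
    rw [← prod_mul_distrib]
    refine prod_congr rfl fun j _ => ?_
    rw [← Real.mul_rpow (hS j).le (div_nonneg (ha j z) (hS j).le), mul_div_cancel₀ _ (h j)]
  refine (sum_le_sum fun z _ => h1 z).trans (le_of_eq ?_)
  rw [← mul_sum, sum_comm]
  simp only [← mul_sum, ← sum_div]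
  simp only [div_self (h _), sum_const, card_univ, nsmul_eq_mul, mul_one] at hw1 ⊢
  rw [mul_comm w, hw1, mul_one]

theorem pow_entry_nonneg {G : Matrix ι ι ℝ} (h : ∀ x y, 0 ≤ G x y) (m : ℕ) :
    ∀ x y, 0 ≤ (G ^ m) x y := by
  induction m with
  | zero => intro x y; rw [pow_zero, one_apply]; split_ifs <;> norm_num
  | succ m ih =>
    intro x y; rw [pow_succ, mul_apply]
    exact sum_nonneg fun z _ => mul_nonneg (ih _ _) (h _ _)

theorem walks_le {G : Matrix ι ι ℝ} (h : ∀ x y, 0 ≤ G x y) (hs : Gᵀ = G) (m : ℕ) : ∀ a b : ℕ,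
    ∑ x, ∑ y, (∑ z, G x z) ^ a * (G ^ m) x y * (∑ z, G y z) ^ b ≤
      ∑ x, (∑ z, G x z) ^ (a + b + m) := by
  set r : ι → ℝ := fun x => ∑ z, G x z with hr
  have hr0 : ∀ x, 0 ≤ r x := fun x => sum_nonneg fun z _ => h x z
  induction m with
  | zero =>
    intro a b
    simp [one_apply, pow_add]
  | succ m ih =>
    intro a b
    have hsym : ∀ x y, (G ^ (m + 1)) x y = (G ^ (m + 1)) y x := fun x y => by
      conv_lhs => rw [← hs, ← transpose_pow, transpose_apply]
    have h1 : ∑ x, ∑ y, r x ^ (a + b) * (G ^ (m + 1)) x y =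
        ∑ x, ∑ y, r x ^ (a + b) * (G ^ m) x y * r y ^ 1 := by
      refine sum_congr rfl fun x _ => ?_
      simp only [pow_succ G, mul_apply, pow_one, hr, mul_sum, mul_assoc]
      exact sum_comm
    have h2 : ∑ x, ∑ y, r x ^ a * (G ^ (m + 1)) x y * r y ^ b =
        ∑ x, ∑ y, r x ^ b * (G ^ (m + 1)) x y * r y ^ a := by
      rw [sum_comm]
      exact sum_congr rfl fun x _ => sum_congr rfl fun y _ => by rw [hsym]; ring
    have h3 : ∑ x, ∑ y, r x ^ (a + b) * (G ^ (m + 1)) x y =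
        ∑ x, ∑ y, r y ^ (a + b) * (G ^ (m + 1)) x y := by
      rw [sum_comm]
      exact sum_congr rfl fun x _ => sum_congr rfl fun y _ => by rw [hsym]
    have h4 : ∑ x, ∑ y, r x ^ a * (G ^ (m + 1)) x y * r y ^ b +
        ∑ x, ∑ y, r x ^ b * (G ^ (m + 1)) x y * r y ^ a ≤
        ∑ x, ∑ y, r x ^ (a + b) * (G ^ (m + 1)) x y +
          ∑ x, ∑ y, r y ^ (a + b) * (G ^ (m + 1)) x y := by
      simp only [← sum_add_distrib]
      refine sum_le_sum fun x _ => sum_le_sum fun y _ => ?_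
      have h5 : 0 ≤ (r x ^ a - r y ^ a) * (r x ^ b - r y ^ b) := by
        rcases le_total (r x) (r y) with h6 | h6
        · exact mul_nonneg_of_nonpos_of_nonpos (sub_nonpos.2 (pow_le_pow_left₀ (hr0 _) h6 _))
            (sub_nonpos.2 (pow_le_pow_left₀ (hr0 _) h6 _))
        · exact mul_nonneg (sub_nonneg.2 (pow_le_pow_left₀ (hr0 _) h6 _))
            (sub_nonneg.2 (pow_le_pow_left₀ (hr0 _) h6 _))
      have h6 := mul_nonneg h5 (pow_entry_nonneg h (m + 1) x y)
      rw [pow_add (r x), pow_add (r y)]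
      nlinarith
    have h5 := ih (a + b) 1
    rw [show a + b + 1 + m = a + b + (m + 1) by ring] at h5
    simp only [hr] at *
    linarith

def Pr (M : ℕ → Matrix ι ι ℝ) : ℕ → Matrix ι ι ℝ
  | 0 => 1
  | m + 1 => Pr M m * M m

theorem Pr_nonneg {M : ℕ → Matrix ι ι ℝ} (h : ∀ i x y, 0 ≤ M i x y) (m : ℕ) :
    ∀ x y, 0 ≤ Pr M m x y := by
  induction m with
  | zero => intro x y; rw [Pr, one_apply]; split_ifs <;> norm_num
  | succ m ih =>
    intro x y; rw [Pr, mul_apply]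
    exact sum_nonneg fun z _ => mul_nonneg (ih _ _) (h _ _ _)

theorem Pr_ite (E G : Matrix ι ι ℝ) (j m : ℕ) : Pr (fun i => if i = j then E else G) m =
    if m ≤ j then G ^ m else G ^ j * E * G ^ (m - 1 - j) := by
  induction m with
  | zero => simp [Pr]
  | succ m ih =>
    rw [Pr, ih]
    rcases lt_trichotomy m j with h | h | h
    · rw [if_pos h.le, if_neg h.ne, if_pos (by omega), pow_succ]
    · subst h; simp
    · rw [if_neg (by omega), if_neg h.ne', if_neg (by omega), mul_assoc, ← pow_succ]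
      congr 2; omega

theorem russo {B : Matrix ι ι ℝ} (h : ∀ x y, 0 ≤ B x y) (hs : Bᵀ = B) {m : ℕ} (hm : 0 < m) :
    trace (B ^ (m + 1)) ≤ ∑ x, (∑ y, B x y ^ (1 + 1 / m : ℝ)) ^ m := by
  let G : Matrix ι ι ℝ := Matrix.of fun x y => B x y ^ (1 + 1 / m : ℝ)
  let E : Matrix ι ι ℝ := Matrix.of fun _ _ => 1
  have hG : ∀ x y, 0 ≤ G x y := fun x y => Real.rpow_nonneg (h x y) _
  have hGs : Gᵀ = G := by
    ext x y
    simp only [G, transpose_apply, of_apply]
    conv_lhs => rw [← hs, transpose_apply]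
  let M : Fin (m + 1) → ℕ → Matrix ι ι ℝ := fun j i => if i = j then E else G
  have hM : ∀ j i x y, 0 ≤ M j i x y := by
    intro j i x y
    simp only [M]
    split_ifs
    · simp [E]
    · exact hG x y
  have hm' : (0 : ℝ) < m := by exact_mod_cast hm
  let w : ℝ := 1 / (m + 1)
  have hw : 0 < w := by positivity
  have hw1 : ∑ _j : Fin (m + 1), w = 1 := by simp [w]; field_simp
  have h1 : ∀ i < m + 1, ∀ x y, B x y = ∏ j, M j i x y ^ w := by
    intro i hi x y
    rw [← mul_prod_erase univ _ (mem_univ (⟨i, hi⟩ : Fin (m + 1))),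
      prod_congr rfl (g := fun _ => G x y ^ w) fun j hj => by
        have : i ≠ j := fun hc => (ne_of_mem_erase hj) (Fin.ext hc.symm)
        simp only [M, if_neg this]]
    simp only [M, if_true, E, of_apply, Real.one_rpow, one_mul, prod_const, G]
    rw [card_erase_of_mem (mem_univ _), card_univ, Fintype.card_fin, ← Real.rpow_mul (h x y),
      ← Real.rpow_natCast, ← Real.rpow_mul (h x y)]
    have : (1 + 1 / m : ℝ) * w * ((m + 1 - 1 : ℕ) : ℝ) = 1 := by
      simp [w]; field_simp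
    rw [this, Real.rpow_one]
  have h2 : ∀ i ≤ m + 1, ∀ x y, (B ^ i) x y ≤ ∏ j, Pr (M j) i x y ^ w := by
    intro i
    induction i with
    | zero =>
      intro _ x y
      simp only [pow_zero, Pr, one_apply]
      split_ifs
      · simp
      · positivity
    | succ i ih =>
      intro hi x y
      simp only [pow_succ, Pr, mul_apply]
      refine le_trans (sum_le_sum fun z _ => ?_) (holder w hw hw1
        (fun j z => Pr (M j) i x z * M j i z y)
        fun j z => mul_nonneg (Pr_nonneg (hM j) _ _ _) (hM _ _ _ _))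
      rw [prod_congr rfl fun j _ => Real.mul_rpow (Pr_nonneg (hM j) _ _ _) (hM _ _ _ _),
        prod_mul_distrib, ← h1 i hi]
      exact mul_le_mul_of_nonneg_right (ih (by omega) _ _) (h _ _)
  have h3 : ∀ j : Fin (m + 1), ∑ x, Pr (M j) (m + 1) x x ≤ ∑ x, (∑ y, G x y) ^ m := by
    intro j
    have h4 := walks_le hG hGs m 0 0
    have h5 : ∑ x, Pr (M j) (m + 1) x x = trace (E * G ^ m) := by
      change trace (Pr (M j) (m + 1)) = _
      rw [Pr_ite, if_neg (by omega), mul_assoc, trace_mul_comm, mul_assoc, ← pow_add]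
      congr 3; omega
    rw [h5]
    simp only [pow_zero, one_mul, mul_one, zero_add] at h4
    refine le_trans (le_of_eq ?_) h4
    simp only [trace, Matrix.diag, mul_apply, E, of_apply, one_mul]
    exact sum_comm
  calc trace (B ^ (m + 1)) = ∑ x, (B ^ (m + 1)) x x := rfl
    _ ≤ ∑ x, ∑ j, w * Pr (M j) (m + 1) x x := sum_le_sum fun x _ => (h2 _ le_rfl x x).trans
        (Real.geom_mean_le_arith_mean_weighted univ (fun _ => w) _ (fun _ _ => hw.le) hw1
          fun j _ => Pr_nonneg (hM j) _ _ _)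
    _ = ∑ j, w * ∑ x, Pr (M j) (m + 1) x x := by rw [sum_comm]; simp only [mul_sum]
    _ ≤ ∑ _j : Fin (m + 1), w * ∑ x, (∑ y, G x y) ^ m := sum_le_sum fun j _ =>
        mul_le_mul_of_nonneg_left (h3 j) hw.le
    _ = _ := by rw [← sum_mul, hw1, one_mul]; rfl

end Vale.Agent.P162
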