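import Vale.Agent.P162.Cyc
import Vale.Agent.P162.Mat

open Finset Equiv Function
open scoped BigOperators Classical

noncomputable section

namespace Vale.Agent.P162

variable {d : ℕ}

theorem cycle_lemma {W : Finset (Fin d)} {ν : Perm (Q d)} (i : Fin d)
    (hν : Involutive ν) (hν' : ∀ x, ν x ≠ x) (S : Finset (Q d)) {v : ℕ} (hv : 0 < v)
    (hW : W.card = 16 * v) (hWi : ∀ l ∈ W, l < i) (H : Om d → ℝ) (hH : ∀ ω, 0 ≤ H ω)
    (hH' : ∀ ω ω', (∀ l, l ∉ W → ω l = ω' l) → H ω = H ω') :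
    𝔼 ω, (Cl ν (mu ω i) S : ℝ) ^ v * H ω ≤
      Real.exp ((S.filter fun a => ν a ∈ S).card / v) * 𝔼 ω, H ω := by
  set D := S.filter fun a => ν a ∈ S with hD
  let x : ℝ := (1 / 2) ^ (4 * v)
  have hx : 0 ≤ x := by positivity
  let g : ℕ → ℝ := fun m => if m = 0 then 1 else x
  have hg : ∀ m, 0 ≤ g m := fun m => by simp only [g]; split_ifs <;> positivity
  let Adv := Fintype.piFinset fun s => if s ∈ D then range (4 ^ v + 1) else {0}
  let E := Real.exp (v * D.card / 4 ^ v)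
  have h1 : ∀ ω, (Cl ν (mu ω i) S : ℝ) ^ v * H ω ≤ E * ∑ len ∈ Adv, (∏ s, g (len s)) *
      (if Good ν i len ω then 2 ^ (FF W ν i len ω).card * H ω else 0) := by
    intro ω
    obtain ⟨len, l1, l2, l3⟩ := exists_advice ω i hν hν' S v hW
    have hA : len ∈ Adv := by
      refine Fintype.mem_piFinset.2 fun s => ?_
      by_cases h : len s = 0
      · rw [h]; split_ifs <;> simp
      · rw [if_pos (mem_filter.2 (l1 s h).1)]; exact mem_range.2 (Nat.lt_succ_of_le (l1 s h).2)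
    refine le_trans ?_ (mul_le_mul_of_nonneg_left (single_le_sum (fun len _ => mul_nonneg
      (prod_nonneg fun _ _ => hg _) (by split_ifs; exacts [mul_nonneg (by positivity) (hH _), le_rfl]))
      hA) (Real.exp_pos _).le)
    rw [if_pos l2, ← mul_assoc, ← mul_assoc]
    refine mul_le_mul_of_nonneg_right ?_ (hH ω)
    set hs := ((Orbs ν (mu ω i) S).filter fun O => O.card ≤ 4 ^ v).card
    set k := (univ.filter fun s => len s ≠ 0).card with hk
    have e1 : ∏ s, g (len s) = x ^ k := by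
      simp only [g, prod_ite, prod_const_one, one_mul, prod_const, hk]
    have e2 := long_le hν (mu_mu ω i) S (4 ^ v)
    set hl := ((Orbs ν (mu ω i) S).filter fun O => ¬O.card ≤ 4 ^ v).card
    have e3 : (Cl ν (mu ω i) S : ℝ) ≤ 2 ^ (hl + hs) := by
      have := Cl_le_Orbs (ν := ν) (μ := mu ω i) S
      rw [← card_filter_add_card_filter_not (fun O : Finset (Q d) => O.card ≤ 4 ^ v), add_comm] at this
      exact_mod_cast this
    have e4 : (2 : ℝ) ^ (hl * v) ≤ E := by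
      have : (2 : ℝ) ≤ Real.exp 1 := by linarith [Real.add_one_le_exp 1]
      refine (pow_le_pow_left₀ (by norm_num) this _).trans ?_
      rw [← Real.exp_nat_mul, mul_one]
      refine Real.exp_le_exp.2 ?_
      rw [le_div_iff₀ (by positivity)]
      have e5 : (hl : ℝ) * 4 ^ v ≤ D.card := by exact_mod_cast e2
      push_cast
      nlinarith [(Nat.cast_nonneg v : (0 : ℝ) ≤ v)]
    have e5 : (2 : ℝ) ^ (hs * v) ≤ x ^ k * 2 ^ (FF W ν i len ω).card := by
      have : (2 : ℝ) ^ (4 * v * k + v * hs) ≤ 2 ^ (FF W ν i len ω).card :=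
        pow_le_pow_right₀ (by norm_num) l3
      refine le_trans (le_of_eq ?_) (mul_le_mul_of_nonneg_left this (by positivity))
      simp only [x]
      rw [← pow_mul, pow_add, ← mul_assoc, ← mul_pow, mul_comm v hs]; norm_num
    calc _ ≤ ((2 : ℝ) ^ (hl + hs)) ^ v := by gcongr
      _ = 2 ^ (hl * v) * 2 ^ (hs * v) := by rw [← pow_mul, add_mul, pow_add]
      _ ≤ E * (x ^ k * 2 ^ (FF W ν i len ω).card) := by gcongr
      _ = _ := by rw [e1, mul_assoc]
  have h2 : ∑ len ∈ Adv, ∏ s, g (len s) = (1 + 4 ^ v * x) ^ D.card := by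
    rw [← prod_univ_sum _ fun _ m => g m]
    rw [prod_congr rfl (g := fun s => if s ∈ D then 1 + 4 ^ v * x else 1) fun s _ => by
      split_ifs
      · rw [sum_range_succ']; simp [g, add_comm]
      · simp [g]]
    simp
  have h3 : E * (1 + 4 ^ v * x) ^ D.card ≤ Real.exp (D.card / v) := by
    have e1 : 4 ^ v * x = 1 / 4 ^ v := by
      simp only [x]; rw [pow_mul, eq_div_iff (by positivity), mul_right_comm, ← mul_pow, ← mul_pow]
      norm_num
    have e2 : (1 + 4 ^ v * x) ^ D.card ≤ Real.exp (D.card * (1 / 4 ^ v)) := by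
      rw [Real.exp_nat_mul, e1]
      gcongr
      linarith [Real.add_one_le_exp (1 / 4 ^ v)]
    refine (mul_le_mul_of_nonneg_left e2 (Real.exp_pos _).le).trans ?_
    rw [← Real.exp_add]
    refine Real.exp_le_exp.2 ?_
    have e3 : (v : ℝ) + 1 ≤ 2 ^ v := by exact_mod_cast Nat.lt_two_pow_self
    have e4 : (0 : ℝ) < v := by exact_mod_cast hv
    have e5 : (4 : ℝ) ^ v = 2 ^ v * 2 ^ v := by rw [← mul_pow]; norm_num
    have e6 : (v + 1) * v ≤ (4 : ℝ) ^ v := by rw [e5]; gcongr; linarith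
    calc _ = (D.card * (v + 1) / 4 ^ v : ℝ) := by ring
      _ ≤ _ := by
        rw [div_le_div_iff₀ (by positivity) e4, mul_assoc]; gcongr
  refine (expect_le_expect fun ω _ => h1 ω).trans ?_
  rw [← mul_expect, expect_sum_comm]
  refine le_trans ?_ (mul_le_mul_of_nonneg_right h3 (expect_nonneg fun ω _ => hH ω))
  rw [mul_assoc, ← h2, sum_mul]
  refine mul_le_mul_of_nonneg_left (sum_le_sum fun len _ => ?_) (Real.exp_pos _).le
  rw [← mul_expect]
  refine mul_le_mul_of_nonneg_left ?_ (prod_nonneg fun _ _ => hg _)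
  rw [Fintype.expect_eq_sum_div_card, Fintype.expect_eq_sum_div_card]
  exact div_le_div_of_nonneg_right (good_sum_le hν hWi H hH hH') (Nat.cast_nonneg _)

theorem Cl_le_pow {β : Type*} [DecidableEq β] (ν μ : Perm β) (S : Finset β) :
    Cl ν μ S ≤ 2 ^ (S.filter fun a => ν a ∈ S).card := by
  rw [← card_powerset]
  refine card_le_card fun U hU => ?_
  simp only [mem_filter, mem_powerset] at hU ⊢
  exact fun a ha => mem_filter.2 ⟨hU.1 ha, hU.1 (hU.2 a ha).1⟩

section Bl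
variable (ω₀ : Om d) (S : Finset (Q d))

def Yb (k : ℕ) (ω : Om d) : ℝ := ∏ l ∈ Ico (2 ^ k - 1) (2 ^ (k + 1) - 1), CN ω₀ ω S l ^ (1 / 32 : ℝ)

theorem CN_nonneg (ω : Om d) (l : ℕ) : 0 ≤ CN ω₀ ω S l := zero_le_one.trans (one_le_CN _ _ _ _)

theorem Yb_nonneg (k : ℕ) (ω : Om d) : 0 ≤ Yb ω₀ S k ω :=
  prod_nonneg fun _ _ => Real.rpow_nonneg (CN_nonneg _ _ _ _) _

theorem Yb_step {M : ℕ} (hM : ∀ l, (S.filter fun a => mu ω₀ l a ∈ S).card ≤ M) (k : ℕ)
    (H : Om d → ℝ) (hH : ∀ ω, 0 ≤ H ω)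
    (hH' : ∀ ω ω', (∀ l : Fin d, (l : ℕ) + 1 < 2 ^ (k - 1) → ω l = ω' l) → H ω = H ω') :
    𝔼 ω, Yb ω₀ S k ω * H ω ≤ Real.exp (M * (32 / 2 ^ k)) * 𝔼 ω, H ω := by
  have hc : (Ico (2 ^ k - 1) (2 ^ (k + 1) - 1)).card = 2 ^ k := by
    have := Nat.one_le_two_pow (n := k)
    rw [Nat.card_Ico, pow_succ]; omega
  rcases lt_or_ge k 5 with hk | hk
  · rw [mul_expect]
    refine expect_le_expect fun ω _ => mul_le_mul_of_nonneg_right ?_ (hH ω)
    have h1 : ∀ l, CN ω₀ ω S l ^ (1 / 32 : ℝ) ≤ Real.exp (M / 32) := by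
      intro l
      have h2 : CN ω₀ ω S l ≤ Real.exp M := by
        rw [CN]; split_ifs with h
        · have h3 : (Cl (mu ω₀ ⟨l, h⟩) (mu ω ⟨l, h⟩) S : ℝ) ≤ 2 ^ M := by
            exact_mod_cast (Cl_le_pow _ _ _).trans (Nat.pow_le_pow_right (by norm_num)
              (by convert hM ⟨l, h⟩))
          have : (2 : ℝ) ≤ Real.exp 1 := by linarith [Real.add_one_le_exp 1]
          refine h3.trans ((pow_le_pow_left₀ (by norm_num) this _).trans ?_)
          rw [← Real.exp_nat_mul, mul_one]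
        · exact Real.one_le_exp (Nat.cast_nonneg _)
      refine (Real.rpow_le_rpow (CN_nonneg _ _ _ _) h2 (by norm_num)).trans (le_of_eq ?_)
      rw [← Real.exp_mul]; congr 1; ring
    refine (prod_le_prod (fun _ _ => Real.rpow_nonneg (CN_nonneg _ _ _ _) _) fun l _ => h1 l).trans ?_
    rw [prod_const, hc, ← Real.exp_nat_mul]
    refine Real.exp_le_exp.2 ?_
    have : (0 : ℝ) ≤ M := Nat.cast_nonneg M
    interval_cases k <;> norm_num <;> linarith
  · obtain ⟨k, rfl⟩ := Nat.exists_eq_add_of_le' hk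
    have h1 : ∀ ω, Yb ω₀ S (k + 5) ω ≤ ∑ l ∈ Ico (2 ^ (k + 5) - 1) (2 ^ (k + 5 + 1) - 1),
        (1 / 2 ^ (k + 5) : ℝ) * CN ω₀ ω S l ^ 2 ^ k := by
      intro ω
      refine le_trans (le_of_eq (prod_congr rfl fun l _ => ?_))
        (Real.geom_mean_le_arith_mean_weighted _ (fun _ => 1 / 2 ^ (k + 5)) _
          (fun _ _ => by positivity) (by rw [sum_const, hc]; simp)
          fun l _ => pow_nonneg (CN_nonneg ω₀ S ω l) _)
      rw [← Real.rpow_natCast, ← Real.rpow_mul (CN_nonneg _ _ _ _)]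
      congr 1; push_cast; field_simp; ring
    have h2 : ∀ l ∈ Ico (2 ^ (k + 5) - 1) (2 ^ (k + 5 + 1) - 1),
        𝔼 ω, CN ω₀ ω S l ^ 2 ^ k * H ω ≤ Real.exp (M * (32 / 2 ^ (k + 5))) * 𝔼 ω, H ω := by
      intro l hl
      have hE : 0 ≤ 𝔼 ω, H ω := expect_nonneg fun ω _ => hH ω
      have p1 := Nat.one_le_two_pow (n := k)
      rw [mem_Ico, pow_add] at hl
      by_cases h : l < d
      · simp only [CN, dif_pos h]
        refine (cycle_lemma (W := univ.filter fun j : Fin d => (j : ℕ) ∈ Ico (16 * 2 ^ k - 1)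
          (32 * 2 ^ k - 1)) ⟨l, h⟩ (mu_mu ω₀ _) (mu_ne ω₀ _) S (v := 2 ^ k) p1 ?_ ?_ H hH ?_).trans
          (mul_le_mul_of_nonneg_right (Real.exp_le_exp.2 ?_) hE)
        · rw [← card_map Fin.valEmbedding]
          refine Eq.trans ?_ ((Nat.card_Ico (16 * 2 ^ k - 1) (32 * 2 ^ k - 1)).trans (by omega))
          congr 1; ext j
          simp only [mem_map, mem_filter, mem_univ, true_and, Fin.valEmbedding_apply, mem_Ico]
          constructor
          · rintro ⟨a, h1, rfl⟩; omega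
          · intro h1; exact ⟨⟨j, by omega⟩, by simp only; omega, rfl⟩
        · intro j hj
          rw [mem_filter, mem_Ico] at hj
          rw [Fin.lt_def]; simp only; omega
        · refine fun ω ω' h1 => hH' ω ω' fun j hj => h1 j fun hc => ?_
          rw [mem_filter, mem_Ico] at hc
          rw [show k + 5 - 1 = k + 4 by omega, pow_add] at hj
          omega
        · have h3 : ((S.filter fun a => mu ω₀ ⟨l, h⟩ a ∈ S).card : ℝ) ≤ M := by
            exact_mod_cast hM ⟨l, h⟩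
          calc _ ≤ (M : ℝ) / (2 ^ k : ℕ) := by gcongr
            _ = _ := by push_cast; field_simp; ring
      · simp only [CN, dif_neg h, one_pow, one_mul]
        exact le_mul_of_one_le_left hE (Real.one_le_exp (by positivity))
    refine (expect_le_expect fun ω _ => mul_le_mul_of_nonneg_right (h1 ω) (hH ω)).trans ?_
    simp only [sum_mul, expect_sum_comm, mul_assoc, ← mul_expect]
    refine (sum_le_sum fun l hl => mul_le_mul_of_nonneg_left (h2 l hl) (by positivity)).trans ?_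
    rw [sum_const, hc]; simp

def Pb : ℕ → Om d → ℝ
  | 0 => Yb ω₀ S 0
  | 1 => Yb ω₀ S 1
  | k + 2 => fun ω => Yb ω₀ S (k + 2) ω * Pb k ω

theorem Pb_nonneg (k : ℕ) (ω : Om d) : 0 ≤ Pb ω₀ S k ω := by
  induction k using Nat.twoStepInduction with
  | zero => exact Yb_nonneg _ _ _ _
  | one => exact Yb_nonneg _ _ _ _
  | more k ih _ => exact mul_nonneg (Yb_nonneg _ _ _ _) ih

theorem Yb_congr {k m : ℕ} (hk : k ≤ m) {ω ω' : Om d}
    (h : ∀ l : Fin d, (l : ℕ) + 1 < 2 ^ (m + 1) → ω l = ω' l) : Yb ω₀ S k ω = Yb ω₀ S k ω' := by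
  refine prod_congr rfl fun l hl => ?_
  rw [CN_congr S l (fun _ _ => rfl) fun j hj => h j ?_]
  have := Nat.pow_le_pow_right (show 0 < 2 by norm_num) (show k + 1 ≤ m + 1 by omega)
  rw [mem_Ico] at hl
  omega

theorem Pb_congr (k : ℕ) {m : ℕ} {ω ω' : Om d}
    (h : ∀ l : Fin d, (l : ℕ) + 1 < 2 ^ (m + 1) → ω l = ω' l) :
    k ≤ m → Pb ω₀ S k ω = Pb ω₀ S k ω' := by
  induction k using Nat.twoStepInduction with
  | zero => exact fun hk => Yb_congr _ _ hk h
  | one => exact fun hk => Yb_congr _ _ hk h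
  | more k ih _ => intro hk; simp only [Pb]; rw [Yb_congr _ _ hk h, ih (by omega)]

theorem expect_Pb {M : ℕ} (hM : ∀ l, (S.filter fun a => mu ω₀ l a ∈ S).card ≤ M) (k : ℕ) :
    𝔼 ω, Pb ω₀ S k ω ≤ Real.exp (M * (64 - 32 / 2 ^ k)) := by
  have hM0 : (0 : ℝ) ≤ M := Nat.cast_nonneg M
  induction k using Nat.twoStepInduction with
  | zero =>
    have := Yb_step ω₀ S hM 0 (fun _ => 1) (by simp) (by simp)
    simp only [mul_one, Fintype.expect_const] at this
    exact this.trans (Real.exp_le_exp.2 (by norm_num))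
  | one =>
    have := Yb_step ω₀ S hM 1 (fun _ => 1) (by simp) (by simp)
    simp only [mul_one, Fintype.expect_const] at this
    exact this.trans (Real.exp_le_exp.2 (by nlinarith))
  | more k ih _ =>
    refine (Yb_step ω₀ S hM (k + 2) (Pb ω₀ S k) (Pb_nonneg _ _ _)
      fun ω ω' h => Pb_congr _ _ k h le_rfl).trans ?_
    refine (mul_le_mul_of_nonneg_left ih (Real.exp_pos _).le).trans ?_
    rw [← Real.exp_add, ← mul_add]
    refine Real.exp_le_exp.2 (mul_le_mul_of_nonneg_left ?_ hM0)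
    have : (32 : ℝ) / 2 ^ k = 4 * (32 / 2 ^ (k + 2)) := by field_simp; ring
    have : (0 : ℝ) ≤ 32 / 2 ^ (k + 2) := by positivity
    linarith

theorem Pb_mul (k : ℕ) (ω : Om d) : Pb ω₀ S k ω * Pb ω₀ S (k + 1) ω =
    ∏ l ∈ range (2 ^ (k + 2) - 1), CN ω₀ ω S l ^ (1 / 32 : ℝ) := by
  induction k with
  | zero =>
    simp only [Pb, Yb]
    rw [range_eq_Ico]
    exact prod_Ico_consecutive _ (by norm_num) (by norm_num)
  | succ k ih =>
    simp only [Pb]
    rw [mul_comm (Yb _ _ _ _), ← mul_assoc, mul_comm _ (Pb ω₀ S k ω), ih, Yb]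
    refine prod_range_mul_prod_Ico _ ?_
    have := Nat.pow_le_pow_right (show 0 < 2 by norm_num) (show k + 2 ≤ k + 2 + 1 by omega)
    omega

theorem expect_CN {M : ℕ} (hM : ∀ l, (S.filter fun a => mu ω₀ l a ∈ S).card ≤ M) :
    𝔼 ω, (∏ l ∈ range d, CN ω₀ ω S l) ^ (1 / 127 : ℝ) ≤ Real.exp (64 * M) := by
  have h1 : ∀ ω, (∏ l ∈ range d, CN ω₀ ω S l) ^ (1 / 127 : ℝ) ≤
      (Pb ω₀ S d ω + Pb ω₀ S (d + 1) ω) / 2 := by
    intro ω
    have h2 : ((∏ l ∈ range d, CN ω₀ ω S l) ^ (1 / 127 : ℝ)) ^ 2 ≤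
        Pb ω₀ S d ω * Pb ω₀ S (d + 1) ω := by
      have h3 : 1 ≤ ∏ l ∈ range d, CN ω₀ ω S l := one_le_prod fun l _ => one_le_CN _ _ _ _
      rw [Pb_mul, Real.finsetProd_rpow _ _ fun l _ => CN_nonneg _ _ _ _, ← Real.rpow_natCast,
        ← Real.rpow_mul (by linarith)]
      refine (Real.rpow_le_rpow_of_exponent_le h3 (show _ ≤ (1 / 32 : ℝ) by norm_num)).trans
        (Real.rpow_le_rpow (by linarith) ?_ (by norm_num))
      refine prod_le_prod_of_subset_of_one_le (range_subset_range.2 ?_)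
        (fun l _ => CN_nonneg _ _ _ _) fun l _ _ => one_le_CN _ _ _ _
      have := Nat.lt_two_pow_self (n := d + 2)
      omega
    refine (abs_le_of_sq_le_sq' (h2.trans ?_) (by
      have := Pb_nonneg ω₀ S d ω; have := Pb_nonneg ω₀ S (d + 1) ω; positivity)).2
    nlinarith [sq_nonneg (Pb ω₀ S d ω - Pb ω₀ S (d + 1) ω)]
  refine (expect_le_expect fun ω _ => h1 ω).trans ?_
  have h2 : ∀ k, 𝔼 ω, Pb ω₀ S k ω ≤ Real.exp (64 * M) := fun k =>
    (expect_Pb ω₀ S hM k).trans (Real.exp_le_exp.2 (by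
      have : (0 : ℝ) ≤ M * (32 / 2 ^ k) := by positivity
      linarith))
  rw [← expect_div, expect_add_distrib]
  linarith [h2 d, h2 (d + 1)]

end Bl

end Vale.Agent.P162
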