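import Mathlib

open Finset Equiv Function
open scoped BigOperators

noncomputable section

namespace Vale.Agent.P162

abbrev Q (d : ℕ) := Fin d → Bool
abbrev Om (d : ℕ) := Fin d → Q d → Bool

variable {d : ℕ}

def key (i : Fin d) (x : Q d) : Q d := update x i false

def flp (i : Fin d) : Perm (Q d) :=
  Involutive.toPerm (fun x => update x i (!x i)) fun x => by simp

def sw (i : Fin d) (c : Q d → Bool) : Perm (Q d) :=
  Involutive.toPerm (fun x => update x i (xor (x i) (c (key i x)))) fun x => by simp [key]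

theorem flp_apply (i : Fin d) (x : Q d) : flp i x = update x i (!x i) := rfl
theorem sw_apply (i : Fin d) (c : Q d → Bool) (x : Q d) :
    sw i c x = update x i (xor (x i) (c (key i x))) := rfl

theorem flp_flp (i : Fin d) (x : Q d) : flp i (flp i x) = x := by simp [flp_apply]
theorem sw_sw (i : Fin d) (c : Q d → Bool) (x : Q d) : sw i c (sw i c x) = x := by
  simp [sw_apply, key]
theorem sw_inv (i : Fin d) (c : Q d → Bool) : (sw i c)⁻¹ = sw i c := rfl
theorem flp_ne (i : Fin d) (x : Q d) : flp i x ≠ x := fun h => by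
  simpa [flp_apply] using congrFun h i
theorem sw_flp (i : Fin d) (c : Q d → Bool) (x : Q d) : sw i c (flp i x) = flp i (sw i c x) := by
  simp [sw_apply, flp_apply, key]
theorem sw_self (i : Fin d) (c : Q d → Bool) (x : Q d) : sw i c x i = xor (x i) (c (key i x)) := by
  simp [sw_apply]
theorem sw_of_ne {i l : Fin d} (h : l ≠ i) (c : Q d → Bool) (x : Q d) : sw i c x l = x l := by
  simp [sw_apply, h]

theorem key_eq {i : Fin d} {x y : Q d} (h : key i x = key i y) : x = y ∨ x = flp i y := by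
  have h1 : ∀ l, l ≠ i → x l = y l := fun l hl => by simpa [key, hl] using congrFun h l
  by_cases h2 : x i = y i
  · left; funext l; by_cases hl : l = i
    · rw [hl, h2]
    · exact h1 l hl
  · right; funext l; by_cases hl : l = i
    · subst hl; simp [flp_apply]; exact Bool.eq_not.2 h2
    · simp [flp_apply, hl, h1 l hl]

def lay (ω : Om d) (i : ℕ) : Perm (Q d) := if h : i < d then sw ⟨i, h⟩ (ω ⟨i, h⟩) else 1

def pos (ω : Om d) : ℕ → Perm (Q d)
  | 0 => 1
  | i + 1 => lay ω i * pos ω i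

theorem pos_succ (ω : Om d) (i : Fin d) (x : Q d) :
    pos ω (i + 1) x = sw i (ω i) (pos ω i x) := by
  simp [pos, lay]

theorem pos_congr {ω ω' : Om d} (i : ℕ) (h : ∀ l : Fin d, (l : ℕ) < i → ω l = ω' l) :
    pos ω i = pos ω' i := by
  induction i with
  | zero => rfl
  | succ i ih =>
    rw [pos, pos, ih fun l hl => h l (by omega), lay, lay]
    split_ifs with hi
    · rw [h _ (by simp)]
    · rfl

def mu (ω : Om d) (i : Fin d) : Perm (Q d) := (pos ω i)⁻¹ * flp i * pos ω i

theorem mu_apply (ω : Om d) (i : Fin d) (x : Q d) :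
    mu ω i x = (pos ω i)⁻¹ (flp i (pos ω i x)) := rfl

theorem mu_eq_iff {ω : Om d} {i : Fin d} {x y : Q d} :
    mu ω i x = y ↔ pos ω i y = flp i (pos ω i x) := by
  rw [mu_apply, Perm.inv_eq_iff_eq, eq_comm]

theorem mu_mu (ω : Om d) (i : Fin d) (x : Q d) : mu ω i (mu ω i x) = x := by
  simp [mu_apply, flp_flp]

theorem mu_ne (ω : Om d) (i : Fin d) (x : Q d) : mu ω i x ≠ x := fun h =>
  flp_ne i _ (mu_eq_iff.1 h).symm

theorem mu_congr {ω ω' : Om d} (i : Fin d) (h : ∀ l : Fin d, l < i → ω l = ω' l) :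
    mu ω i = mu ω' i := by
  rw [mu, mu, pos_congr i h]

/-- number of subsets of `S` closed under both maps -/
def Cl {β : Type*} [DecidableEq β] (μ ν : Perm β) (S : Finset β) : ℕ :=
  (S.powerset.filter fun U => ∀ a ∈ U, μ a ∈ U ∧ ν a ∈ U).card

theorem one_le_Cl {β : Type*} [DecidableEq β] (μ ν : Perm β) (S : Finset β) : 1 ≤ Cl μ ν S :=
  card_pos.2 ⟨∅, by simp⟩

def CN (ω ω' : Om d) (S : Finset (Q d)) (l : ℕ) : ℝ :=
  if h : l < d then Cl (mu ω ⟨l, h⟩) (mu ω' ⟨l, h⟩) S else 1

theorem one_le_CN (ω ω' : Om d) (S : Finset (Q d)) (l : ℕ) : 1 ≤ CN ω ω' S l := by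
  rw [CN]; split_ifs
  · exact_mod_cast one_le_Cl _ _ _
  · rfl

theorem CN_congr {ω₁ ω₂ ω₁' ω₂' : Om d} (S : Finset (Q d)) (i : ℕ)
    (h : ∀ l : Fin d, (l : ℕ) < i → ω₁ l = ω₂ l) (h' : ∀ l : Fin d, (l : ℕ) < i → ω₁' l = ω₂' l) :
    CN ω₁ ω₁' S i = CN ω₂ ω₂' S i := by
  rw [CN, CN]; split_ifs with hi
  · rw [mu_congr ⟨i, hi⟩ h, mu_congr (ω := ω₁') ⟨i, hi⟩ h']
  · rfl

theorem resample {ι β : Type*} [Fintype ι] [DecidableEq ι] [Fintype β] [Nonempty β] (i : ι)
    (f : (ι → β) → ℝ) : 𝔼 ω, f ω = 𝔼 ω, 𝔼 c, f (update ω i c) := by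
  rw [← expect_product', univ_product_univ]
  have hi : Involutive fun p : (ι → β) × β => (update p.1 i p.2, p.1 i) := fun p => by simp
  rw [Fintype.expect_equiv hi.toPerm (fun p => f (update p.1 i p.2)) (fun p => f p.1) fun p => rfl,
    ← univ_product_univ, expect_product' _ _ (fun ω _ => f ω)]
  simp

section KI
variable {J : Type*} [Fintype J] [DecidableEq J]

def clo (i : Fin d) (z : J → Q d) (U : Finset J) : Prop := ∀ j ∈ U, ∃ j' ∈ U, z j' = flp i (z j)

instance (i : Fin d) (z : J → Q d) : DecidablePred (clo i z) := fun _ => by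
  unfold clo; infer_instance

def Cz (i : Fin d) (z z' : J → Q d) : ℕ := (univ.filter fun U => clo i z U ∧ clo i z' U).card

theorem one_le_Cz (i : Fin d) (z z' : J → Q d) : 1 ≤ Cz i z z' :=
  card_pos.2 ⟨∅, mem_filter.2 ⟨mem_univ _, by simp [clo]⟩⟩

def sg (b : Bool) : ℝ := if b then -1 else 1

theorem expect_sg (i : Fin d) {z : J → Q d} (hz : Injective z) (U : Finset J) :
    |𝔼 c, ∏ j ∈ U, sg (sw i c (z j) i)| ≤ if clo i z U then 1 else 0 := by
  split_ifs with h
  · refine (abs_expect_le _ _).trans (expect_le univ_nonempty fun c _ => le_of_eq ?_)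
    rw [abs_prod]
    exact prod_eq_one fun j _ => by unfold sg; split_ifs <;> simp
  · simp only [clo, not_forall, not_exists, not_and] at h
    obtain ⟨j0, hj0, h⟩ := h
    have hi : Involutive fun c : Q d → Bool => update c (key i (z j0)) (!c (key i (z j0))) :=
      fun c => by simp
    have := Fintype.expect_equiv hi.toPerm (fun c => -∏ j ∈ U, sg (sw i c (z j) i))
      (fun c => ∏ j ∈ U, sg (sw i c (z j) i)) fun c => by
        rw [← mul_prod_erase U _ hj0, ← mul_prod_erase U _ hj0, ← neg_mul]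
        congr 1
        · simp only [sw_self, Involutive.coe_toPerm, update_self, sg]
          cases z j0 i <;> cases c (key i (z j0)) <;> simp
        · refine prod_congr rfl fun j hj => ?_
          have : key i (z j) ≠ key i (z j0) := fun hc => by
            rcases key_eq hc with h1 | h1
            · exact ne_of_mem_erase hj (hz h1)
            · exact h j (mem_of_mem_erase hj) h1
          simp [sw_self, this]
    rw [expect_neg_distrib] at this
    rw [abs_nonpos_iff]; linarith

theorem agree_le (i : Fin d) {z z' : J → Q d} (hz : Injective z) (hz' : Injective z') :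
    𝔼 c, 𝔼 c', (if ∀ j, sw i c (z j) i = sw i c' (z' j) i then (1 : ℝ) else 0) ≤
      Cz i z z' * (1 / 2) ^ Fintype.card J := by
  have h1 : ∀ b b' : J → Bool, (if ∀ j, b j = b' j then (1 : ℝ) else 0) =
      (∑ U : Finset J, (∏ j ∈ U, sg (b j)) * ∏ j ∈ U, sg (b' j)) * (1 / 2) ^ Fintype.card J := by
    intro b b'
    simp only [← prod_mul_distrib]
    rw [← powerset_univ, ← prod_one_add, ← card_univ, ← prod_const, ← prod_mul_distrib]
    split_ifs with h
    · refine (prod_eq_one fun j _ => ?_).symm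
      rw [h j]; cases b' j <;> norm_num [sg]
    · push Not at h
      obtain ⟨j, hj⟩ := h
      refine (prod_eq_zero (mem_univ j) ?_).symm
      revert hj; cases b j <;> cases b' j <;> simp [sg]
  simp only [h1, ← expect_mul, expect_sum_comm, ← mul_expect]
  refine mul_le_mul_of_nonneg_right ?_ (by positivity)
  rw [Cz, card_filter]
  push_cast
  refine sum_le_sum fun U _ => (le_abs_self _).trans ?_
  rw [abs_mul]
  refine (mul_le_mul (expect_sg i hz U) (expect_sg i hz' U) (abs_nonneg _)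
    (by split_ifs <;> norm_num)).trans (le_of_eq ?_)
  by_cases h : clo i z U <;> by_cases h' : clo i z' U <;> simp [h, h']

theorem Cz_le_Cl (ω ω' : Om d) (i : Fin d) {y : J → Q d} (hy : Injective y) :
    Cz i (pos ω (i + 1) ∘ y) (pos ω' (i + 1) ∘ y) ≤ Cl (mu ω i) (mu ω' i) (univ.image y) := by
  have h1 : ∀ (ω : Om d) (U : Finset J), clo i (pos ω (i + 1) ∘ y) U →
      ∀ a ∈ U.image y, mu ω i a ∈ U.image y := by
    intro ω U h a ha
    obtain ⟨j, hj, rfl⟩ := mem_image.1 ha
    obtain ⟨j', hj', h2⟩ := h j hj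
    refine mem_image.2 ⟨j', hj', (mu_eq_iff.2 ?_).symm⟩
    simp only [comp_apply, pos_succ, ← sw_flp] at h2
    exact (sw i (ω i)).injective h2
  refine card_le_card_of_injOn (fun U => U.image y) (fun U hU => ?_)
    ((image_injective hy).injOn)
  simp only [coe_filter, mem_univ, true_and, Set.mem_ofPred_eq, mem_powerset] at hU ⊢
  exact ⟨image_subset_image (subset_univ _), fun a ha => ⟨h1 _ _ hU.1 a ha, h1 _ _ hU.2 a ha⟩⟩

def Phi (i : ℕ) (ω ω' : Om d) (z z' : J → Q d) : ℝ :=
  if ⇑(pos ω i)⁻¹ ∘ z = ⇑(pos ω' i)⁻¹ ∘ z' then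
    (∏ l ∈ range i, CN ω ω' (univ.image (⇑(pos ω i)⁻¹ ∘ z)) l)⁻¹ else 0

theorem Phi_step (i : Fin d) (ω ω' : Om d) (c c' : Q d → Bool) {z : J → Q d} (z' : J → Q d)
    (hz : Injective z) : Phi (i + 1) (update ω i c) (update ω' i c') z z' ≤
      (Cz i z z' : ℝ)⁻¹ * Phi i ω ω' (sw i c ∘ z) (sw i c' ∘ z') := by
  have h1 : ∀ (ω : Om d) (c) (l : Fin d), (l : ℕ) < i → update ω i c l = ω l := fun ω c l hl =>
    update_of_ne (fun h => by simp [h] at hl) _ _
  have h2 : ∀ (ω : Om d) (c) (z : J → Q d),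
      ⇑(pos (update ω i c) (i + 1))⁻¹ ∘ z = ⇑(pos ω i)⁻¹ ∘ (sw i c ∘ z) := by
    intro ω c z
    funext j
    simp only [comp_apply]
    rw [Perm.inv_eq_iff_eq, pos_succ, pos_congr i (h1 ω c)]
    simp [sw_sw]
  have h3 := Cz_le_Cl (update ω i c) (update ω' i c') i
    (y := ⇑(pos (update ω i c) (i + 1))⁻¹ ∘ z) ((Equiv.injective _).comp hz)
  rw [Phi, Phi]
  split_ifs with h4 h5 h5
  · have e1 : ⇑(pos (update ω i c) (i + 1)) ∘ ⇑(pos (update ω i c) (i + 1))⁻¹ ∘ z = z := by
      funext j; simp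
    have e2 : ⇑(pos (update ω' i c') (i + 1)) ∘ ⇑(pos (update ω i c) (i + 1))⁻¹ ∘ z = z' := by
      rw [h4]; funext j; simp
    rw [e1, e2] at h3
    rw [prod_range_succ, mul_inv, mul_comm, CN, dif_pos i.2]
    refine mul_le_mul (inv_anti₀ (by exact_mod_cast one_le_Cz i z z') (by exact_mod_cast h3))
      (le_of_eq ?_) (inv_nonneg.2 (prod_nonneg fun l _ => zero_le_one.trans (one_le_CN _ _ _ _)))
      (by positivity)
    rw [h2]
    refine congrArg _ (prod_congr rfl fun l hl => CN_congr _ _ (fun l' hl' => h1 _ _ _ ?_)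
      fun l' hl' => h1 _ _ _ ?_) <;> exact hl'.trans (mem_range.1 hl)
  · exact absurd (by rw [← h2, ← h2, h4]) h5
  · exact mul_nonneg (by positivity)
      (inv_nonneg.2 (prod_nonneg fun l _ => zero_le_one.trans (one_le_CN _ _ _ _)))
  · simp

theorem KI (i : ℕ) : i ≤ d → ∀ z z' : J → Q d, Injective z → Injective z' →
    𝔼 ω, 𝔼 ω', Phi i ω ω' z z' ≤
      if ∀ j, ∀ l : Fin d, i ≤ l → z j l = z' j l then ((1 / 2) ^ Fintype.card J) ^ i else 0 := by
  induction i with
  | zero =>
    intro _ z z' _ _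
    refine expect_le univ_nonempty fun ω _ => expect_le univ_nonempty fun ω' _ => ?_
    simp only [Phi, pos, inv_one, Perm.coe_one, id_comp, range_zero, prod_empty, zero_le,
      forall_const, pow_zero]
    split_ifs with h1 h2 h2
    · rfl
    · exact absurd (fun j l => by rw [h1]) h2
    · norm_num
    · rfl
  | succ i ih =>
    intro hi z z' hz hz'
    let I : Fin d := ⟨i, hi⟩
    have hC : (0 : ℝ) < Cz I z z' := by exact_mod_cast one_le_Cz I z z'
    set t : ℝ := (1 / 2) ^ Fintype.card J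
    have ht : 0 ≤ t := by positivity
    calc 𝔼 ω, 𝔼 ω', Phi (i + 1) ω ω' z z'
        = 𝔼 ω, 𝔼 c, 𝔼 ω', 𝔼 c', Phi (i + 1) (update ω I c) (update ω' I c') z z' := by
          rw [resample I]
          exact expect_congr rfl fun ω _ => expect_congr rfl fun c _ => resample I _
      _ ≤ 𝔼 ω, 𝔼 c, 𝔼 ω', 𝔼 c', (Cz I z z' : ℝ)⁻¹ * Phi i ω ω' (sw I c ∘ z) (sw I c' ∘ z') :=
          expect_le_expect fun ω _ => expect_le_expect fun c _ => expect_le_expect fun ω' _ =>
            expect_le_expect fun c' _ => Phi_step I ω ω' c c' z' hz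
      _ = (Cz I z z' : ℝ)⁻¹ * 𝔼 c, 𝔼 c', 𝔼 ω, 𝔼 ω', Phi i ω ω' (sw I c ∘ z) (sw I c' ∘ z') := by
          simp only [← mul_expect]
          rw [expect_comm]
          refine congrArg _ (expect_congr rfl fun c _ => ?_)
          rw [expect_congr rfl fun ω _ => expect_comm _ _ _, expect_comm]
      _ ≤ (Cz I z z' : ℝ)⁻¹ * 𝔼 c, 𝔼 c',
            (if ∀ j, sw I c (z j) I = sw I c' (z' j) I then (1 : ℝ) else 0) *
            if ∀ j, ∀ l : Fin d, i + 1 ≤ l → z j l = z' j l then t ^ i else 0 := by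
          refine mul_le_mul_of_nonneg_left (expect_le_expect fun c _ => expect_le_expect fun c' _ =>
            (ih (by omega) _ _ ((Equiv.injective _).comp hz) ((Equiv.injective _).comp hz')).trans ?_)
            (by positivity)
          split_ifs with h1 h2 h3 h3
          · simp
          · refine absurd (fun j l hl => ?_) h3
            have hl' : l ≠ I := fun h => by simp [h, I] at hl
            simpa [sw_of_ne hl'] using h1 j l (by omega)
          · exact absurd (fun j => h1 j I le_rfl) h2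
          · exact absurd (fun j => h1 j I le_rfl) h2
          all_goals positivity
      _ ≤ _ := by
          simp only [← expect_mul]
          have := agree_le I hz hz'
          split_ifs
          · calc _ ≤ (Cz I z z' : ℝ)⁻¹ * ((Cz I z z' * t) * t ^ i) := by gcongr
              _ = _ := by field_simp; ring
          · simp

end KI

end Vale.Agent.P162
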