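import Vale.Agent.P162.Cube

open Finset Equiv Function
open scoped BigOperators Classical

noncomputable section

namespace Vale.Agent.P162

variable {d : ℕ}

theorem pos_coord_ge (ω : Om d) (b : Q d) (l : Fin d) (j : ℕ) (h : j ≤ l) : pos ω j b l = b l := by
  induction j with
  | zero => rfl
  | succ j ih =>
    have := pos_succ ω ⟨j, by omega⟩ b
    simp only at this
    rw [this, sw_of_ne (fun hc => by simp [hc] at h), ih (by omega)]

theorem pos_coord_lt (ω : Om d) (b : Q d) (l : Fin d) {j i : ℕ} (h : l < j) (hji : j ≤ i) :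
    pos ω i b l = pos ω j b l := by
  induction i, hji using Nat.le_induction with
  | base => rfl
  | succ i hi ih =>
    rw [pos, Perm.mul_apply, lay]
    split_ifs with h1
    · rw [sw_of_ne (fun hc => by simp [hc] at h; omega), ih]
    · exact ih

theorem path_unique {ω₁ ω₂ : Om d} {b : Q d} {i : ℕ} (h : pos ω₁ i b = pos ω₂ i b) {j : ℕ}
    (hj : j ≤ i) : pos ω₁ j b = pos ω₂ j b := by
  funext l
  rcases lt_or_ge (l : ℕ) j with h1 | h1
  · rw [← pos_coord_lt ω₁ b l h1 hj, ← pos_coord_lt ω₂ b l h1 hj, h]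
  · rw [pos_coord_ge _ _ _ _ h1, pos_coord_ge _ _ _ _ h1]

theorem coin_unique {ω₁ ω₂ : Om d} {b : Q d} {i : ℕ} (h : pos ω₁ i b = pos ω₂ i b) {j : Fin d}
    (hj : j < i) : ω₁ j (key j (pos ω₁ j b)) = ω₂ j (key j (pos ω₁ j b)) := by
  have h1 := congrFun (path_unique h (j := j + 1) hj) j
  rw [pos_succ, pos_succ, sw_self, sw_self, ← path_unique h hj.le] at h1
  simpa using h1

section Adv
variable (W : Finset (Fin d)) (ν : Perm (Q d)) (i : Fin d) (len : Q d → ℕ)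

def Good (ω : Om d) : Prop := ∀ s, len s ≠ 0 → ((ν * mu ω i) ^ len s) s = s

def NC (ω : Om d) (a : Q d) : Prop := ∃ s k, (k < len s ∧ a = ((ν * mu ω i) ^ k) s) ∨
  (k + 1 < len s ∧ a = mu ω i (((ν * mu ω i) ^ k) s))

def FF (ω : Om d) : Finset (Fin d × Q d) := univ.filter fun σ => σ.1 ∈ W ∧
  (∃ s, len s ≠ 0 ∧ σ.2 = key σ.1 (pos ω σ.1 (ν s))) ∧
  ∀ a, NC ν i len ω a → σ.2 ≠ key σ.1 (pos ω σ.1 a)

variable {W ν i len}

theorem pos_NC {ω ω' : Om d} (h : ∀ l x, (l, x) ∉ FF W ν i len ω → ω' l x = ω l x) {a : Q d}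
    (ha : NC ν i len ω a) (j : ℕ) : pos ω' j a = pos ω j a := by
  induction j with
  | zero => rfl
  | succ j ih =>
    rw [pos, pos, Perm.mul_apply, Perm.mul_apply, ih, lay, lay]
    split_ifs with h1
    · rw [sw_apply, sw_apply, h]
      intro hc
      exact (mem_filter.1 hc).2.2.2 a ha rfl
    · rfl

theorem tau_NC {ω ω' : Om d} (h : ∀ l x, (l, x) ∉ FF W ν i len ω → ω' l x = ω l x) (s : Q d)
    (k : ℕ) (hk : k < len s) : ((ν * mu ω' i) ^ k) s = ((ν * mu ω i) ^ k) s := by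
  induction k with
  | zero => rfl
  | succ k ih =>
    rw [pow_succ', pow_succ', Perm.mul_apply, Perm.mul_apply, Perm.mul_apply, Perm.mul_apply,
      ih (by omega)]
    congr 1
    rw [mu_eq_iff, pos_NC h ⟨s, k, Or.inr ⟨hk, rfl⟩⟩, pos_NC h ⟨s, k, Or.inl ⟨by omega, rfl⟩⟩,
      ← mu_eq_iff]

theorem good_unique (hν : Involutive ν) (hW : ∀ l ∈ W, l < i) {ω₁ ω₂ ω : Om d}
    (g₁ : Good ν i len ω₁) (g₂ : Good ν i len ω₂)
    (h₁ : ∀ l x, (l, x) ∉ FF W ν i len ω₁ → ω l x = ω₁ l x)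
    (h₂ : ∀ l x, (l, x) ∉ FF W ν i len ω₂ → ω l x = ω₂ l x) : ω₁ = ω₂ := by
  have e : ∀ {ω₁ : Om d}, Good ν i len ω₁ → (∀ l x, (l, x) ∉ FF W ν i len ω₁ → ω l x = ω₁ l x) →
      ∀ s, len s ≠ 0 → pos ω₁ i (ν s) = flp i (pos ω i (((ν * mu ω i) ^ (len s - 1)) s)) := by
    intro ω₁ g h s hs
    have h1 := g s hs
    have h2 : len s - 1 < len s := by omega
    rw [tau_NC h s _ h2, pos_NC h ⟨s, _, Or.inl ⟨h2, rfl⟩⟩, ← mu_eq_iff]
    conv_lhs at h1 => rw [show len s = (len s - 1) + 1 by omega, pow_succ']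
    rw [Perm.mul_apply, Perm.mul_apply] at h1
    rw [← hν (mu ω₁ i _), h1]
  have e2 : ∀ s, len s ≠ 0 → pos ω₁ i (ν s) = pos ω₂ i (ν s) := fun s hs => by
    rw [e g₁ h₁ s hs, e g₂ h₂ s hs]
  funext l x
  by_cases c1 : (l, x) ∈ FF W ν i len ω₁
  · obtain ⟨-, hl, ⟨s, hs, hx⟩, -⟩ := mem_filter.1 c1
    simp only at hx hl
    rw [hx]; exact coin_unique (e2 s hs) (hW l hl)
  by_cases c2 : (l, x) ∈ FF W ν i len ω₂
  · obtain ⟨-, hl, ⟨s, hs, hx⟩, -⟩ := mem_filter.1 c2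
    simp only at hx hl
    rw [hx]; exact (coin_unique (e2 s hs).symm (hW l hl)).symm
  rw [← h₁ l x c1, h₂ l x c2]

theorem good_sum_le (hν : Involutive ν) (hW : ∀ l ∈ W, l < i) (H : Om d → ℝ) (hH : ∀ ω, 0 ≤ H ω)
    (hH' : ∀ ω ω', (∀ l, l ∉ W → ω l = ω' l) → H ω = H ω') :
    ∑ ω, (if Good ν i len ω then 2 ^ (FF W ν i len ω).card * H ω else 0) ≤ ∑ ω, H ω := by
  let C : Om d → Finset (Om d) := fun ω =>
    univ.filter fun ω' => ∀ l x, (l, x) ∉ FF W ν i len ω → ω' l x = ω l x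
  have h1 : ∀ ω, 2 ^ (FF W ν i len ω).card * H ω ≤ ∑ ω' ∈ C ω, H ω' := by
    intro ω
    have h2 : ∀ ω' ∈ C ω, H ω' = H ω := fun ω' h => hH' _ _ fun l hl => funext fun x =>
      (mem_filter.1 h).2 l x fun hc => hl (mem_filter.1 hc).2.1
    rw [sum_congr rfl h2, sum_const, nsmul_eq_mul]
    refine mul_le_mul_of_nonneg_right ?_ (hH ω)
    have : (FF W ν i len ω).powerset.card ≤ (C ω).card := by
      refine card_le_card_of_injOn (fun η l x => xor (ω l x) (decide ((l, x) ∈ η))) ?_ ?_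
      · intro η hη
        simp only [coe_powerset, Set.mem_preimage, Set.mem_powerset_iff, coe_subset] at hη
        simp only [C, coe_filter, mem_univ, true_and, Set.mem_ofPred_eq]
        intro l x h
        have : (l, x) ∉ η := fun hc => h (hη hc)
        simp [this]
      · intro η _ η' _ h
        ext ⟨l, x⟩
        simpa using congrFun (congrFun h l) x
    rw [card_powerset] at this
    exact_mod_cast this
  rw [← sum_filter]
  refine (sum_le_sum fun ω _ => h1 ω).trans ?_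
  rw [← sum_biUnion]
  · exact sum_le_sum_of_subset_of_nonneg (subset_univ _) fun ω _ _ => hH ω
  · intro ω₁ g₁ ω₂ g₂ hne
    refine disjoint_left.2 fun ω c1 c2 => hne ?_
    exact good_unique hν hW (mem_filter.1 g₁).2 (mem_filter.1 g₂).2 (mem_filter.1 c1).2
      (mem_filter.1 c2).2

end Adv

theorem isoper (ω : Om d) (W : Finset (Fin d)) : ∀ T : Finset (Q d), T.Nonempty →
    ∃ b ∈ T, 2 ^ (W.filter fun j => mu ω j b ∈ T).card ≤ T.card := by
  induction W using Finset.induction_on_min with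
  | empty => intro T ⟨b, hb⟩; exact ⟨b, hb, card_pos.2 ⟨b, hb⟩⟩
  | insert j0 W hW ih =>
    intro T hT
    by_cases h : ∀ a ∈ T, mu ω j0 a ∉ T
    · obtain ⟨b, hb, h1⟩ := ih T hT
      refine ⟨b, hb, ?_⟩
      rwa [filter_insert, if_neg (h b hb)]
    push Not at h
    obtain ⟨a, ha, ha'⟩ := h
    let φ : Q d → Bool := fun x => pos ω (j0 + 1) x j0
    have h1 : φ (mu ω j0 a) = !φ a := by
      simp only [φ, pos_succ]
      rw [mu_eq_iff.1 rfl, sw_flp, flp_apply, update_self]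
    have h2 : ∀ j ∈ W, ∀ x, φ (mu ω j x) = φ x := by
      intro j hj x
      have := hW j hj
      simp only [φ]
      rw [← pos_coord_lt ω _ j0 (Nat.lt_succ_self _) (i := j) this,
        ← pos_coord_lt ω x j0 (Nat.lt_succ_self _) (i := j) this, mu_eq_iff.1 rfl, flp_apply,
        update_of_ne this.ne]
    have h3 : ∀ β, (T.filter fun x => φ x = β).Nonempty := by
      intro β
      by_cases h4 : φ a = β
      · exact ⟨a, mem_filter.2 ⟨ha, h4⟩⟩
      · exact ⟨_, mem_filter.2 ⟨ha', by rw [h1]; revert h4; cases φ a <;> cases β <;> simp⟩⟩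
    obtain ⟨β, hβ⟩ : ∃ β, 2 * (T.filter fun x => φ x = β).card ≤ T.card := by
      have := card_filter_add_card_filter_not (s := T) (fun x => φ x = true)
      simp only [Bool.not_eq_true] at this
      by_contra hc
      push Not at hc
      have := hc true; have := hc false
      omega
    obtain ⟨b, hb, h4⟩ := ih _ (h3 β)
    refine ⟨b, (mem_filter.1 hb).1, le_trans ?_ hβ⟩
    refine le_trans ?_ (Nat.mul_le_mul_left 2 h4)
    rw [← pow_succ']
    refine Nat.pow_le_pow_right (by norm_num) (le_trans (card_le_card ?_) (card_insert_le j0 _))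
    intro j hj
    rw [mem_filter, mem_insert] at hj
    rcases hj.1 with h5 | h5
    · rw [h5]; exact mem_insert_self _ _
    · exact mem_insert_of_mem (mem_filter.2 ⟨h5, mem_filter.2 ⟨hj.2, by
        rw [h2 j h5, (mem_filter.1 hb).2]⟩⟩)

theorem dihedral {β : Type*} {ν μ : Perm β} (hν : Involutive ν) (hν' : ∀ x, ν x ≠ x)
    (hμ : Involutive μ) (hμ' : ∀ x, μ x ≠ x) (k : ℕ) : ∀ s, ((ν * μ) ^ k) s ≠ ν s := by
  induction k using Nat.twoStepInduction with
  | zero => intro s h; exact hν' s h.symm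
  | one => intro s h; exact hμ' s (ν.injective (by simpa using h))
  | more k ih _ =>
    intro s h
    refine ih ((ν * μ) s) ?_
    rw [pow_succ, pow_succ', Perm.mul_apply, Perm.mul_apply, Perm.mul_apply] at h
    rw [Perm.mul_apply ν μ s, hν, ← Perm.mul_apply ν μ s, ← hμ (((ν * μ) ^ k) _), ν.injective h]

theorem half {γ : Type*} [Fintype γ] (O : γ) :
    𝔼 ε : γ → Bool, (if ε O = true then (1 : ℝ) else 0) = 1 / 2 := by
  rw [resample O]
  simp [Fintype.expect_eq_sum_div_card]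

theorem quarter {γ : Type*} [Fintype γ] {O O' : γ} (h : O ≠ O') :
    𝔼 ε : γ → Bool, (if ε O = true ∧ ε O' = false then (1 : ℝ) else 0) = 1 / 4 := by
  rw [resample O']
  have : ∀ ε : γ → Bool, 𝔼 c, (if update ε O' c O = true ∧ update ε O' c O' = false then (1 : ℝ)
      else 0) = (if ε O = true then (1 : ℝ) else 0) * (1 / 2) := by
    intro ε
    by_cases h1 : ε O = true <;> simp [Fintype.expect_eq_sum_div_card, h, h1]
  simp only [this, ← expect_mul, half]
  norm_num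

theorem exists_family {γ κ : Type*} [Fintype γ] (H : Finset γ) (W : Finset κ) (v : ℕ)
    (hW : W.card = 16 * v) (bad : γ → κ → γ → Prop)
    (h1 : ∀ O j, ∀ O₁ ∈ H, ∀ O₂ ∈ H, bad O j O₁ → bad O j O₂ → O₁ = O₂)
    (h2 : ∀ O ∈ H, (W.filter fun j => bad O j O).card ≤ 2 * v) :
    ∃ A ⊆ H, 4 * v * A.card + v * H.card ≤
      ((A ×ˢ W).filter fun p => ∀ O' ∈ A, ¬bad p.1 p.2 O').card := by
  let f : (γ → Bool) → ℝ := fun ε => ∑ O ∈ H, (∑ j ∈ W,
    (if ε O = true ∧ ∀ O' ∈ H, ε O' = true → ¬bad O j O' then (1 : ℝ) else 0) -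
      4 * v * (if ε O = true then (1 : ℝ) else 0))
  have h3 : (v * H.card : ℝ) ≤ 𝔼 ε, f ε := by
    simp only [f, expect_sum_comm, expect_sub_distrib, ← mul_expect, half]
    rw [mul_comm, ← nsmul_eq_mul, ← sum_const]
    refine sum_le_sum fun O hO => ?_
    have h4 : ∀ j ∈ W, (1 / 4 - if bad O j O then 1 / 4 else 0 : ℝ) ≤ 𝔼 ε : γ → Bool,
        (if ε O = true ∧ ∀ O' ∈ H, ε O' = true → ¬bad O j O' then (1 : ℝ) else 0) := by
      intro j _
      split_ifs with hb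
      · rw [sub_self]; exact expect_nonneg fun _ _ => by split_ifs <;> norm_num
      by_cases h5 : ∃ O' ∈ H, bad O j O'
      · obtain ⟨O', hO', hb'⟩ := h5
        rw [sub_zero, ← quarter (O := O) (O' := O') (fun hc => hb (hc ▸ hb'))]
        refine expect_le_expect fun ε _ => ?_
        split_ifs with c1 c2
        · rfl
        · refine absurd ⟨c1.1, fun O₂ hO₂ he hb₂ => ?_⟩ c2
          rw [h1 O j _ hO₂ _ hO' hb₂ hb', c1.2] at he
          exact absurd he (by simp)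
        · norm_num
        · rfl
      · push Not at h5
        refine le_trans (by norm_num) ((half O).ge.trans (expect_le_expect fun ε _ => ?_))
        split_ifs with c1 c2
        · rfl
        · exact absurd ⟨c1, fun O₂ hO₂ _ => h5 O₂ hO₂⟩ c2
        · norm_num
        · rfl
    have h5 := sum_le_sum h4
    rw [sum_sub_distrib, sum_const, ← sum_filter, sum_const, hW, nsmul_eq_mul, nsmul_eq_mul] at h5
    have h6 : ((W.filter fun j => bad O j O).card : ℝ) ≤ 2 * v := by exact_mod_cast h2 O hO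
    have h7 : (0 : ℝ) ≤ v := Nat.cast_nonneg v
    push_cast at h5
    linarith
  obtain ⟨ε, -, hε⟩ := exists_le_of_le_expect univ_nonempty h3
  refine ⟨H.filter fun O => ε O = true, filter_subset _ _, ?_⟩
  have h4 : (((H.filter fun O => ε O = true) ×ˢ W).filter fun p =>
      ∀ O' ∈ H.filter fun O => ε O = true, ¬bad p.1 p.2 O') =
      (H ×ˢ W).filter fun p => ε p.1 = true ∧ ∀ O' ∈ H, ε O' = true → ¬bad p.1 p.2 O' := by
    ext p; simp only [mem_filter, mem_product]; tauto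
  rw [h4]
  simp only [f, sum_sub_distrib, ← mul_sum] at hε
  rw [← sum_product' H W (fun O j => if ε O = true ∧ ∀ O' ∈ H, ε O' = true → ¬bad O j O'
    then (1 : ℝ) else 0), sum_boole, sum_boole, le_sub_iff_add_le'] at hε
  exact_mod_cast hε

section Orb
variable {β : Type*} [Fintype β] [DecidableEq β] (ν μ : Perm β)

def Orb (a : β) : Finset β :=
  univ.filter fun b => ∀ U : Finset β, (∀ x ∈ U, ν x ∈ U ∧ μ x ∈ U) → (a ∈ U ↔ b ∈ U)

def Orbs (S : Finset β) : Finset (Finset β) := (S.filter fun a => Orb ν μ a ⊆ S).image (Orb ν μ)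

variable {ν μ}

theorem mem_Orb_self (a : β) : a ∈ Orb ν μ a := by simp [Orb]

theorem Orb_eq {a b : β} (h : b ∈ Orb ν μ a) : Orb ν μ b = Orb ν μ a := by
  ext c
  simp only [Orb, mem_filter, mem_univ, true_and] at h ⊢
  exact forall_congr' fun U => forall_congr' fun hU => by rw [h U hU]

theorem Orb_closed (hν : Involutive ν) (hμ : Involutive μ) {a b : β} (h : b ∈ Orb ν μ a) :
    ν b ∈ Orb ν μ a ∧ μ b ∈ Orb ν μ a := by
  simp only [Orb, mem_filter, mem_univ, true_and] at h ⊢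
  constructor
  · intro U hU
    rw [h U hU]
    exact ⟨fun h => (hU _ h).1, fun h => hν b ▸ (hU _ h).1⟩
  · intro U hU
    rw [h U hU]
    exact ⟨fun h => (hU _ h).2, fun h => hμ b ▸ (hU _ h).2⟩

theorem Orbs_spec {S O : Finset β} (h : O ∈ Orbs ν μ S) :
    O ⊆ S ∧ O.Nonempty ∧ ∀ b ∈ O, Orb ν μ b = O := by
  obtain ⟨a, ha, rfl⟩ := mem_image.1 h
  exact ⟨(mem_filter.1 ha).2, ⟨a, mem_Orb_self a⟩, fun b hb => Orb_eq hb⟩

theorem Cl_le_Orbs (S : Finset β) : Cl ν μ S ≤ 2 ^ (Orbs ν μ S).card := by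
  rw [← card_powerset]
  have h1 : ∀ U : Finset β, (∀ x ∈ U, ν x ∈ U ∧ μ x ∈ U) → ∀ a ∈ U, Orb ν μ a ⊆ U :=
    fun U hU a ha b hb => ((mem_filter.1 hb).2 U hU).1 ha
  have h2 : ∀ U U' : Finset β, U ⊆ S → (∀ x ∈ U, ν x ∈ U ∧ μ x ∈ U) →
      (Orbs ν μ S).filter (· ⊆ U) = (Orbs ν μ S).filter (· ⊆ U') → U ⊆ U' := by
    intro U U' hS hU h a ha
    have : Orb ν μ a ∈ (Orbs ν μ S).filter (· ⊆ U) := mem_filter.2
      ⟨mem_image_of_mem _ (mem_filter.2 ⟨hS ha, (h1 U hU a ha).trans hS⟩), h1 U hU a ha⟩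
    rw [h] at this
    exact (mem_filter.1 this).2 (mem_Orb_self a)
  refine card_le_card_of_injOn (fun U => (Orbs ν μ S).filter (· ⊆ U)) 
    (fun U _ => mem_coe.2 (mem_powerset.2 (filter_subset _ _))) ?_
  intro U hU U' hU' h
  simp only [coe_filter, mem_powerset, Set.mem_ofPred_eq] at hU hU'
  exact Subset.antisymm (h2 _ _ hU.1 hU.2 h) (h2 _ _ hU'.1 hU'.2 h.symm)

theorem long_le (hν : Involutive ν) (hμ : Involutive μ) (S : Finset β) (L : ℕ) :
    ((Orbs ν μ S).filter fun O => ¬O.card ≤ L).card * L ≤ (S.filter fun a => ν a ∈ S).card := by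
  rw [← smul_eq_mul, ← sum_const]
  refine (sum_le_sum (g := fun O : Finset β => O.card) fun O hO => (not_le.1 (mem_filter.1 hO).2).le).trans ?_
  rw [← card_biUnion]
  · refine card_le_card fun a ha => ?_
    obtain ⟨O, hO, ha⟩ := mem_biUnion.1 ha
    obtain ⟨h1, -, h2⟩ := Orbs_spec (mem_filter.1 hO).1
    exact mem_filter.2 ⟨h1 ha, h1 (h2 a ha ▸ (Orb_closed hν hμ (mem_Orb_self a)).1)⟩
  · intro O hO O' hO' hne
    refine disjoint_left.2 fun a h1 h2 => hne ?_
    rw [← (Orbs_spec (mem_filter.1 hO).1).2.2 a h1, (Orbs_spec (mem_filter.1 hO').1).2.2 a h2]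

theorem tau_mem (hν : Involutive ν) (hμ : Involutive μ) {a b : β} (h : b ∈ Orb ν μ a) (k : ℕ) :
    ((ν * μ) ^ k) b ∈ Orb ν μ a := by
  induction k with
  | zero => exact h
  | succ k ih =>
    rw [pow_succ', Perm.mul_apply, Perm.mul_apply]
    exact (Orb_closed hν hμ (Orb_closed hν hμ ih).2).1

theorem period_le (hν : Involutive ν) (hμ : Involutive μ) {a b : β} (h : b ∈ Orb ν μ a) :
    minimalPeriod (ν * μ) b ≤ (Orb ν μ a).card := by
  rw [← card_range (minimalPeriod _ _)]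
  refine card_le_card_of_injOn (fun k => (ν * μ)^[k] b) (fun k _ => ?_) ?_
  · have := tau_mem hν hμ h k
    rwa [← Perm.iterate_eq_pow] at this
  · rw [coe_range]; exact iterate_injOn_Iio_minimalPeriod

end Orb

theorem exists_advice (ω : Om d) {W : Finset (Fin d)} {ν : Perm (Q d)} (i : Fin d)
    (hν : Involutive ν) (hν' : ∀ x, ν x ≠ x) (S : Finset (Q d)) (v : ℕ) (hW : W.card = 16 * v) :
    ∃ len : Q d → ℕ, (∀ s, len s ≠ 0 → (s ∈ S ∧ ν s ∈ S) ∧ len s ≤ 4 ^ v) ∧ Good ν i len ω ∧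
      4 * v * (univ.filter fun s => len s ≠ 0).card +
        v * ((Orbs ν (mu ω i) S).filter fun O => O.card ≤ 4 ^ v).card ≤ (FF W ν i len ω).card := by
  set μ := mu ω i with hμ0
  have hμ : Involutive μ := mu_mu ω i
  set H := (Orbs ν μ S).filter fun O => O.card ≤ 4 ^ v with hH
  have hs : ∀ O ∈ H, O ⊆ S ∧ O.Nonempty ∧ ∀ b ∈ O, Orb ν μ b = O := fun O hO =>
    Orbs_spec (mem_filter.1 hO).1
  have hb : ∀ O : Finset (Q d), ∃ b, O ∈ H →
      b ∈ O ∧ (W.filter fun j => mu ω j b ∈ O).card ≤ 2 * v := by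
    intro O
    by_cases hO : O ∈ H
    · obtain ⟨b, h1, h2⟩ := isoper ω W O (hs O hO).2.1
      refine ⟨b, fun _ => ⟨h1, ?_⟩⟩
      have := h2.trans (mem_filter.1 hO).2
      rw [show 4 ^ v = 2 ^ (2 * v) by rw [pow_mul]; rfl] at this
      exact (Nat.pow_le_pow_iff_right (by norm_num)).1 this
    · exact ⟨default, fun h => absurd h hO⟩
  choose b hb using hb
  have hu : ∀ a, ∀ O₁ ∈ H, ∀ O₂ ∈ H, a ∈ O₁ → a ∈ O₂ → O₁ = O₂ := fun a O₁ h₁ O₂ h₂ e₁ e₂ => by
    rw [← (hs _ h₁).2.2 a e₁, (hs _ h₂).2.2 a e₂]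
  obtain ⟨A, hA, hc⟩ := exists_family H W v hW (fun O j O' => mu ω j (b O) ∈ O')
    (fun O j => hu _) fun O hO => by convert (hb O hO).2
  let len : Q d → ℕ := fun s => if ∃ O ∈ A, s = ν (b O) then minimalPeriod (ν * μ) s else 0
  have hl : ∀ s, len s ≠ 0 → ∃ O ∈ A, s = ν (b O) ∧ len s = minimalPeriod (ν * μ) s := by
    intro s h
    by_cases h1 : ∃ O ∈ A, s = ν (b O)
    · obtain ⟨O, h2, h3⟩ := id h1
      exact ⟨O, h2, h3, if_pos h1⟩
    · exact absurd (if_neg h1) h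
  have hν1 : ∀ O ∈ A, ν (b O) ∈ Orb ν μ (b O) := fun O hO =>
    (Orb_closed hν hμ (mem_Orb_self _)).1
  have hO1 : ∀ O ∈ A, Orb ν μ (b O) = O := fun O hO => (hs O (hA hO)).2.2 _ (hb O (hA hO)).1
  refine ⟨len, fun s h => ?_, fun s h => ?_, le_trans (Nat.add_le_add_right
    (Nat.mul_le_mul_left _ ?_) _) (hc.trans ?_)⟩
  · obtain ⟨O, h1, h2, h3⟩ := hl s h
    have h4 := hν1 O h1
    have h5 := period_le hν hμ h4
    rw [hO1 O h1, ← h2] at h4 h5
    refine ⟨⟨(hs O (hA h1)).1 h4, ?_⟩, h3 ▸ h5.trans (mem_filter.1 (hA h1)).2⟩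
    rw [h2, hν]; exact (hs O (hA h1)).1 (hb O (hA h1)).1
  · obtain ⟨O, -, -, h3⟩ := hl s h
    rw [h3, ← Perm.iterate_eq_pow]
    exact iterate_minimalPeriod (f := ⇑(ν * μ)) (x := s)
  · refine le_trans (card_le_card fun s hs => ?_) (card_image_le (s := A) (f := fun O => ν (b O)))
    obtain ⟨O, h1, h2, -⟩ := hl s (mem_filter.1 hs).2
    exact mem_image.2 ⟨O, h1, h2.symm⟩
  have hNC : ∀ a, NC ν i len ω a → ∃ O ∈ A, a ∈ O ∧ a ≠ b O := by
    rintro a ⟨s, k, h | h⟩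
    · obtain ⟨O, h1, h2, -⟩ := hl s (by omega)
      refine ⟨O, h1, ?_, ?_⟩
      · have := tau_mem hν hμ (hν1 O h1) k
        rwa [hO1 O h1, ← h2, ← h.2] at this
      · rw [h.2, ← hν (b O), ← h2]
        exact dihedral hν hν' hμ (mu_ne ω i) k s
    · obtain ⟨O, h1, h2, h3⟩ := hl s (by omega)
      refine ⟨O, h1, ?_, fun hc => ?_⟩
      · have := (Orb_closed hν hμ (tau_mem hν hμ (hν1 O h1) k)).2
        rwa [hO1 O h1, ← h2, ← h.2] at this
      · have h4 : IsPeriodicPt (ν * μ) (k + 1) s := by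
          change (ν * μ)^[k + 1] s = s
          rw [Perm.iterate_eq_pow, pow_succ', Perm.mul_apply, Perm.mul_apply, ← h.2, hc, ← h2]
        have := h4.minimalPeriod_le (by omega)
        omega
  have hkey : ∀ (j : Fin d) x y, key j (pos ω j x) = key j (pos ω j y) → x = y ∨ x = mu ω j y := by
    intro j x y h
    rcases key_eq h with h1 | h1
    · exact Or.inl ((pos ω j).injective h1)
    · exact Or.inr (mu_eq_iff.2 h1).symm
  refine card_le_card_of_injOn (fun p => (p.2, key p.2 (pos ω p.2 (b p.1)))) ?_ ?_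
  · rintro ⟨O, j⟩ hp
    simp only [coe_filter, mem_product, Set.mem_ofPred_eq] at hp
    obtain ⟨⟨hO, hj⟩, hp⟩ := hp
    refine mem_coe.2 (mem_filter.2 ⟨mem_univ _, hj, ⟨ν (b O), ?_, by rw [hν]⟩, fun a ha hc => ?_⟩)
    · simp only [len]
      rw [if_pos ⟨O, hO, rfl⟩]
      exact (minimalPeriod_pos_of_mem_periodicPts ((ν * μ).injective.mem_periodicPts _)).ne'
    · obtain ⟨O', h1, h2, h3⟩ := hNC a ha
      rcases hkey j a (b O) hc.symm with h4 | h4
      · rw [hu a _ (hA h1) _ (hA hO) h2 (h4 ▸ (hb O (hA hO)).1)] at h3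
        exact h3 h4
      · exact hp O' h1 (h4 ▸ h2)
  · rintro ⟨O, j⟩ hp ⟨O', j'⟩ hp' h
    simp only [coe_filter, mem_product, Set.mem_ofPred_eq] at hp hp'
    simp only [Prod.mk.injEq] at h ⊢
    obtain ⟨rfl, h⟩ := h
    refine ⟨?_, rfl⟩
    rcases hkey j _ _ h with h4 | h4
    · exact hu _ _ (hA hp.1.1) _ (hA hp'.1.1) (hb O (hA hp.1.1)).1 (h4 ▸ (hb O' (hA hp'.1.1)).1)
    · exact absurd (h4 ▸ (hb O (hA hp.1.1)).1) (hp'.2 O hp.1.1)

end Vale.Agent.P162
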