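import Mathlib

namespace Vale.Agent.P162

/-- The law `q_n` of one Thorp shuffle of `n` cards, positions numbered `0, …, n - 1`:
`thorp n g` is the probability, over `n / 2` independent fair coins `c i`, that the permutation
of positions is `g`, where the card in position `i < n / 2` goes to position `2 i + c i` and the
card in position `n / 2 + i` goes to the other one of the positions `2 i`, `2 i + 1`. -/
noncomputable def thorp (n : ℕ) (g : Equiv.Perm (Fin n)) : ℝ :=
  ((Finset.univ.filter fun c : Fin (n / 2) → Bool => ∀ (i : Fin (n / 2)) (x : Fin n),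
      ((x : ℕ) = i → (g x : ℕ) = 2 * i + (c i).toNat) ∧
      ((x : ℕ) = n / 2 + i → (g x : ℕ) = 2 * i + (!c i).toNat)).card : ℝ) / 2 ^ (n / 2)

/-- convolution: the law of `a * b` for independent `a ∼ μ`, `b ∼ ν` -/
noncomputable def conv {G : Type*} [Group G] [Fintype G] (μ ν : G → ℝ) (g : G) : ℝ :=
  ∑ h, μ (g * h⁻¹) * ν h

/-- convolution powers; the zeroth power is the point mass at the identity -/
noncomputable def convPow {G : Type*} [Group G] [Fintype G] [DecidableEq G] (μ : G → ℝ) :
    ℕ → G → ℝ
  | 0 => fun g => if g = 1 then 1 else 0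
  | t + 1 => conv μ (convPow μ t)

/-- total variation distance from the uniform law -/
noncomputable def tvUnif {G : Type*} [Fintype G] (μ : G → ℝ) : ℝ :=
  1 / 2 * ∑ g, |μ g - 1 / (Fintype.card G : ℝ)|

/-- mixing time of the Thorp shuffle of `n` cards -/
noncomputable def tmix (n : ℕ) : ℕ := sInf {t : ℕ | tvUnif (convPow (thorp n) t) ≤ 1 / 4}

end Vale.Agent.P162
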