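import Vale.Agent.P162.Rep

open Finset Equiv
open scoped RealInnerProductSpace

noncomputable section

namespace Vale.Agent.P162

variable {α : Type*} [Fintype α] [DecidableEq α]
variable {V : Type*} [NormedAddCommGroup V] [InnerProductSpace ℝ V]
variable (ρ : Perm α →* (V ≃ₗᵢ[ℝ] V))

def Jm (z : α) (Y : Finset α) : V →ₗ[ℝ] V := ∑ y ∈ Y, rl ρ (swap z y)

theorem Jm_apply (z : α) (Y : Finset α) (v : V) : Jm ρ z Y v = ∑ y ∈ Y, ρ (swap z y) v := by
  simp [Jm, LinearMap.sum_apply]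

theorem Jm_symm (z : α) (Y : Finset α) : (Jm ρ z Y).IsSymmetric := by
  intro u v
  rw [Jm_apply, Jm_apply, sum_inner, inner_sum]
  refine sum_congr rfl fun y _ => ?_
  rw [rho_inner, swap_inv]

theorem Jm_comm {z : α} {Y : Finset α} (hz : z ∉ Y) {g : Perm α} (hg : g ∈ Sup Y) (v : V) :
    ρ g (Jm ρ z Y v) = Jm ρ z Y (ρ g v) := by
  rw [Jm_apply, Jm_apply, map_sum]
  refine sum_bij' (fun y _ => g y) (fun y _ => g⁻¹ y) (fun y hy => Sup_apply_mem hg hy)
    (fun y hy => Sup_apply_mem (inv_mem_Sup hg) hy) (by simp) (by simp) fun y _ => ?_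
  rw [← rho_mul, ← rho_mul, mul_swap_eq_swap_mul, mem_Sup.1 hg z hz]

theorem IsInv.Jm_mem {ρ : Perm α →* (V ≃ₗᵢ[ℝ] V)} {W : Submodule ℝ V} (h : IsInv ρ W)
    (z : α) (Y : Finset α) {w : V} (hw : w ∈ W) : Jm ρ z Y w ∈ W := by
  rw [Jm_apply]
  exact W.sum_mem fun g _ => h _ w hw

theorem Jm_swap {z y : α} {Y : Finset α} (hz : z ∉ Y) (hy : y ∈ Y) (v : V) :
    Jm ρ y (Y.erase y) (ρ (swap z y) v) = ρ (swap z y) (Jm ρ z Y v) - v := by
  rw [Jm_apply, Jm_apply, map_sum, ← add_sum_erase Y _ hy, ← rho_mul, swap_mul_self, rho_one,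
    add_sub_cancel_left]
  refine sum_congr rfl fun y' hy' => ?_
  rw [← rho_mul, ← rho_mul, mul_swap_eq_swap_mul (swap z y) z y', swap_apply_left,
    swap_apply_of_ne_of_ne (fun h => hz (by rw [← h]; exact mem_of_mem_erase hy'))
      (ne_of_mem_erase hy')]

theorem Jm_eig_le [FiniteDimensional ℝ V] (r : ℕ) (Y : Finset α) :
    ∀ z, z ∉ Y → ∀ v ∈ Row ρ r, v ≠ 0 → ∀ a : ℝ, Jm ρ z Y v = a • v → a ≤ r - 1 := by
  induction Y using Finset.strongInduction with
  | H Y ih =>
  intro z hz v hv hv0 a ha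
  by_contra hlt
  push Not at hlt
  let U : Submodule ℝ V := Row ρ r ⊓ LinearMap.eqLocus (Jm ρ z Y) (a • LinearMap.id)
  have hU : ∀ u, u ∈ U ↔ u ∈ Row ρ r ∧ Jm ρ z Y u = a • u := fun u => Iff.rfl
  have key : ∀ y ∈ Y, ρ (swap z y) v = v := by
    intro y hy
    have hss : Y.erase y ⊂ Y := erase_ssubset hy
    have hle : U ≤ LinearMap.eqLocus (rl ρ (swap z y)) LinearMap.id := by
      refine eig_induction (Jm ρ y (Y.erase y)) (Jm_symm ρ _ _) U ?_ _ ?_
      · intro w hw
        rw [hU] at hw ⊢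
        refine ⟨(isInv_Row ρ r).Jm_mem _ _ hw.1, ?_⟩
        rw [Jm_apply ρ y, map_sum, smul_sum]
        refine sum_congr rfl fun y' hy' => ?_
        rw [← Jm_comm ρ hz (swap_mem_Sup hy (mem_of_mem_erase hy')), hw.2, map_smul]
      · intro w hw hw0 b hb
        rw [hU] at hw
        have hb' := ih _ hss y (notMem_erase _ _) w hw.1 hw0 b hb
        have hab : 0 < a - b := by linarith
        have hu : ρ (swap z y) w - (a - b)⁻¹ • w = 0 := by
          by_contra hne
          have := ih _ hss y (notMem_erase _ _) _ ((Row ρ r).sub_mem (isInv_Row ρ r _ _ hw.1)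
            ((Row ρ r).smul_mem _ hw.1)) hne a (by
              rw [map_sub, Jm_swap ρ hz hy, hw.2, map_smul, map_smul, hb, smul_sub, smul_smul,
                smul_smul, sub_sub]
              congr 1
              have : a * (a - b)⁻¹ = 1 + (a - b)⁻¹ * b := by field_simp; ring
              rw [this, add_smul, one_smul])
          linarith
        rw [sub_eq_zero] at hu
        have hn := congrArg norm hu
        rw [LinearIsometryEquiv.norm_map, norm_smul, Real.norm_eq_abs,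
          abs_of_pos (inv_pos.2 hab)] at hn
        have h1 : (a - b)⁻¹ = 1 := by
          have := norm_pos_iff.2 hw0
          field_simp at hn ⊢
          linarith
        change ρ (swap z y) w = w
        rw [hu, h1, one_smul]
    exact hle ((hU v).2 ⟨hv, ha⟩)
  have key' : ∀ y ∈ insert z Y, ρ (swap z y) v = v := by
    intro y hy
    rcases mem_insert.1 hy with rfl | hy
    · rw [swap_self]; exact rho_one ρ v
    · exact key y hy
  have hinv : v ∈ Inv ρ (insert z Y) := by
    refine inv_of_swaps ρ fun x hx y hy => ?_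
    by_cases hxy : x = y
    · rw [hxy, swap_self]; exact rho_one ρ v
    by_cases hyz : y = z
    · rw [hyz, swap_comm]; exact key' x hx
    rw [← swap_mul_swap_mul_swap (x := y) (y := z) (z := x) hyz (Ne.symm hxy), rho_mul, rho_mul,
      key' x hx, swap_comm y z, key' y hy, key' x hx]
  have h1 : a = Y.card := by
    rw [Jm_apply, sum_congr rfl key, sum_const, ← Nat.cast_smul_eq_nsmul ℝ] at ha
    exact (smul_left_injective ℝ hv0 ha).symm
  have h2 : (insert z Y).card ≤ r := by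
    by_contra hc
    push Not at hc
    exact hv0 (by rw [← P_of_mem ρ hinv, hv _ hc])
  rw [card_insert_of_notMem hz] at h2
  have : (Y.card : ℝ) + 1 ≤ r := by exact_mod_cast h2
  linarith

theorem Jm_quad_le [FiniteDimensional ℝ V] (r : ℕ) (z : α) {w : V} (hw : w ∈ Row ρ r) :
    ⟪w, Jm ρ z (univ.erase z) w⟫ ≤ (r - 1) * ‖w‖ ^ 2 :=
  quad_le _ (Jm_symm ρ _ _) (Row ρ r) (fun _ h => (isInv_Row ρ r).Jm_mem _ _ h) _
    (Jm_eig_le ρ r _ z (notMem_erase _ _)) w hw

theorem P_insert {T : Finset α} {x : α} (hx : x ∉ T) {w : V} (hw : w ∈ Inv ρ T) :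
    P ρ (insert x T) w = ((T.card : ℝ) + 1)⁻¹ • (w + Jm ρ x T w) := by
  have h1 : w + Jm ρ x T w = Jm ρ x (insert x T) w := by
    rw [Jm_apply, Jm_apply, sum_insert hx, swap_self]; congr 1; exact (rho_one ρ w).symm
  have h2 : Jm ρ x (insert x T) w ∈ Inv ρ (insert x T) := by
    intro g hg
    rw [Jm_apply, map_sum]
    refine sum_bij' (fun y _ => g y) (fun y _ => g⁻¹ y) (fun y hy => Sup_apply_mem hg hy)
      (fun y hy => Sup_apply_mem (inv_mem_Sup hg) hy) (by simp) (by simp) fun y hy => ?_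
    have h3 : swap x (g y) * g * swap x y ∈ Sup T := by
      have h4 := mul_mem_Sup (mul_mem_Sup (swap_mem_Sup (mem_insert_self x T) (Sup_apply_mem hg hy))
        hg) (swap_mem_Sup (mem_insert_self x T) hy)
      rw [mem_Sup] at h4 ⊢
      intro a ha
      by_cases hax : a = x
      · simp [hax]
      · exact h4 a (by simp [hax, ha])
    calc ρ g (ρ (swap x y) w) = ρ (swap x (g y) * (swap x (g y) * g * swap x y)) w := by
          rw [← rho_mul, mul_assoc, swap_mul_self_mul]
      _ = _ := by rw [rho_mul, hw _ h3]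
  have h3 : P ρ (insert x T) (Jm ρ x (insert x T) w) = ((T.card : ℝ) + 1) • P ρ (insert x T) w := by
    rw [Jm_apply, map_sum, sum_congr rfl fun y hy =>
      P_rho ρ (swap_mem_Sup (mem_insert_self x T) hy) w, sum_const, card_insert_of_notMem hx,
      ← Nat.cast_smul_eq_nsmul ℝ]
    push_cast; rfl
  rw [h1, ← P_of_mem ρ h2, h3, smul_smul, inv_mul_cancel₀ (by positivity), one_smul]

/-- `(n - t) - k t / (t + 1)` -/
def Nt (n k t : ℝ) : ℝ := (n - t) - k * t / (t + 1)

theorem sum_P_insert_le [FiniteDimensional ℝ V] {r k : ℕ} (hr : r + k = Fintype.card α)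
    {T : Finset α} {w : V} (hw : w ∈ Inv ρ T) (hw' : w ∈ Row ρ r) :
    ∑ x ∈ Tᶜ, ⟪w, P ρ (insert x T) w⟫ ≤ Nt (Fintype.card α) k T.card * ‖w‖ ^ 2 := by
  have h1 : ∀ x ∈ Tᶜ, ⟪w, P ρ (insert x T) w⟫ =
      ((T.card : ℝ) + 1)⁻¹ * (‖w‖ ^ 2 + ∑ z ∈ T, ⟪w, ρ (swap z x) w⟫) := by
    intro x hx
    rw [P_insert ρ (mem_compl.1 hx) hw, inner_smul_right, inner_add_right,
      real_inner_self_eq_norm_sq, Jm_apply, inner_sum]
    simp only [swap_comm x]
  have h2 : ∀ z ∈ T, ∑ x ∈ Tᶜ, ⟪w, ρ (swap z x) w⟫ ≤ (r - T.card) * ‖w‖ ^ 2 := by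
    intro z hz
    have h3 := Jm_quad_le ρ r z hw'
    have h4 : univ.erase z = Tᶜ ∪ T.erase z := by
      ext a; by_cases ha : a ∈ T <;> simp [ha]
      rintro rfl; exact ha hz
    have h5 : Disjoint Tᶜ (T.erase z) := by
      rw [disjoint_left]; intro a ha hb; exact (mem_compl.1 ha) (mem_of_mem_erase hb)
    rw [h4, Jm_apply, sum_union h5, inner_add_right, inner_sum, inner_sum,
      sum_congr rfl (s₁ := T.erase z) fun y hy => by
        rw [hw _ (swap_mem_Sup hz (mem_of_mem_erase hy)), real_inner_self_eq_norm_sq],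
      sum_const, card_erase_of_mem hz, nsmul_eq_mul, Nat.cast_sub (card_pos.2 ⟨z, hz⟩)] at h3
    push_cast at h3
    linarith
  rw [sum_congr rfl h1, ← mul_sum, sum_add_distrib, sum_comm, sum_const, card_compl, nsmul_eq_mul,
    Nat.cast_sub (card_le_univ T)]
  have h6 := sum_le_sum h2
  rw [sum_const, nsmul_eq_mul] at h6
  have h7 : (Fintype.card α : ℝ) = r + k := by exact_mod_cast hr.symm
  have h8 : (0 : ℝ) < T.card + 1 := by positivity
  calc _ ≤ ((T.card : ℝ) + 1)⁻¹ * (((Fintype.card α : ℝ) - T.card) * ‖w‖ ^ 2 +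
        T.card * ((r - T.card) * ‖w‖ ^ 2)) := by gcongr
    _ = _ := by rw [Nt, h7]; field_simp; ring

theorem sum_insert_eq (f : Finset α → ℝ) (t : ℕ) :
    ∑ T ∈ powersetCard t univ, ∑ x ∈ Tᶜ, f (insert x T) =
      (t + 1) * ∑ T ∈ powersetCard (t + 1) univ, f T := by
  have : (t + 1 : ℝ) * ∑ T ∈ powersetCard (t + 1) univ, f T =
      ∑ T ∈ powersetCard (t + 1) (univ : Finset α), ∑ x ∈ T, f T := by
    rw [mul_sum]
    refine sum_congr rfl fun T hT => ?_
    rw [sum_const, (mem_powersetCard.1 hT).2, nsmul_eq_mul]; push_cast; rfl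
  rw [this, sum_sigma', sum_sigma']
  refine sum_bij' (fun p _ => ⟨insert p.2 p.1, p.2⟩) (fun p _ => ⟨p.1.erase p.2, p.2⟩) ?_ ?_ ?_ ?_ ?_
  · rintro ⟨T, x⟩ h
    simp only [mem_sigma, mem_powersetCard, subset_univ, true_and, mem_compl] at h ⊢
    exact ⟨by rw [card_insert_of_notMem h.2, h.1], mem_insert_self _ _⟩
  · rintro ⟨T, x⟩ h
    simp only [mem_sigma, mem_powersetCard, subset_univ, true_and, mem_compl] at h ⊢
    exact ⟨by rw [card_erase_of_mem h.2, h.1]; rfl, notMem_erase _ _⟩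
  · rintro ⟨T, x⟩ h
    simp only [mem_sigma, mem_powersetCard, subset_univ, true_and, mem_compl] at h
    simp [erase_insert h.2]
  · rintro ⟨T, x⟩ h
    simp only [mem_sigma, mem_powersetCard, subset_univ, true_and, mem_compl] at h
    simp [insert_erase h.2]
  · intro p _; rfl

theorem Nt_le {n k t : ℝ} (hk : 0 ≤ k) (ht : 1 ≤ t) : Nt n k t ≤ n - t - k / 2 := by
  have : k / 2 ≤ k * t / (t + 1) := by
    rw [div_le_div_iff₀ (by norm_num) (by linarith)]; nlinarith
  rw [Nt]; linarith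

/-- total weight of the `t`-point invariant components of a vector of level at least `k` -/
theorem sum_P_le [FiniteDimensional ℝ V] {r k : ℕ} (hr : r + k = Fintype.card α)
    {w : V} (hw : w ∈ Row ρ r) (t : ℕ) :
    ∑ T ∈ powersetCard t univ, ‖P ρ T w‖ ^ 2 ≤
      (Fintype.card α).choose t * (1 - k / (2 * Fintype.card α : ℝ)) ^ (t - 1) * ‖w‖ ^ 2 := by
  set n := Fintype.card α with hn
  have hkn : (k : ℝ) ≤ n := by exact_mod_cast (show k ≤ n by omega)
  have hβ : 0 ≤ 1 - k / (2 * n : ℝ) := by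
    rcases Nat.eq_zero_or_pos n with h | h
    · simp [h]
    have : (0 : ℝ) < n := by exact_mod_cast h
    rw [sub_nonneg, div_le_one (by positivity)]; linarith
  induction t with
  | zero => simpa using pow_le_pow_left₀ (norm_nonneg _) (norm_P_le ρ ∅ w) 2
  | succ t ih =>
    have h1 := sum_insert_eq (fun T => ‖P ρ T w‖ ^ 2) t
    have h2 : ∑ T ∈ powersetCard t univ, ∑ x ∈ Tᶜ, ‖P ρ (insert x T) w‖ ^ 2 ≤
        Nt n k t * ∑ T ∈ powersetCard t univ, ‖P ρ T w‖ ^ 2 := by
      rw [mul_sum]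
      refine sum_le_sum fun T hT => ?_
      have := sum_P_insert_le ρ hr (P_mem_Inv ρ T w) ((isInv_Row ρ r).P_mem T hw)
      rw [(mem_powersetCard.1 hT).2] at this
      refine le_trans (le_of_eq (sum_congr rfl fun x _ => ?_)) this
      rw [← norm_P_sq, P_P ρ (subset_insert _ _)]
    have hS : 0 ≤ ∑ T ∈ powersetCard t univ, ‖P ρ T w‖ ^ 2 := by positivity
    by_cases htn : n < t + 1
    · rw [powersetCard_eq_empty.2 (by simpa using htn), sum_empty]; positivity
    have htn' : (t : ℝ) + 1 ≤ n := by exact_mod_cast (show t + 1 ≤ n by omega)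
    have h3 : Nt n k t ≤ (n - t) * (1 - k / (2 * n : ℝ)) ^ (t + 1 - 1 - (t - 1)) := by
      rcases Nat.eq_zero_or_pos t with h | h
      · simp [h, Nt]
      have : t + 1 - 1 - (t - 1) = 1 := by omega
      rw [this, pow_one]
      refine (Nt_le (by positivity) (by exact_mod_cast h)).trans ?_
      have hn0 : (0 : ℝ) < n := by linarith [(Nat.cast_nonneg t : (0 : ℝ) ≤ t)]
      have : (n - t) * (k / (2 * n : ℝ)) ≤ k / 2 := by
        rw [← mul_div_assoc, div_le_div_iff₀ (by positivity) (by norm_num)]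
        have : (0 : ℝ) ≤ k * t := by positivity
        nlinarith
      linarith
    have h4 : (n.choose (t + 1) : ℝ) * (t + 1) = n.choose t * (n - t) := by
      have := Nat.choose_succ_right_eq n t
      rw [← Nat.cast_sub (by omega)]
      exact_mod_cast this
    have h5 : (0 : ℝ) < t + 1 := by positivity
    refine le_of_mul_le_mul_left ?_ h5
    rw [← h1]
    refine h2.trans ((mul_le_mul_of_nonneg_right h3 hS).trans ?_)
    refine (mul_le_mul_of_nonneg_left ih (mul_nonneg (by linarith) (by positivity))).trans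
      (le_of_eq ?_)
    have h6 : t + 1 - 1 = (t + 1 - 1 - (t - 1)) + (t - 1) := by omega
    conv_rhs => rw [h6, pow_add]
    linear_combination (-(1 - k / (2 * n : ℝ)) ^ (t + 1 - 1 - (t - 1)) *
      (1 - k / (2 * n : ℝ)) ^ (t - 1) * ‖w‖ ^ 2) * h4

end Vale.Agent.P162
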