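import Vale.Agent.P162.JM

open Finset Equiv
open scoped RealInnerProductSpace

noncomputable section

namespace Vale.Agent.P162

variable {α : Type*} [Fintype α] [DecidableEq α]
variable {V : Type*} [NormedAddCommGroup V] [InnerProductSpace ℝ V] [FiniteDimensional ℝ V]
variable (ρ : Perm α →* (V ≃ₗᵢ[ℝ] V))

def mm (W : Submodule ℝ V) (T : Finset α) : ℕ := Module.finrank ℝ (W ⊓ Inv ρ T : Submodule ℝ V)

theorem mm_mono {W W' : Submodule ℝ V} (h : W ≤ W') (T : Finset α) : mm ρ W T ≤ mm ρ W' T :=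
  Submodule.finrank_mono (inf_le_inf_right _ h)

theorem mm_le_of_card {W : Submodule ℝ V} (hW : IsInv ρ W) {T T' : Finset α}
    (h : T.card = T'.card) : mm ρ W T ≤ mm ρ W T' := by
  obtain ⟨g, hg⟩ := Perm.exists_map_finset_eq T T' h
  have h1 : (W ⊓ Inv ρ T).map (rl ρ g) ≤ W ⊓ Inv ρ T' := by
    rintro _ ⟨v, hv, rfl⟩
    refine ⟨hW g v hv.1, ?_⟩
    change ρ g v ∈ Inv ρ T'
    rw [← P_of_mem ρ hv.2, rho_P, hg]
    exact P_mem_Inv _ _ _
  refine le_trans (le_of_eq ?_) (Submodule.finrank_mono h1)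
  exact (Submodule.equivMapOfInjective (rl ρ g) (ρ g).injective _).finrank_eq

theorem mm_step {r k : ℕ} (hr : r + k = Fintype.card α) {W : Submodule ℝ V} (hW : IsInv ρ W)
    (hWr : W ≤ Row ρ r) {T T' : Finset α} (h : T'.card = T.card + 1) :
    ((Fintype.card α : ℝ) - T.card) * mm ρ W T' ≤ Nt (Fintype.card α) k T.card * mm ρ W T := by
  let b := stdOrthonormalBasis ℝ (W ⊓ Inv ρ T : Submodule ℝ V)
  have h1 : ∀ x ∈ Tᶜ, (mm ρ W T' : ℝ) ≤ ∑ i, ⟪(b i : V), P ρ (insert x T) (b i)⟫ := by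
    intro x hx
    rw [sum_proj_eq (P ρ (insert x T)) (P_symm ρ _) (W ⊓ Inv ρ T) (W ⊓ Inv ρ (insert x T))
      (fun w hw => ⟨hw.1, fun g hg => hw.2 g (Sup_mono (subset_insert _ _) hg)⟩)
      (fun w hw => ⟨hW.P_mem _ hw.1, P_mem_Inv _ _ _⟩) (fun w hw => P_of_mem ρ hw.2) b]
    exact_mod_cast mm_le_of_card ρ hW (by rw [h, card_insert_of_notMem (mem_compl.1 hx)])
  have h2 := sum_le_sum h1
  rw [sum_const, card_compl, nsmul_eq_mul, Nat.cast_sub (card_le_univ T), sum_comm] at h2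
  refine h2.trans ?_
  have h3 : ∀ i, ∑ x ∈ Tᶜ, ⟪(b i : V), P ρ (insert x T) (b i)⟫ ≤ Nt (Fintype.card α) k T.card := by
    intro i
    have := sum_P_insert_le ρ hr (b i).2.2 (hWr (b i).2.1)
    have h4 : ‖(b i : V)‖ = 1 := b.orthonormal.1 i
    rwa [h4, one_pow, mul_one] at this
  refine (sum_le_sum fun i _ => h3 i).trans (le_of_eq ?_)
  simp [mm, mul_comm]

def rk (k K : ℕ) : ℝ := ∏ j ∈ Ioc k K, (1 - (k : ℝ) / (2 * j))

theorem rk_nonneg (k K : ℕ) : 0 ≤ rk k K := by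
  refine prod_nonneg fun j hj => ?_
  have h1 : (k : ℝ) < j := by exact_mod_cast (mem_Ioc.1 hj).1
  have h2 : (0 : ℝ) ≤ k := Nat.cast_nonneg k
  rw [sub_nonneg, div_le_one (by linarith)]; linarith

theorem rk_sq_le {k K : ℕ} (h : k ≤ K) : rk k K ^ 2 ≤ (((k : ℝ) + 1) / (K + 1)) ^ k := by
  induction K, h using Nat.le_induction with
  | base => rw [div_self (by positivity)]; simp [rk]
  | succ K hK ih =>
    rw [rk, prod_Ioc_succ_top hK, mul_pow]
    have hj : (0 : ℝ) < K + 1 := by positivity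
    have hk : (k : ℝ) ≤ K := by exact_mod_cast hK
    have h1 : (1 - (k : ℝ) / (2 * (K + 1 : ℕ))) ^ 2 ≤ (((K : ℝ) + 1) / (K + 1 + 1)) ^ k := by
      have e1 : 1 - (k : ℝ) / (2 * (K + 1 : ℕ)) ≤ Real.exp (-(k / (2 * (K + 1)))) := by
        have := Real.add_one_le_exp (-((k : ℝ) / (2 * (K + 1))))
        push_cast; linarith
      have e2 : 0 ≤ 1 - (k : ℝ) / (2 * (K + 1 : ℕ)) := by
        push_cast
        rw [sub_nonneg, div_le_one (by positivity)]; linarith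
      have e3 : Real.exp (-(1 / ((K : ℝ) + 1))) ≤ ((K : ℝ) + 1) / (K + 1 + 1) := by
        have := Real.add_one_le_exp (1 / ((K : ℝ) + 1))
        rw [Real.exp_neg, inv_le_comm₀ (Real.exp_pos _) (by positivity)]
        refine le_trans (le_of_eq ?_) this
        field_simp; ring
      calc _ ≤ Real.exp (-(k / (2 * (K + 1)))) ^ 2 := by gcongr
        _ = Real.exp (-(1 / ((K : ℝ) + 1))) ^ k := by
          rw [← Real.exp_nat_mul, ← Real.exp_nat_mul]; congr 1; push_cast; field_simp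
        _ ≤ _ := by gcongr
    calc _ ≤ (((k : ℝ) + 1) / (K + 1)) ^ k * (((K : ℝ) + 1) / (K + 1 + 1)) ^ k := by
          gcongr; exact ih
      _ = _ := by rw [← mul_pow]; congr 1; push_cast; field_simp

theorem mm_chain {r k : ℕ} (hr : r + k = Fintype.card α) {W : Submodule ℝ V} (hW : IsInv ρ W)
    (hWr : W ≤ Row ρ r) {T' : Finset α} (hT' : T'.card = r) {K : ℕ} (hK : k ≤ K) :
    K < Fintype.card α → ∀ T : Finset α, T.card + K = Fintype.card α →
      (mm ρ W T' : ℝ) ≤ rk k K * mm ρ W T := by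
  induction K, hK using Nat.le_induction with
  | base =>
    intro _ T hT
    simp only [rk, Ioc_self, prod_empty, one_mul, Nat.cast_le]
    exact mm_le_of_card ρ hW (by omega)
  | succ K hK ih =>
    intro hKn T hT
    obtain ⟨T1, -, hT1⟩ := exists_subset_card_eq (s := (univ : Finset α)) (n := T.card + 1)
      (by rw [card_univ]; omega)
    refine (ih (by omega) T1 (by omega)).trans ?_
    rw [rk, rk, prod_Ioc_succ_top hK, mul_assoc]
    refine mul_le_mul_of_nonneg_left ?_ (rk_nonneg k K)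
    have h1 := mm_step ρ hr hW hWr hT1
    have h2 : (Fintype.card α : ℝ) - T.card = (K + 1 : ℕ) := by
      rw [← hT]; push_cast; ring
    have h3 := Nt_le (n := Fintype.card α) (k := k) (t := T.card) (Nat.cast_nonneg _)
      (by exact_mod_cast (show 1 ≤ T.card by omega))
    rw [h2] at h1 h3
    have h4 : (0 : ℝ) < (K + 1 : ℕ) := by positivity
    refine le_of_mul_le_mul_left (h1.trans ?_) h4
    refine (mul_le_mul_of_nonneg_right h3 (Nat.cast_nonneg _)).trans (le_of_eq ?_)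
    field_simp

theorem finrank_le_Row {W : Submodule ℝ V} (hW : IsInv ρ W) (r : ℕ) :
    Module.finrank ℝ W ≤ Module.finrank ℝ (W ⊓ Row ρ r : Submodule ℝ V) +
      ∑ T ∈ powersetCard (r + 1) univ, mm ρ W T := by
  let φ : W →ₗ[ℝ] ((T : powersetCard (r + 1) (univ : Finset α)) → (W ⊓ Inv ρ T : Submodule ℝ V)) :=
    LinearMap.pi fun T => LinearMap.codRestrict _ ((P ρ T).domRestrict W)
      fun w => ⟨hW.P_mem _ w.2, P_mem_Inv _ _ _⟩
  have h1 := φ.finrank_range_add_finrank_ker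
  have h2 : Module.finrank ℝ φ.range ≤ ∑ T ∈ powersetCard (r + 1) univ, mm ρ W T := by
    refine (Submodule.finrank_le _).trans (le_of_eq ?_)
    rw [Module.finrank_pi_fintype, ← sum_coe_sort (powersetCard (r + 1) univ)]; rfl
  have h3 : Module.finrank ℝ φ.ker ≤ Module.finrank ℝ (W ⊓ Row ρ r : Submodule ℝ V) := by
    rw [← Submodule.finrank_map_subtype_eq]
    refine Submodule.finrank_mono ?_
    rintro _ ⟨w, hw, rfl⟩
    refine ⟨w.2, mem_Row_of_card ρ fun T hT => ?_⟩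
    have := congrFun hw ⟨T, by simp [hT]⟩
    exact congrArg Subtype.val this
  omega

theorem IsInv.orth {ρ : Perm α →* (V ≃ₗᵢ[ℝ] V)} {W : Submodule ℝ V} (h : IsInv ρ W) :
    IsInv ρ Wᗮ := by
  intro g w hw
  rw [Submodule.mem_orthogonal'] at hw ⊢
  intro u hu
  rw [rho_inner]
  exact hw _ (h _ _ hu)

theorem IsInv.inf {ρ : Perm α →* (V ≃ₗᵢ[ℝ] V)} {W W' : Submodule ℝ V} (h : IsInv ρ W)
    (h' : IsInv ρ W') : IsInv ρ (W ⊓ W') := fun g w hw => ⟨h g w hw.1, h' g w hw.2⟩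

def Psi (t : ℕ) : V →ₗ[ℝ] V := ∑ T ∈ powersetCard t univ, P ρ T

theorem Psi_apply (t : ℕ) (v : V) : Psi ρ t v = ∑ T ∈ powersetCard t univ, P ρ T v := by
  simp [Psi, LinearMap.sum_apply]

theorem Psi_quad (t : ℕ) (v : V) :
    ⟪v, Psi ρ t v⟫ = ∑ T ∈ powersetCard t univ, ‖P ρ T v‖ ^ 2 := by
  rw [Psi_apply, inner_sum]
  exact sum_congr rfl fun T _ => (norm_P_sq ρ T v).symm

theorem rho_Psi (t : ℕ) (g : Perm α) (v : V) : ρ g (Psi ρ t v) = Psi ρ t (ρ g v) := by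
  rw [Psi_apply, Psi_apply, map_sum]
  refine sum_bij' (fun T _ => T.map g.toEmbedding) (fun T _ => T.map g⁻¹.toEmbedding)
    (fun T hT => by simpa using hT) (fun T hT => by simpa using hT) (fun T _ => ?_) (fun T _ => ?_)
    fun T _ => rho_P ρ g T v
  · ext x; simp [Perm.inv_def]
  · ext x; simp [Perm.inv_def]

theorem orth_le_sum (r : ℕ) {l : V} (hl : l ∈ (Row ρ r)ᗮ) :
    ‖l‖ ^ 2 ≤ ∑ T ∈ powersetCard (r + 1) univ, ‖P ρ T l‖ ^ 2 := by
  have hs : (-Psi ρ (r + 1)).IsSymmetric := by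
    intro x y
    rw [LinearMap.neg_apply, LinearMap.neg_apply, inner_neg_left, inner_neg_right, Psi_apply,
      Psi_apply, sum_inner, inner_sum]
    exact congrArg _ (sum_congr rfl fun T _ => P_symm ρ T x y)
  have := quad_le (-Psi ρ (r + 1)) hs (Row ρ r)ᗮ (fun w hw => by
    rw [LinearMap.neg_apply, Psi_apply]
    exact Submodule.neg_mem _ (Submodule.sum_mem _ fun T _ => (isInv_Row ρ r).orth.P_mem T hw))
    (-1) ?_ l hl
  · rw [LinearMap.neg_apply, inner_neg_right, Psi_quad] at this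
    linarith
  intro v hv hv0 μ hμ
  obtain ⟨T, hT, hT0⟩ : ∃ T : Finset α, T.card = r + 1 ∧ P ρ T v ≠ 0 := by
    by_contra hc
    push Not at hc
    have h1 := mem_Row_of_card ρ hc
    exact hv0 (inner_self_eq_zero.1 ((Submodule.mem_orthogonal' _ _).1 hv v h1))
  have h2 : Psi ρ (r + 1) (P ρ T v) = (-μ) • P ρ T v := by
    have h3 : Psi ρ (r + 1) v = (-μ) • v := by rw [neg_smul, ← hμ]; simp
    rw [← map_smul, ← h3, P_apply, P_apply, map_smul, map_sum]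
    simp only [rho_Psi]
  have h4 := Psi_quad ρ (r + 1) (P ρ T v)
  rw [h2, inner_smul_right, real_inner_self_eq_norm_sq] at h4
  have h5 := single_le_sum (f := fun T' => ‖P ρ T' (P ρ T v)‖ ^ 2) (fun _ _ => sq_nonneg _)
    (mem_powersetCard.2 ⟨subset_univ T, hT⟩)
  rw [P_P ρ subset_rfl, ← h4] at h5
  have h6 : 0 < ‖P ρ T v‖ ^ 2 := by positivity
  nlinarith

theorem split_bound (r : ℕ) (A : V →ₗ[ℝ] V) {a : ℝ} (ha : a ≤ 1)
    (h1 : ∀ h ∈ Row ρ r, ‖A h‖ ^ 2 ≤ a * ‖h‖ ^ 2) (h2 : ∀ v, ‖A v‖ ≤ ‖v‖)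
    (h3 : ∀ W, IsInv ρ W → ∀ w ∈ W, A w ∈ W) (u : V) :
    ‖A u‖ ^ 2 ≤ a * ‖u‖ ^ 2 + (1 - a) * ∑ T ∈ powersetCard (r + 1) univ, ‖P ρ T u‖ ^ 2 := by
  obtain ⟨h, hh, l, hl, rfl⟩ := (Row ρ r).exists_add_mem_mem_orthogonal u
  have e1 : ‖h + l‖ ^ 2 = ‖h‖ ^ 2 + ‖l‖ ^ 2 := by
    rw [norm_add_sq_real, (Submodule.mem_orthogonal _ _).1 hl h hh]; ring
  have e2 : ‖A (h + l)‖ ^ 2 = ‖A h‖ ^ 2 + ‖A l‖ ^ 2 := by
    rw [map_add, norm_add_sq_real, (Submodule.mem_orthogonal _ _).1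
      (h3 _ (isInv_Row ρ r).orth l hl) _ (h3 _ (isInv_Row ρ r) h hh)]; ring
  have e3 : ∑ T ∈ powersetCard (r + 1) univ, ‖P ρ T (h + l)‖ ^ 2 =
      ∑ T ∈ powersetCard (r + 1) univ, ‖P ρ T l‖ ^ 2 := by
    refine sum_congr rfl fun T hT => ?_
    rw [map_add, hh T (by rw [(mem_powersetCard.1 hT).2]; omega), zero_add]
  have e4 := orth_le_sum ρ r hl
  have e5 := pow_le_pow_left₀ (norm_nonneg _) (h2 l) 2
  have e6 := h1 h hh
  have e7 := mul_le_mul_of_nonneg_left e4 (sub_nonneg.2 ha)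
  rw [e1, e2, e3]
  nlinarith

end Vale.Agent.P162
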