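import Vale.Agent.P162.Num
import Vale.Agent.P162.Defs

open Finset Equiv Function Filter
open scoped BigOperators

noncomputable section

namespace Vale.Agent.P162

section Gen
variable {G G' : Type*} [Group G] [Fintype G] [DecidableEq G] [Group G'] [Fintype G']
  [DecidableEq G']

theorem convPow_equiv (φ : G ≃* G') (μ : G' → ℝ) (t : ℕ) :
    convPow (fun g => μ (φ g)) t = fun g => convPow μ t (φ g) := by
  induction t with
  | zero => funext g; simp [convPow]
  | succ t ih =>
    funext g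
    simp only [convPow, conv, ih]
    rw [← φ.toEquiv.sum_comp]; simp

theorem tvUnif_equiv (φ : G ≃* G') (μ : G' → ℝ) : tvUnif (fun g => μ (φ g)) = tvUnif μ := by
  rw [tvUnif, tvUnif, ← φ.toEquiv.sum_comp, Fintype.card_congr φ.toEquiv]; rfl

def law {β : Type*} [Fintype β] (g : β → G) (h : G) : ℝ := 𝔼 b, if h = g b then 1 else 0

theorem sum_law {β : Type*} [Fintype β] (g : β → G) (f : G → ℝ) :
    ∑ h, law g h * f h = 𝔼 b, f (g b) := by
  simp only [law, expect_mul, ← expect_sum_comm]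
  simp

def Mx (μ : G → ℝ) : Matrix G G ℝ := Matrix.of fun σ τ => μ (σ * τ⁻¹)

theorem Mx_convPow (μ : G → ℝ) (t : ℕ) : Mx (convPow μ t) = Mx μ ^ t := by
  induction t with
  | zero => ext σ τ; simp [Mx, convPow, Matrix.one_apply, mul_inv_eq_one]
  | succ t ih =>
    rw [pow_succ', ← ih]
    ext σ τ
    simp only [Mx, convPow, conv, Matrix.of_apply, Matrix.mul_apply]
    rw [← Equiv.sum_comp (Equiv.mulRight τ⁻¹)]
    simp [mul_assoc]

theorem Mx_law_transpose {β : Type*} [Fintype β] (g : β → G) :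
    (Mx (law g)).transpose = Mx (law fun b => (g b)⁻¹) := by
  ext σ τ
  simp only [Mx, law, Matrix.transpose_apply, Matrix.of_apply]
  refine expect_congr rfl fun b _ => if_congr ?_ rfl rfl
  rw [← inv_inj]; simp

def JJ (G : Type*) [Fintype G] : Matrix G G ℝ := Matrix.of fun _ _ => 1 / (Fintype.card G : ℝ)

theorem Mx_mul_JJ {β : Type*} [Fintype β] [Nonempty β] (g : β → G) : Mx (law g) * JJ G = JJ G := by
  ext σ τ
  simp only [Mx, JJ, Matrix.mul_apply, Matrix.of_apply]
  rw [← ((Equiv.inv G).trans (Equiv.mulRight σ)).sum_comp]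
  simpa using sum_law g fun _ => 1 / (Fintype.card G : ℝ)

theorem JJ_mul_Mx {β : Type*} [Fintype β] [Nonempty β] (g : β → G) : JJ G * Mx (law g) = JJ G := by
  have := congrArg Matrix.transpose (Mx_mul_JJ fun b => (g b)⁻¹)
  rw [Matrix.transpose_mul, ← Mx_law_transpose] at this
  exact this

theorem JJ_mul_JJ : JJ G * JJ G = JJ G := by
  ext σ τ
  simp [JJ, Matrix.mul_apply]

theorem sub_JJ_pow {X : Matrix G G ℝ} (h1 : X * JJ G = JJ G) (h2 : JJ G * X = JJ G) {m : ℕ}
    (hm : 0 < m) : (X - JJ G) ^ m = X ^ m - JJ G := by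
  obtain ⟨m, rfl⟩ := Nat.exists_eq_add_of_le' hm
  induction m with
  | zero => simp
  | succ m ih =>
    have h3 : ∀ k, X ^ k * JJ G = JJ G := fun k => by
      induction k with
      | zero => simp
      | succ k ih => rw [pow_succ, mul_assoc, h1, ih]
    rw [pow_succ, ih (by omega), sub_mul, mul_sub, mul_sub, h3, h2, JJ_mul_JJ, ← pow_succ]; simp

theorem tv_le {β : Type*} [Fintype β] [Nonempty β] (g : β → G) {ν : G → ℝ} {j : ℕ}
    (hν : Mx ν = Mx (law g) ^ 2 ^ j)
    (h : ((Mx (law g) * (Mx (law g)).transpose) ^ 2 ^ j).trace ≤ 1 + 1 / 4) : tvUnif ν ≤ 1 / 4 := by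
  set A := Mx (law g) with hA
  have hN : (0 : ℝ) < Fintype.card G := by exact_mod_cast Fintype.card_pos
  have a1 : A * JJ G = JJ G := Mx_mul_JJ g
  have a2 : JJ G * A = JJ G := JJ_mul_Mx g
  have a3 : A.transpose * JJ G = JJ G := by rw [hA, Mx_law_transpose]; exact Mx_mul_JJ _
  have a4 : JJ G * A.transpose = JJ G := by rw [hA, Mx_law_transpose]; exact JJ_mul_Mx _
  have h1 := Nn_pow_le j 0 (A - JJ G)
  have h2 : (A - JJ G) * (A - JJ G).transpose = A * A.transpose - JJ G := by
    rw [Matrix.transpose_sub, show (JJ G).transpose = JJ G from rfl, sub_mul, mul_sub, mul_sub,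
      a1, a4, JJ_mul_JJ]; simp
  rw [zero_add, Nn, Nn, h2, sub_JJ_pow a1 a2 (by positivity), sub_JJ_pow
    (by rw [mul_assoc, a3, a1]) (by rw [← mul_assoc, a2, a4]) (by positivity), ← hν, pow_zero,
    pow_one, trace_mul_transpose, Matrix.trace_sub] at h1
  have h3 : (JJ G).trace = 1 := by simp [JJ, Matrix.trace]
  have h4 : ∀ σ, ∑ τ, (Mx ν - JJ G) σ τ ^ 2 = ∑ g, |ν g - 1 / (Fintype.card G : ℝ)| ^ 2 := by
    intro σ
    rw [← ((Equiv.inv G).trans (Equiv.mulRight σ)).sum_comp]
    simp [Mx, JJ]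
  simp only [h4, sum_const, card_univ, nsmul_eq_mul] at h1
  have h5 := sq_sum_le_card_mul_sum_sq (s := univ) (f := fun g => |ν g - 1 / (Fintype.card G : ℝ)|)
  rw [card_univ] at h5
  have h6 : (∑ g, |ν g - 1 / (Fintype.card G : ℝ)|) ^ 2 ≤ (1 / 2) ^ 2 := by linarith
  have := (abs_le_of_sq_le_sq' h6 (by norm_num)).2
  rw [tvUnif]; linarith

theorem support_le {β : Type*} [Fintype β] (g : β → G) (t : ℕ) :
    ∃ S : Finset G, S.card ≤ Fintype.card β ^ t ∧ ∀ h, h ∉ S → convPow (law g) t h = 0 := by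
  induction t with
  | zero => exact ⟨{1}, by simp, fun h hh => by simpa [convPow] using hh⟩
  | succ t ih =>
    obtain ⟨S, h1, h2⟩ := ih
    refine ⟨image₂ (fun b s => g b * s) univ S, (card_image₂_le _ _ _).trans ?_, fun h hh => ?_⟩
    · rw [pow_succ', card_univ]; gcongr
    · refine sum_eq_zero fun s _ => ?_
      by_cases hs : s ∈ S
      · rw [law, expect_eq_zero fun b _ => if_neg fun hc => hh ?_, zero_mul]
        exact mem_image₂.2 ⟨b, mem_univ _, s, hs, by rw [← hc]; simp⟩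
      · rw [h2 s hs, mul_zero]

theorem card_le_of_tv {ν : G → ℝ} {S : Finset G} (h : ∀ h, h ∉ S → ν h = 0)
    (ht : tvUnif ν ≤ 1 / 4) : Fintype.card G ≤ 2 * S.card := by
  have hN : (0 : ℝ) < Fintype.card G := by exact_mod_cast Fintype.card_pos
  have h1 : ∑ _g ∈ Sᶜ, 1 / (Fintype.card G : ℝ) ≤ ∑ g, |ν g - 1 / (Fintype.card G : ℝ)| := by
    refine le_trans (le_of_eq (sum_congr rfl fun g hg => ?_))
      (sum_le_sum_of_subset_of_nonneg (subset_univ Sᶜ) fun _ _ _ => abs_nonneg _)
    rw [h g (mem_compl.1 hg), zero_sub, abs_neg, abs_of_pos (by positivity)]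
  rw [sum_const, card_compl, nsmul_eq_mul, Nat.cast_sub (card_le_univ S), mul_one_div] at h1
  rw [tvUnif] at ht
  have h2 : ((Fintype.card G : ℝ) - S.card) / Fintype.card G ≤ 1 / 2 := by linarith
  rw [div_le_iff₀ hN] at h2
  exact_mod_cast (show (Fintype.card G : ℝ) ≤ 2 * S.card by linarith)

end Gen

theorem toEuc_law {α β : Type*} [Fintype α] [DecidableEq α] [Fintype β] (g : β → Perm α) :
    Matrix.toEuclideanLin (Mx (law g)) = avg (lam α) g := by
  ext f σ
  rw [toEuc_apply, avg_lam, ← sum_law g fun h => f (h⁻¹ * σ),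
    ← ((Equiv.inv _).trans (Equiv.mulRight σ)).sum_comp]
  simp [Mx]

variable {d : ℕ}

def rot (d : ℕ) : Perm (Q d) := Equiv.arrowCongr (finRotate d).symm (Equiv.refl Bool)

theorem rot_pow (t : ℕ) (x : Q d) : (rot d ^ t) x = x ∘ (finRotate d ^ t) := by
  induction t with
  | zero => rfl
  | succ t ih => rw [pow_succ', Perm.mul_apply, ih, pow_succ]; rfl

theorem finRotate_pow (t : ℕ) (i : Fin (d + 1)) :
    ((finRotate (d + 1) ^ t) i : ℕ) = (i + t) % (d + 1) := by
  induction t with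
  | zero => simp [Nat.mod_eq_of_lt i.2]
  | succ t ih =>
    rw [pow_succ', Perm.mul_apply, finRotate_apply, Fin.val_add, ih]
    simp [add_assoc]

theorem sw_comp (σ : Perm (Fin d)) (j : Fin d) (c : Q d → Bool) (x : Q d) :
    sw j c (x ∘ σ) = sw (σ j) (fun y => c (y ∘ σ)) x ∘ σ := by
  simp [sw_apply, key, update_comp_eq_of_injective _ σ.injective]

def stp (d : ℕ) (c : Q (d + 1) → Bool) : Perm (Q (d + 1)) := rot (d + 1) * sw 0 c

theorem convPow_stp (t : ℕ) (ht : t ≤ d + 1) :
    convPow (law (stp d)) t = law fun ω : Om (d + 1) => rot (d + 1) ^ t * pos ω t := by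
  induction t with
  | zero => funext g; simp [convPow, law, pos]
  | succ t ih =>
    funext g
    let I : Fin (d + 1) := ⟨t, ht⟩
    simp only [convPow, conv, ih (by omega)]
    rw [sum_congr rfl fun h _ => mul_comm _ _, sum_law]
    simp only [law]
    conv_rhs => rw [resample I]
    refine expect_congr rfl fun ω _ => ?_
    refine Fintype.expect_equiv (Equiv.arrowCongr (rot (d + 1) ^ t).symm (Equiv.refl Bool)) _ _
      fun c => if_congr ?_ rfl rfl
    have h1 : (finRotate (d + 1) ^ t) 0 = I := Fin.ext (by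
      rw [finRotate_pow]; simp [I, Nat.mod_eq_of_lt ht])
    rw [mul_inv_eq_iff_eq_mul]
    refine Eq.congr_right (Equiv.ext fun x => ?_)
    rw [Perm.mul_apply, Perm.mul_apply, Perm.mul_apply, pos_succ _ I, update_self,
      pos_congr (ω := update ω I _) (ω' := ω) I fun l hl => update_of_ne (fun h => by simp [h] at hl) _ _,
      stp, Perm.mul_apply, pow_succ', Perm.mul_apply, rot_pow, rot_pow, sw_comp, h1]
    congr 4
    funext y
    simp [rot_pow]

theorem convPow_stp' : convPow (law (stp d)) (d + 1) = law fun ω : Om (d + 1) => pos ω (d + 1) := by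
  rw [convPow_stp _ le_rfl]
  have : rot (d + 1) ^ (d + 1) = 1 := by
    ext x j
    have : (finRotate (d + 1) ^ (d + 1)) j = j := Fin.ext (by
      rw [finRotate_pow]; simp [Nat.mod_eq_of_lt j.2])
    simp [rot_pow, this]
  simp [this]

def num : (d : ℕ) → Q d → ℕ
  | 0, _ => 0
  | d + 1, x => 2 * num d (Fin.init x) + (x (Fin.last d)).toNat

theorem num_sn (y : Q d) (b : Bool) : num (d + 1) (sn y b) = 2 * num d y + b.toNat := by
  simp [num]

theorem num_lt (x : Q d) : num d x < 2 ^ d := by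
  induction d with
  | zero => simp [num]
  | succ d ih =>
    have := ih (Fin.init x)
    have := (x (Fin.last d)).toNat_lt
    rw [num, pow_succ]; omega

theorem num_inj : Injective (num d) := by
  induction d with
  | zero => exact fun x y _ => Subsingleton.elim _ _
  | succ d ih =>
    intro x y h
    obtain ⟨x, a, rfl⟩ := exists_sn x
    obtain ⟨y, b, rfl⟩ := exists_sn y
    rw [num_sn, num_sn] at h
    cases a <;> cases b <;> simp at h <;> first | omega | rw [ih h]

theorem num_cons (y : Q d) (b : Bool) :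
    num (d + 1) (Fin.cons b y) = b.toNat * 2 ^ d + num d y := by
  induction d with
  | zero => simp [num]
  | succ d ih =>
    obtain ⟨y, a, rfl⟩ := exists_sn y
    have : (Fin.cons b (sn y a) : Q (d + 2)) = sn (Fin.cons b y) a :=
      Fin.cons_snoc_eq_snoc_cons _ _ _
    rw [this, num_sn, num_sn, ih]; ring

def eqv (d : ℕ) : Q d ≃ Fin (2 ^ d) :=
  Equiv.ofBijective (fun x => ⟨num d x, num_lt x⟩) ((Fintype.bijective_iff_injective_and_card _).2
    ⟨fun _ _ h => num_inj (congrArg Fin.val h), by simp⟩)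

theorem eqv_val (x : Q d) : (eqv d x : ℕ) = num d x := rfl

theorem stp_cons (c : Q (d + 1) → Bool) (y : Q d) (b : Bool) :
    stp d c (Fin.cons b y) = sn y (xor b (c (Fin.cons false y))) := by
  have h1 : ∀ b' : Bool, rot (d + 1) (Fin.cons b' y) = sn y b' := by
    intro b'
    funext j
    change (Fin.cons b' y : Q (d + 1)) (finRotate (d + 1) j) = _
    refine Fin.lastCases ?_ (fun j => ?_) j
    · simp
    · simp
  simp [stp, sw_apply, key, h1]

theorem marginal {A B : Type*} [Fintype A] [Fintype B] [DecidableEq A] [DecidableEq B]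
    (e : Bool × A ≃ B) (F : (A → Bool) → ℝ) :
    𝔼 c : B → Bool, F (fun a => c (e (false, a))) = 𝔼 c, F c := by
  rw [← Fintype.expect_equiv ((Equiv.curry _ _ _).symm.trans (Equiv.arrowCongr e (Equiv.refl Bool)))
    (fun f => F (f false)) _ fun f => by simp, resample false]
  simp

theorem thorp_eq (g : Perm (Fin (2 ^ (d + 1)))) :
    thorp (2 ^ (d + 1)) g = law (stp d) ((eqv (d + 1)).symm.permCongrHom g) := by
  have hh : 2 ^ (d + 1) / 2 = 2 ^ d := by rw [pow_succ]; simp
  let e0 : Q d ≃ Fin (2 ^ (d + 1) / 2) := (eqv d).trans (finCongr hh.symm)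
  have he0 : ∀ y, (e0 y : ℕ) = num d y := fun y => rfl
  let e : Bool × Fin (2 ^ (d + 1) / 2) ≃ Q (d + 1) :=
    ((Equiv.refl Bool).prodCongr e0.symm).trans (Fin.consEquiv fun _ => Bool)
  have he : ∀ b y, e (b, e0 y) = Fin.cons b y := fun b y => by simp [e, Fin.consEquiv]
  let p : (Fin (2 ^ (d + 1) / 2) → Bool) → Prop := fun c => ∀ (i : Fin (2 ^ (d + 1) / 2))
    (x : Fin (2 ^ (d + 1))), ((x : ℕ) = i → (g x : ℕ) = 2 * i + (c i).toNat) ∧
      ((x : ℕ) = 2 ^ (d + 1) / 2 + i → (g x : ℕ) = 2 * i + (!c i).toNat)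
  have h1 : thorp (2 ^ (d + 1)) g = 𝔼 c, if p c then 1 else 0 := by
    rw [thorp, Fintype.expect_eq_sum_div_card, sum_boole]; simp [p]
  rw [h1, ← marginal e, law]
  refine expect_congr rfl fun c _ => if_congr ?_ rfl rfl
  have h2 : ∀ b y, (eqv (d + 1)).symm.permCongrHom g (Fin.cons b y) = stp d c (Fin.cons b y) ↔
      (g (eqv (d + 1) (Fin.cons b y)) : ℕ) = 2 * num d y + (xor b (c (Fin.cons false y))).toNat := by
    intro b y
    rw [stp_cons, ← num_sn, ← eqv_val, Fin.val_inj, ← Equiv.symm_apply_eq]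
    simp
  constructor
  · intro h
    ext1 x
    rw [← Fin.cons_self_tail x, h2]
    have h3 := h (e0 (Fin.tail x)) (eqv (d + 1) (Fin.cons (x 0) (Fin.tail x)))
    rw [eqv_val, num_cons] at h3
    simp only [he0, he, hh] at h3
    cases hx : x 0 <;> simp only [hx] at h3
    · simpa using h3.1 (by simp)
    · simpa using h3.2 (by simp)
  · intro h i x
    obtain ⟨y, rfl⟩ := e0.surjective i
    simp only [he0, he, hh]
    constructor
    · intro hx
      have : x = eqv (d + 1) (Fin.cons false y) := Fin.ext (by rw [hx, eqv_val, num_cons]; simp)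
      rw [this, (h2 false y).1 (by rw [h])]; simp
    · intro hx
      have : x = eqv (d + 1) (Fin.cons true y) := Fin.ext (by rw [hx, eqv_val, num_cons]; simp)
      rw [this, (h2 true y).1 (by rw [h])]; simp

theorem tv_thorp (t : ℕ) :
    tvUnif (convPow (thorp (2 ^ (d + 1))) t) = tvUnif (convPow (law (stp d)) t) := by
  rw [funext thorp_eq, convPow_equiv, tvUnif_equiv]

theorem main : ∃ c C : ℝ, 0 < c ∧ 0 < C ∧
    ∀ᶠ d : ℕ in atTop, c * d ≤ tmix (2 ^ d) ∧ (tmix (2 ^ d) : ℝ) ≤ C * d := by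
  obtain ⟨j, hj⟩ := trace_final
  refine ⟨1 / 4, 2 ^ j, by norm_num, by positivity, ?_⟩
  filter_upwards [hj, eventually_ge_atTop 4] with d h1 h2
  obtain ⟨d, rfl⟩ : ∃ e, d = e + 1 := ⟨d - 1, by omega⟩
  have h3 : (d + 1) * 2 ^ j ∈ {t : ℕ | tvUnif (convPow (thorp (2 ^ (d + 1))) t) ≤ 1 / 4} := by
    change tvUnif _ ≤ _
    rw [tv_thorp]
    refine tv_le (fun ω : Om (d + 1) => pos ω (d + 1)) (j := j) ?_ ?_
    · rw [Mx_convPow, pow_mul, ← Mx_convPow, convPow_stp']
    · rw [← trace_toEuc, Mx_law_transpose, Matrix.toLpLin_mul_same]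
      refine le_trans (le_of_eq ?_) h1
      congr 2
      ext1 f
      rw [LinearMap.comp_apply, toEuc_law, toEuc_law, Bop]
      exact (avg_prod _ _ _ _).symm
  constructor
  · have h4 : tvUnif _ ≤ _ := Nat.sInf_mem ⟨_, h3⟩
    change tvUnif (convPow _ (tmix _)) ≤ _ at h4
    rw [tv_thorp] at h4
    set t := tmix (2 ^ (d + 1))
    obtain ⟨S, s1, s2⟩ := support_le (stp d) t
    have h5 := (card_le_of_tv s2 h4).trans (Nat.mul_le_mul_left 2 s1)
    have h6 := Nat.factorial_mul_pow_le_factorial (m := 2 ^ d) (n := 2 ^ d)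
    rw [Fintype.card_perm, card_Q, Fintype.card_fun, card_Q, Fintype.card_bool, pow_succ 2 d, mul_two,
      ← pow_mul, ← pow_succ'] at h5
    have h7 : 2 ^ (d * 2 ^ d) ≤ (2 ^ d).factorial * (2 ^ d + 1) ^ 2 ^ d := by
      rw [pow_mul]
      exact le_trans (Nat.pow_le_pow_left (by omega) _)
        (Nat.le_mul_of_pos_left _ (Nat.factorial_pos _))
    have h8 := (Nat.pow_le_pow_iff_right (by norm_num)).1 (h7.trans (h6.trans h5))
    have h9 : d ≤ 2 * t + 1 := by
      by_contra hc
      have : 1 ≤ 2 ^ d := Nat.one_le_two_pow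
      nlinarith
    have : (d : ℝ) ≤ 2 * t + 1 := by exact_mod_cast h9
    have : (3 : ℝ) ≤ d := by exact_mod_cast (show 3 ≤ d by omega)
    push_cast; linarith
  · have := Nat.sInf_le h3
    rw [mul_comm]
    exact_mod_cast this

end Vale.Agent.P162
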