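import Vale.Agent.P162.Rec

open Finset Equiv Function Filter
open scoped BigOperators RealInnerProductSpace

noncomputable section

namespace Vale.Agent.P162

theorem ev {c : ℝ} (hc : 0 < c) : ∀ᶠ d : ℕ in atTop, ((d : ℝ) + 1) ^ 16 ≤ c * 2 ^ d := by
  have h := (tendsto_pow_const_div_const_pow_of_one_lt 16 (show (1 : ℝ) < 2 by norm_num)).comp
    (tendsto_add_atTop_nat 1)
  filter_upwards [h.eventually (gt_mem_nhds (show 0 < c / 2 by positivity))] with d hd
  simp only [comp_apply, Nat.cast_add, Nat.cast_one] at hd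
  rw [div_lt_iff₀ (by positivity), pow_succ (2 : ℝ)] at hd
  linarith

theorem choose_le_exp (m j : ℕ) {x : ℝ} (hx : 0 ≤ x) :
    m.choose j * x ^ j ≤ Real.exp (x * m) := by
  by_cases h : m < j
  · rw [Nat.choose_eq_zero_of_lt h]; simp [Real.exp_nonneg]
  have h1 := single_le_sum (f := fun i => x ^ i * 1 ^ (m - i) * m.choose i) (s := range (m + 1))
    (fun _ _ => by positivity) (mem_range.2 (by omega : j < m + 1))
  rw [← add_pow, one_pow, mul_one, mul_comm] at h1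
  rw [mul_comm x, Real.exp_nat_mul]
  exact h1.trans (pow_le_pow_left₀ (by positivity) (Real.add_one_le_exp x) _)

theorem two_le_e : (2 : ℝ) ≤ Real.exp 1 := by linarith [Real.add_one_le_exp 1]

theorem eps_bound {m k₁ k t q : ℕ} {δ : ℝ} (hδ : 0 < δ) (hδ1 : δ ≤ 1) (h0 : 1 ≤ k₁)
    (h1 : (m : ℝ) = 2 ^ q * k₁) (h2 : (k : ℝ) = δ * (2 * m)) (h3 : (t : ℝ) = δ * m / 8)
    (hq : (q + 2 : ℝ) ≤ δ ^ 2 / 64 * 2 ^ q) : t ≤ m - k₁ + 1 ∧
    (m.choose (m - k₁ + 1) : ℝ) * ((2 * m).choose t * (1 - k / (2 * (2 * m) : ℝ)) ^ (t - 1)) ≤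
      Real.exp (1 - δ ^ 2 / 64 * m) * ((m - k₁ + 1).choose t * 2 ^ t) := by
  have hk1 : (1 : ℝ) ≤ k₁ := by exact_mod_cast h0
  have hq0 : (0 : ℝ) ≤ q := Nat.cast_nonneg q
  have hδ2 : δ ^ 2 ≤ 1 := pow_le_one₀ hδ.le hδ1
  have hQ : (128 : ℝ) ≤ 2 ^ q := by
    have : (0 : ℝ) < 2 ^ q := by positivity
    nlinarith
  have hm : (0 : ℝ) < m := by rw [h1]; positivity
  have hkm : 128 * (k₁ : ℝ) ≤ m := by rw [h1]; gcongr
  have htm : 8 * (t : ℝ) ≤ m := by rw [h3]; nlinarith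
  have hkt : k₁ + t ≤ m := by exact_mod_cast (show (k₁ : ℝ) + t ≤ m by linarith)
  refine ⟨by omega, ?_⟩
  have e1 : (m.choose (m - k₁ + 1) : ℝ) ≤ Real.exp ((1 + q) * k₁) := by
    have := choose_le_exp m (k₁ - 1) (x := 1 / 2 ^ q) (by positivity)
    rw [← Nat.choose_symm (by omega), show m - (k₁ - 1) = m - k₁ + 1 by omega, one_div, inv_pow,
      mul_inv_le_iff₀ (by positivity), h1, inv_mul_cancel_left₀ (by positivity)] at this
    refine this.trans ?_
    rw [add_mul, one_mul, Real.exp_add]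
    gcongr
    calc ((2 : ℝ) ^ q) ^ (k₁ - 1) ≤ ((2 : ℝ) ^ q) ^ k₁ := pow_le_pow_right₀ (by linarith) (by omega)
      _ ≤ (Real.exp 1 ^ q) ^ k₁ := by gcongr; exact two_le_e
      _ = _ := by rw [← Real.exp_nat_mul, ← Real.exp_nat_mul]; congr 1; ring
  have e2 : (1 - k / (2 * (2 * m) : ℝ)) ^ (t - 1) ≤ Real.exp (1 - δ * t / 2) := by
    have : 1 - k / (2 * (2 * m) : ℝ) = -(δ / 2) + 1 := by rw [h2]; field_simp; ring
    rw [this]
    refine (pow_le_pow_left₀ (by linarith) (Real.add_one_le_exp _) _).trans ?_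
    rw [← Real.exp_nat_mul]
    refine Real.exp_le_exp.2 ?_
    have : (t : ℝ) ≤ (t - 1 : ℕ) + 1 := by exact_mod_cast (show t ≤ t - 1 + 1 by omega)
    nlinarith
  have e3 : ((2 * m).choose t : ℝ) ≤
      Real.exp (2 * (k₁ + t) / m * t) * ((m - k₁ + 1).choose t * 2 ^ t) := by
    have f1 : ((2 * m).choose t : ℝ) ≤ (2 * m : ℕ) ^ t / t.factorial := Nat.choose_le_pow_div _ _
    have f2 : ((m - k₁ + 1 + 1 - t : ℕ) : ℝ) ^ t / t.factorial ≤ (m - k₁ + 1).choose t :=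
      Nat.pow_le_choose _ _
    have f3 : (m : ℝ) - k₁ - t ≤ (m - k₁ + 1 + 1 - t : ℕ) := by
      rw [Nat.cast_sub (by omega)]; push_cast [Nat.cast_sub (show k₁ ≤ m by omega)]; linarith
    have f4 : (m : ℝ) ≤ Real.exp (2 * (k₁ + t) / m) * (m - k₁ - t) := by
      refine le_trans ?_ (mul_le_mul_of_nonneg_right (Real.add_one_le_exp _) (by linarith))
      rw [div_add_one hm.ne', div_mul_eq_mul_div, le_div_iff₀ hm]
      have : (0 : ℝ) ≤ t := Nat.cast_nonneg t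
      nlinarith
    refine f1.trans (le_trans ?_ (mul_le_mul_of_nonneg_left (mul_le_mul_of_nonneg_right f2
      (by positivity)) (by positivity)))
    rw [mul_comm _ (t : ℝ), Real.exp_nat_mul, div_mul_eq_mul_div, ← mul_div_assoc, ← mul_pow,
      ← mul_pow]
    gcongr
    push_cast
    have := mul_le_mul_of_nonneg_left f3 (Real.exp_pos (2 * (k₁ + t) / m)).le
    linarith
  have hβ : 0 ≤ (1 - k / (2 * (2 * m) : ℝ)) ^ (t - 1) := by
    refine pow_nonneg ?_ _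
    rw [h2, sub_nonneg, div_le_one (by positivity)]; nlinarith
  calc _ ≤ Real.exp ((1 + q) * k₁) * ((Real.exp (2 * (k₁ + t) / m * t) *
        ((m - k₁ + 1).choose t * 2 ^ t)) * Real.exp (1 - δ * t / 2)) := by gcongr
    _ = Real.exp ((1 + q) * k₁ + 2 * (k₁ + t) / m * t + (1 - δ * t / 2)) *
        ((m - k₁ + 1).choose t * 2 ^ t) := by rw [Real.exp_add, Real.exp_add]; ring
    _ ≤ _ := by
      gcongr
      have g1 : 2 * (k₁ + t) / m * t = δ * k₁ / 4 + δ ^ 2 * m / 32 := by rw [h3]; field_simp; ring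
      have g2 : (q + 2) * k₁ ≤ δ ^ 2 / 64 * m := by rw [h1, ← mul_assoc]; gcongr
      rw [g1, h3]
      nlinarith

def Lam : ℝ := 4 * Real.exp (4 * C0)

theorem C0_pos : 0 < C0 := by unfold C0; positivity

theorem Lam_ge : 4 ≤ Lam := by
  have := Real.one_le_exp (show 0 ≤ 4 * C0 by have := C0_pos; positivity)
  unfold Lam; linarith

def Kf (d k : ℕ) : ℕ := Nat.sqrt (2 ^ d * k)

theorem Kf_spec {d k : ℕ} (h : k < 2 ^ d) : k ≤ Kf d k ∧ Kf d k < 2 ^ d :=
  ⟨Nat.le_sqrt.2 (by gcongr), Nat.sqrt_lt.2 (by gcongr)⟩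

def th (d k : ℕ) : ℝ := rk k (Kf d k) * ZZ d (Kf d k)

theorem ZZ_le {d : ℕ} (hd : 0 < d) (K : ℕ) : ZZ d K ≤ d * Real.exp (C0 * K ^ 2 / 2 ^ d) := by
  unfold ZZ; convert trace_BX hd K

theorem ZZ_nonneg (d K : ℕ) : 0 ≤ ZZ d K := by
  classical
  exact sum_nonneg fun x _ => pow_entry_nonneg (BX_nonneg K) _ _ _

theorem th_nonneg (d k : ℕ) : 0 ≤ th d k := mul_nonneg (rk_nonneg _ _) (ZZ_nonneg _ _)

theorem th_zero (d : ℕ) : th d 0 = 1 := by
  classical
  have : BX d 0 = 1 := by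
    ext x y
    rw [Subsingleton.elim x y]
    simp only [BX, Matrix.of_apply, Matrix.one_apply_eq]
    rw [expect_congr rfl fun p _ => if_pos (Subsingleton.elim _ _)]
    simp
  have h0 : Kf d 0 = 0 := by simp [Kf]
  rw [th, h0]
  simp [rk, ZZ, this]

theorem th_le {d k : ℕ} (hd : 0 < d) (hk : 1 ≤ k) (h : k < 2 ^ d) :
    th d k ^ 4 ≤ d ^ 4 * (Lam * k / 2 ^ d) ^ k := by
  have hk1 : (1 : ℝ) ≤ k := by exact_mod_cast hk
  have h1 : rk k (Kf d k) ^ 4 ≤ (4 * k / 2 ^ d) ^ k := by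
    have e1 := pow_le_pow_left₀ (sq_nonneg _) (rk_sq_le (Kf_spec h).1) 2
    rw [← pow_mul, ← pow_mul, mul_comm k, pow_mul _ 2 k] at e1
    refine e1.trans (pow_le_pow_left₀ (by positivity) ?_ _)
    have e2 : (2 ^ d * k : ℝ) ≤ ((Kf d k : ℝ) + 1) ^ 2 := by
      exact_mod_cast (Nat.lt_succ_sqrt' (2 ^ d * k)).le
    rw [div_pow, div_le_div_iff₀ (by positivity) (by positivity)]
    calc _ ≤ (2 * k : ℝ) ^ 2 * 2 ^ d := by gcongr; linarith
      _ = 4 * k * (2 ^ d * k) := by ring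
      _ ≤ _ := by gcongr
  have h2 : ZZ d (Kf d k) ≤ d * Real.exp (C0 * k) := by
    refine (ZZ_le hd _).trans ?_
    have e2 : (Kf d k : ℝ) ^ 2 ≤ 2 ^ d * k := by exact_mod_cast Nat.sqrt_le' (2 ^ d * k)
    gcongr
    rw [div_le_iff₀ (by positivity), mul_assoc, mul_comm (k : ℝ)]
    exact mul_le_mul_of_nonneg_left e2 C0_pos.le
  rw [th, mul_pow]
  calc _ ≤ (4 * k / 2 ^ d) ^ k * (d * Real.exp (C0 * k)) ^ 4 := by
        gcongr; exact ZZ_nonneg _ _
    _ = _ := by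
      rw [Lam, mul_pow, ← Real.exp_nat_mul, show 4 * Real.exp (4 * C0) * k / 2 ^ d =
        4 * k / 2 ^ d * Real.exp (4 * C0) by ring, mul_pow _ (Real.exp _), ← Real.exp_nat_mul]
      push_cast; ring_nf

theorem term_le {d k : ℕ} (hd : 0 < d) (hk : 1 ≤ k)
    (h : Real.exp 1 * Lam ^ 4 * k ≤ 2 ^ d) :
    (2 ^ d).choose k * th d k ^ 16 ≤ d ^ 16 / (2 ^ d) ^ 2 ∧ th d k ^ 4 ≤ d ^ 4 * Real.exp (-k) := by
  have hk1 : (1 : ℝ) ≤ k := by exact_mod_cast hk
  have hL := Lam_ge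
  have hL4 : Lam ≤ Lam ^ 4 := le_self_pow₀ (by linarith) (by norm_num)
  have he := two_le_e
  have hn : (0 : ℝ) < 2 ^ d := by positivity
  have h4 : 4 * (k : ℝ) ≤ 2 ^ d := le_trans (by gcongr; nlinarith) h
  have hkn : k < 2 ^ d := by exact_mod_cast (show (k : ℝ) < 2 ^ d by linarith)
  have h1 := th_le hd hk hkn
  set x : ℝ := k / 2 ^ d with hx
  have hx0 : 0 < x := by positivity
  have h2 : Real.exp 1 * Lam ^ 4 * x ≤ 1 := by rwa [hx, ← mul_div_assoc, div_le_one hn]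
  rw [mul_div_assoc, ← hx] at h1
  constructor
  · have h3 := choose_le_exp (2 ^ d) k hx0.le
    have h5 : x ^ k ≤ 1 / 2 ^ d := by
      obtain ⟨j, rfl⟩ := Nat.exists_eq_add_of_le' hk
      have e1 : x ≤ 1 / 4 := by rw [hx, div_le_div_iff₀ hn (by norm_num)]; linarith
      have e2 : ((j + 1 : ℕ) : ℝ) ≤ 4 ^ j := by
        exact_mod_cast Nat.lt_pow_self (show 1 < 4 by norm_num)
      calc x ^ (j + 1) = x ^ j * x := pow_succ _ _
        _ ≤ (1 / 4) ^ j * (4 ^ j / 2 ^ d) := by gcongr; rw [hx]; gcongr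
        _ = _ := by rw [← mul_div_assoc, ← mul_pow]; norm_num
    rw [show x * ((2 ^ d : ℕ) : ℝ) = k * 1 by rw [hx]; push_cast; field_simp,
      Real.exp_nat_mul] at h3
    calc _ ≤ (2 ^ d).choose k * (d ^ 4 * (Lam * x) ^ k) ^ 4 := by
          rw [show 16 = 4 * 4 by rfl, pow_mul]; gcongr
      _ = d ^ 16 * (((2 ^ d).choose k * x ^ k) * (Lam ^ 4 * x) ^ k) * (x ^ k) ^ 2 := by
          rw [mul_pow, mul_pow, mul_pow, mul_pow, ← pow_mul Lam, ← pow_mul Lam, mul_comm k 4]; ring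
      _ ≤ d ^ 16 * (Real.exp 1 ^ k * (Lam ^ 4 * x) ^ k) * (1 / 2 ^ d) ^ 2 := by gcongr
      _ ≤ d ^ 16 * 1 * (1 / 2 ^ d) ^ 2 := by
          gcongr
          rw [← mul_pow, ← mul_assoc]
          exact pow_le_one₀ (by positivity) h2
      _ = _ := by field_simp
  · refine h1.trans ?_
    gcongr
    rw [show -(k : ℝ) = k * (-1) by ring, Real.exp_nat_mul]
    gcongr
    rw [Real.exp_neg, ← one_div, le_div_iff₀ (by positivity)]
    refine le_trans ?_ h2
    rw [mul_comm, ← mul_assoc]; gcongr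

theorem exists_HB {p : ℕ} (hp : Real.exp 1 * Lam ^ 4 ≤ 2 ^ p) :
    ∃ γ : ℝ, 0 < γ ∧ ∀ᶠ d : ℕ in atTop, HB d (2 ^ (d - p)) (Real.exp (-γ * 2 ^ d)) := by
  let q := 4 * p + 18
  let δ : ℝ := 1 / 2 ^ p
  have hδ : 0 < δ := by positivity
  have hδ1 : δ ≤ 1 := by
    rw [div_le_one (by positivity)]; exact one_le_pow₀ (by norm_num)
  have hq : (q + 2 : ℝ) ≤ δ ^ 2 / 64 * 2 ^ q := by
    have h1 : δ ^ 2 / 64 * 2 ^ q = 4096 * 2 ^ p * 2 ^ p := by
      simp only [δ, q]; field_simp; ring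
    have h2 : (p : ℝ) + 1 ≤ 2 ^ p := by exact_mod_cast Nat.lt_two_pow_self
    have h3 : (0 : ℝ) ≤ p := Nat.cast_nonneg p
    rw [h1]; simp only [q]; push_cast; nlinarith
  let c : ℝ := min (δ ^ 2 / 64) (1 / 2 ^ q / 1024)
  have hc : 0 < c := by positivity
  obtain ⟨d₀, hd₀⟩ := eventually_atTop.1 ((ev (show 0 < c / 16 by positivity)).and
    (eventually_ge_atTop q))
  let g : ℝ := (1 / 2) ^ (d₀ + 1) ^ 2
  have hg : 0 < g := by positivity
  have hg1 : g ≤ 1 := pow_le_one₀ (by norm_num) (by norm_num)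
  let γ : ℝ := g / (2 * 2 ^ d₀)
  have hγ : 0 < γ := by positivity
  have hγg : γ * 2 ^ d₀ = g / 2 := by simp only [γ]; field_simp
  have hpow : ∀ d : ℕ, ∀ j ≤ 16, ((d : ℝ) + 1) ^ j ≤ ((d : ℝ) + 1) ^ 16 := fun d j hj =>
    pow_le_pow_right₀ (by simp) hj
  have hγc : γ ≤ c / 16 := by
    have h1 := (hpow d₀ 0 (by norm_num)).trans (hd₀ d₀ le_rfl).1
    refine le_of_mul_le_mul_right ?_ (show (0 : ℝ) < 2 ^ d₀ by positivity)
    rw [hγg]; linarith
  have key : ∀ d, d₀ ≤ d → HB d (2 ^ (d - q)) (Real.exp (-γ * (2 ^ d + 2 ^ d₀))) := by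
    intro d hd
    induction d, hd using Nat.le_induction with
    | base =>
      refine (HB_gap d₀).mono Nat.one_le_two_pow ?_
      rw [show -γ * (2 ^ d₀ + 2 ^ d₀) = -g by linarith]
      linarith [Real.add_one_le_exp (-g)]
    | succ d hd ih =>
      have hqd : q ≤ d := (hd₀ d hd).2
      have hpd : p + 3 ≤ d := by omega
      have hdd : (2 : ℝ) ^ d₀ ≤ 2 ^ d := pow_le_pow_right₀ (by norm_num) hd
      obtain ⟨t1, t2⟩ := eps_bound (m := 2 ^ d) (k₁ := 2 ^ (d - q)) (k := 2 ^ (d + 1 - p))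
        (t := 2 ^ (d - (p + 3))) hδ hδ1 Nat.one_le_two_pow
        (by push_cast; rw [← pow_add]; congr 1; omega)
        (by simp only [δ]; push_cast; rw [pow_sub₀ _ (by norm_num) (by omega)]; ring)
        (by simp only [δ]; push_cast; rw [pow_sub₀ _ (by norm_num) (by omega)]; ring) hq
      have h1 := HB_step (k := 2 ^ (d + 1 - p)) ih (Real.exp_pos _).le
        (Real.exp_le_one_iff.2 (by nlinarith [(by positivity : (0 : ℝ) < 2 ^ d + 2 ^ d₀)]))
        (Nat.pow_le_pow_right (by norm_num) (by omega)) t1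
        (by convert t2 using 5 <;> [ring; skip]; push_cast; ring)
      have hlow : Real.exp (-(c / 4) * 2 ^ d) ≤ Real.exp (-γ * (2 ^ (d + 1) + 2 ^ d₀)) := by
        refine Real.exp_le_exp.2 ?_
        rw [pow_succ]; nlinarith [(by positivity : (0 : ℝ) < 2 ^ d)]
      refine HB_low (Nat.pow_le_pow_right (by norm_num) (by omega : d + 1 - p ≤ d + 1))
        (Kf (d + 1)) (Real.exp_pos _).le (fun k k1 k2 => ?_) (h1.mono le_rfl ?_)
      · have k3 : k < 2 ^ (d + 1) := k2.trans_le (Nat.pow_le_pow_right (by norm_num) (by omega))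
        refine ⟨(Kf_spec k3).1, (Kf_spec k3).2, ?_⟩
        have k4 := (term_le (d := d + 1) (k := k) (by omega) (Nat.one_le_two_pow.trans k1) (by
          have : (k : ℝ) ≤ 2 ^ (d + 1 - p) := by exact_mod_cast k2.le
          calc _ ≤ (2 : ℝ) ^ p * 2 ^ (d + 1 - p) := by gcongr
            _ = _ := by rw [← pow_add]; congr 1; omega)).2
        refine le_trans (le_of_pow_le_pow_left₀ (n := 4) (by norm_num) (by positivity)
          (k4.trans ?_)) (pow_le_pow_left₀ (Real.exp_pos _).le hlow 128)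
        have k5 : 1024 * c * 2 ^ d ≤ k := by
          have e1 : (2 : ℝ) ^ (d - q) ≤ k := by
            exact_mod_cast (Nat.pow_le_pow_right (by norm_num) (by omega)).trans k1
          rw [pow_sub₀ _ (by norm_num) hqd] at e1
          refine le_trans ?_ e1
          have e2 : c ≤ 1 / 2 ^ q / 1024 := min_le_right _ _
          rw [mul_comm ((2 : ℝ) ^ d)]
          gcongr
          rw [← one_div]; linarith
        have k6 := (hpow d 4 (by norm_num)).trans (hd₀ d hd).1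
        have k7 := Real.add_one_le_exp (c / 16 * 2 ^ d)
        rw [← Real.exp_nat_mul, ← Real.exp_nat_mul]
        push_cast
        refine (mul_le_mul_of_nonneg_right (k6.trans (by linarith : _ ≤ Real.exp (c / 16 * 2 ^ d)))
          (Real.exp_pos _).le).trans ?_
        rw [← Real.exp_add]
        refine Real.exp_le_exp.2 ?_
        nlinarith [(by positivity : (0 : ℝ) < c * 2 ^ d)]
      · set A := Real.exp (-γ * (2 ^ (d + 1) + 2 ^ d₀))
        have e1 : Real.exp (-γ * (2 ^ d + 2 ^ d₀)) ^ 2 = A * Real.exp (-(g / 2)) := by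
          rw [← Real.exp_nat_mul, ← Real.exp_add, ← hγg]; congr 1; push_cast; ring
        have e2 : Real.exp (-(g / 2)) ≤ 1 - g / 4 := by
          rw [Real.exp_neg, inv_le_comm₀ (Real.exp_pos _) (by linarith)]
          refine le_trans ?_ (Real.add_one_le_exp _)
          rw [inv_le_iff_one_le_mul₀ (by linarith)]; nlinarith
        have e3 : Real.exp (-((d₀ : ℝ) + 1) ^ 2) ≤ g := by
          rw [show -((d₀ : ℝ) + 1) ^ 2 = ((d₀ + 1) ^ 2 : ℕ) * (-1 : ℝ) by push_cast; ring,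
            Real.exp_nat_mul]
          refine pow_le_pow_left₀ (Real.exp_pos _).le ?_ _
          rw [Real.exp_neg, one_div]
          exact inv_anti₀ (by norm_num) two_le_e
        have e4 : 8 * Real.exp (1 - δ ^ 2 / 64 * (2 ^ d : ℕ)) ≤
            Real.exp (-(c / 4) * 2 ^ d) * Real.exp (-((d₀ : ℝ) + 1) ^ 2) := by
          have f1 : (8 : ℝ) ≤ Real.exp 3 := by
            have := pow_le_pow_left₀ (by norm_num) two_le_e 3
            rw [← Real.exp_nat_mul] at this; norm_num at this; exact this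
          refine (mul_le_mul_of_nonneg_right f1 (Real.exp_pos _).le).trans ?_
          rw [← Real.exp_add, ← Real.exp_add]
          refine Real.exp_le_exp.2 ?_
          have f2 := (hpow d₀ 2 (by norm_num)).trans (hd₀ d₀ le_rfl).1
          have f3 := (hpow d₀ 0 (by norm_num)).trans (hd₀ d₀ le_rfl).1
          have f4 : c * 2 ^ d ≤ δ ^ 2 / 64 * 2 ^ d := by gcongr; exact min_le_left _ _
          have f5 : c * 2 ^ d₀ ≤ c * 2 ^ d := by gcongr
          push_cast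
          linarith
        have e5 := e4.trans (mul_le_mul hlow e3 (Real.exp_pos _).le (Real.exp_pos _).le)
        have e6 := mul_le_mul_of_nonneg_left e2 (Real.exp_pos _ : 0 < A).le
        rw [e1]
        linarith
  refine ⟨γ, hγ, ?_⟩
  filter_upwards [eventually_ge_atTop d₀] with d hd
  refine (key d hd).mono (Nat.pow_le_pow_right (by norm_num) (by omega)) (Real.exp_le_exp.2 ?_)
  nlinarith [(by positivity : (0 : ℝ) < γ * 2 ^ d₀)]

theorem trace_final : ∃ j : ℕ, ∀ᶠ d : ℕ in atTop,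
    LinearMap.trace ℝ _ (Bop (lam (Q d)) ^ 2 ^ j) ≤ 1 + 1 / 4 := by
  obtain ⟨p, hp⟩ := pow_unbounded_of_one_lt (Real.exp 1 * Lam ^ 4) (show (1 : ℝ) < 2 by norm_num)
  obtain ⟨γ, hγ, hH⟩ := exists_HB hp.le
  obtain ⟨j, hj⟩ := pow_unbounded_of_one_lt ((C0 + 1) / γ) (show (1 : ℝ) < 2 by norm_num)
  obtain ⟨a, ha⟩ : ∃ a, 2 ^ (j + 4) = a + 1 := ⟨_, (Nat.sub_add_cancel Nat.one_le_two_pow).symm⟩
  have h1j : 1 ≤ 2 ^ j := Nat.one_le_two_pow
  have ha' : 2 ^ j * 16 = a + 1 := by rw [← ha, pow_add]; rfl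
  refine ⟨7 + (j + 4), ?_⟩
  filter_upwards [hH, ev (show (0 : ℝ) < 1 / 8 by norm_num), eventually_ge_atTop (p + 1)]
    with d h1 h2 h3
  have hle : 2 ^ (d - p) ≤ 2 ^ d := Nat.pow_le_pow_right (by norm_num) (by omega)
  have hn : (0 : ℝ) < 2 ^ d := by positivity
  have hd1 : (d : ℝ) ≤ (d + 1) ^ 16 := le_trans (by linarith) (le_self_pow₀ (by simp) (by norm_num))
  have hd2 : (d : ℝ) ^ 16 ≤ (d + 1) ^ 16 := by gcongr; linarith
  rw [pow_add 2 7, ha]
  refine (trace_Bop_le hle (Kf d) (fun k hk => Kf_spec (by omega)) (h1 _ _) a).trans ?_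
  have e1 : (Real.exp (-γ * 2 ^ d) ^ 128) ^ a * ZZ d (2 ^ d) ≤ 1 / 8 := by
    refine (mul_le_mul_of_nonneg_left (ZZ_le (by omega) _) (by positivity)).trans ?_
    rw [← Real.exp_nat_mul, ← Real.exp_nat_mul, mul_left_comm, ← Real.exp_add]
    have f1 : C0 + 1 ≤ a * γ := by
      rw [div_lt_iff₀ hγ] at hj
      have : (2 : ℝ) ^ j ≤ a := by exact_mod_cast (show 2 ^ j ≤ a by omega)
      nlinarith
    have f2 : Real.exp (a * ((128 : ℕ) * (-γ * 2 ^ d)) + C0 * ((2 ^ d : ℕ) : ℝ) ^ 2 / 2 ^ d) ≤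
        (2 ^ d)⁻¹ := by
      refine le_trans (Real.exp_le_exp.2 (?_ : _ ≤ -(2 : ℝ) ^ d)) ?_
      · push_cast
        rw [sq, ← mul_assoc C0, mul_div_assoc, div_self hn.ne']
        have := C0_pos
        nlinarith
      · rw [Real.exp_neg]
        exact inv_anti₀ hn (by linarith [Real.add_one_le_exp (2 ^ d)])
    refine (mul_le_mul_of_nonneg_left f2 (Nat.cast_nonneg _)).trans ?_
    rw [mul_inv_le_iff₀ hn]; linarith
  have e2 : ∀ k, k + 1 < 2 ^ (d - p) →
      (2 ^ d).choose (k + 1) * th d (k + 1) ^ (a + 1) ≤ d ^ 16 / (2 ^ d) ^ 2 := by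
    intro k hk
    have f1 := (term_le (d := d) (k := k + 1) (by omega) (by omega) (by
      have : ((k + 1 : ℕ) : ℝ) ≤ 2 ^ (d - p) := by exact_mod_cast hk.le
      calc _ ≤ (2 : ℝ) ^ p * 2 ^ (d - p) := by gcongr
        _ = _ := by rw [← pow_add]; congr 1; omega)).1
    refine le_trans (mul_le_mul_of_nonneg_left (pow_le_pow_of_le_one (th_nonneg _ _) ?_
      (by omega)) (Nat.cast_nonneg _)) f1
    have f2 : (1 : ℝ) ≤ (2 ^ d).choose (k + 1) := by exact_mod_cast Nat.choose_pos (by omega)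
    have f3 : (d : ℝ) ^ 16 / (2 ^ d) ^ 2 ≤ 1 := by
      have : (1 : ℝ) ≤ 2 ^ d := one_le_pow₀ (by norm_num)
      rw [div_le_one (by positivity)]; nlinarith
    refine le_of_pow_le_pow_left₀ (n := 16) (by norm_num) (by norm_num) ?_
    have := pow_nonneg (th_nonneg d (k + 1)) 16
    rw [one_pow]; nlinarith
  obtain ⟨N, hN⟩ : ∃ N, 2 ^ (d - p) = N + 1 := ⟨_, (Nat.sub_add_cancel Nat.one_le_two_pow).symm⟩
  have e3 : ∑ k ∈ range N, (2 ^ d).choose (k + 1) * th d (k + 1) ^ (a + 1) ≤ 1 / 8 := by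
    refine (sum_le_card_nsmul _ _ _ fun k hk => e2 k (by rw [mem_range] at hk; omega)).trans ?_
    have : (N : ℝ) ≤ 2 ^ d := by exact_mod_cast (show N ≤ 2 ^ d by omega)
    rw [card_range, nsmul_eq_mul]
    calc _ ≤ 2 ^ d * ((d : ℝ) ^ 16 / (2 ^ d) ^ 2) := by gcongr
      _ = d ^ 16 / 2 ^ d := by field_simp
      _ ≤ _ := by rw [div_le_iff₀ hn]; linarith
  change _ + ∑ k ∈ range (2 ^ (d - p)), (2 ^ d).choose k * th d k ^ (a + 1) ≤ _
  rw [hN, sum_range_succ', th_zero]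
  simp only [Nat.choose_zero_right, Nat.cast_one, one_pow, mul_one]
  linarith

end Vale.Agent.P162
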