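import Vale.Agent.P162.Blocks

open Finset Equiv Function
open scoped BigOperators Classical

noncomputable section

namespace Vale.Agent.P162

variable {d : ℕ}

theorem sum_pairs_le {β : Type*} [Fintype β] [DecidableEq β] {ν : Perm β} (hν : Involutive ν)
    (hν' : ∀ x, ν x ≠ x) {t : ℝ} (ht : 1 ≤ t) (K : ℕ) :
    ∑ y : Fin K → β, t ^ ((univ.image y).filter fun a => ν a ∈ univ.image y).card ≤
      (Fintype.card β + t ^ 2 * K) ^ K := by
  induction K with
  | zero => simp
  | succ K ih =>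
    rw [← (Fin.consEquiv fun _ => β).sum_comp, Fintype.sum_prod_type, sum_comm]
    have h1 : ∀ (y : Fin K → β) (a : β),
        t ^ ((univ.image (Fin.consEquiv (fun _ => β) (a, y))).filter
          fun b => ν b ∈ univ.image (Fin.consEquiv (fun _ => β) (a, y))).card ≤
        t ^ ((univ.image y).filter fun a => ν a ∈ univ.image y).card *
          (1 + if ν a ∈ univ.image y then t ^ 2 else 0) := by
      intro y a
      have e : univ.image (Fin.consEquiv (fun _ => β) (a, y)) = insert a (univ.image y) := by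
        ext b; simp [Fin.consEquiv, Fin.exists_fin_succ, eq_comm]
      rw [e]
      set S := univ.image y
      split_ifs with h
      · have : ((insert a S).filter fun b => ν b ∈ insert a S).card ≤
            (S.filter fun a => ν a ∈ S).card + 2 := by
          refine le_trans (card_le_card (t := insert a (insert (ν a) (S.filter fun a => ν a ∈ S)))
            fun b hb => ?_) ((card_insert_le _ _).trans (by
              have := card_insert_le (ν a) (S.filter fun a => ν a ∈ S); omega))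
          simp only [mem_filter, mem_insert] at hb ⊢
          rcases hb with ⟨h1 | h1, h2 | h2⟩
          · exact Or.inl h1
          · exact Or.inl h1
          · exact Or.inr (Or.inl (by rw [← h2, hν]))
          · exact Or.inr (Or.inr ⟨h1, h2⟩)
        refine (pow_le_pow_right₀ ht this).trans ?_
        rw [pow_add]; gcongr; linarith
      · rw [add_zero, mul_one]
        refine pow_le_pow_right₀ ht (card_le_card fun b hb => ?_)
        simp only [mem_filter, mem_insert] at hb ⊢
        rcases hb with ⟨h1 | h1, h2 | h2⟩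
        · exact absurd (h1 ▸ h2) (hν' a)
        · exact absurd (h1 ▸ h2) h
        · exact absurd (by rw [← h2, hν]; exact h1) h
        · exact ⟨h1, h2⟩
    have h2 : ∀ y : Fin K → β, ∑ a, (1 + if ν a ∈ univ.image y then t ^ 2 else 0) ≤
        Fintype.card β + t ^ 2 * K := by
      intro y
      rw [sum_add_distrib, Equiv.sum_comp ν fun a => if a ∈ univ.image y then t ^ 2 else 0,
        sum_ite_mem, univ_inter, sum_const, sum_const, card_univ, nsmul_eq_mul, nsmul_eq_mul,
        mul_one, mul_comm]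
      gcongr
      exact_mod_cast card_image_le.trans (by simp)
    refine (sum_le_sum fun y _ => (sum_le_sum fun a _ => h1 y a).trans ((mul_sum _ _ _).symm.trans_le
      (mul_le_mul_of_nonneg_left (h2 y) (by positivity)))).trans ?_
    rw [← sum_mul]
    push_cast
    rw [pow_succ (_ + _)]
    exact mul_le_mul (ih.trans (by gcongr; linarith)) (by gcongr; linarith) (by positivity)
      (by positivity)

theorem jensen_step {β : Type*} [Fintype β] [Nonempty β] (E : β → Prop) [DecidablePred E]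
    (C : β → ℝ) (hC : ∀ b, 0 < C b) {η : ℝ} (h : 𝔼 b, (if E b then (C b)⁻¹ else 0) ≤ η)
    {θ : ℝ} (hθ : 0 < θ) :
    (𝔼 b, if E b then (1 : ℝ) else 0) ^ (1 + θ) ≤ η ^ θ * 𝔼 b, if E b then C b ^ θ else 0 := by
  have hN : (0 : ℝ) < Fintype.card β := by exact_mod_cast Fintype.card_pos
  have hpq : ((1 + θ) / θ).HolderConjugate (1 + θ) := by
    rw [Real.holderConjugate_iff]
    refine ⟨by rw [lt_div_iff₀ hθ]; linarith, by field_simp; ring⟩
  have h1 := Real.inner_le_Lp_mul_Lq_of_nonneg univ hpq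
    (f := fun b => if E b then C b ^ (-(θ / (1 + θ))) else 0)
    (g := fun b => if E b then C b ^ (θ / (1 + θ)) else 0)
    (fun b _ => by have := hC b; split_ifs <;> positivity)
    (fun b _ => by have := hC b; split_ifs <;> positivity)
  have e1 : ∀ b, (if E b then C b ^ (-(θ / (1 + θ))) else 0) *
      (if E b then C b ^ (θ / (1 + θ)) else 0) = if E b then (1 : ℝ) else 0 := by
    intro b; split_ifs
    · rw [← Real.rpow_add (hC b)]; simp
    · simp
  have e2 : ∀ b, (if E b then C b ^ (-(θ / (1 + θ))) else 0) ^ ((1 + θ) / θ) =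
      if E b then (C b)⁻¹ else 0 := by
    intro b; split_ifs
    · rw [← Real.rpow_mul (hC b).le, ← Real.rpow_neg_one]; congr 1; field_simp
    · exact Real.zero_rpow (by positivity)
  have e3 : ∀ b, (if E b then C b ^ (θ / (1 + θ)) else 0) ^ (1 + θ) =
      if E b then C b ^ θ else 0 := by
    intro b; split_ifs
    · rw [← Real.rpow_mul (hC b).le]; congr 1; field_simp
    · exact Real.zero_rpow (by positivity)
  simp only [e1, e2, e3] at h1
  simp only [Fintype.expect_eq_sum_div_card] at h ⊢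
  set a := ∑ b, if E b then (C b)⁻¹ else 0
  set c := ∑ b, if E b then C b ^ θ else 0
  have ha : 0 ≤ a := sum_nonneg fun b _ => by have := hC b; split_ifs <;> positivity
  have hc : 0 ≤ c := sum_nonneg fun b _ => by have := hC b; split_ifs <;> positivity
  have hs : 0 ≤ ∑ b, if E b then (1 : ℝ) else 0 := sum_nonneg fun b _ => by
    split_ifs <;> positivity
  have h2 := Real.rpow_le_rpow hs h1 (show 0 ≤ 1 + θ by positivity)
  rw [Real.mul_rpow (by positivity) (by positivity), ← Real.rpow_mul ha, ← Real.rpow_mul hc,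
    show 1 / ((1 + θ) / θ) * (1 + θ) = θ by field_simp, show 1 / (1 + θ) * (1 + θ) = 1 by field_simp,
    Real.rpow_one] at h2
  rw [Real.div_rpow hs hN.le, Real.rpow_add hN, Real.rpow_one]
  calc _ ≤ a ^ θ * c / (Fintype.card β * Fintype.card β ^ θ) := by gcongr
    _ = (a / Fintype.card β) ^ θ * (c / Fintype.card β) := by
      rw [Real.div_rpow ha hN.le]; field_simp
    _ ≤ _ := by gcongr

theorem pow_expect_le {β : Type*} [Fintype β] [Nonempty β] (f : β → ℝ) (hf : ∀ b, 0 ≤ f b) (m : ℕ) :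
    (𝔼 b, f b) ^ m ≤ 𝔼 b, f b ^ m := by
  have hN : (0 : ℝ) < Fintype.card β := by exact_mod_cast Fintype.card_pos
  have := Real.pow_arith_mean_le_arith_mean_pow univ (fun _ => (Fintype.card β : ℝ)⁻¹) f
    (fun _ _ => by positivity) (by simp) (fun b _ => hf b) m
  simpa only [Fintype.expect_eq_sum_div_card, ← mul_sum, div_eq_inv_mul] using this

def BX (d K : ℕ) : Matrix (Fin K ↪ Q d) (Fin K ↪ Q d) ℝ := Matrix.of fun x x' =>
  𝔼 p : Om d × Om d, if ⇑(pos p.1 d)⁻¹ ∘ x = ⇑(pos p.2 d)⁻¹ ∘ x' then 1 else 0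

theorem BX_nonneg (K : ℕ) (x x' : Fin K ↪ Q d) : 0 ≤ BX d K x x' :=
  expect_nonneg fun _ _ => by split_ifs <;> norm_num

theorem BX_symm (K : ℕ) : (BX d K).transpose = BX d K := by
  ext x x'
  exact Fintype.expect_equiv (prodComm _ _) _ _ fun p => by simp [eq_comm]

def C0 : ℝ := Real.exp (64 * 127) ^ 2

theorem trace_BX (hd : 0 < d) (K : ℕ) :
    (BX d K ^ 128).trace ≤ d * Real.exp (C0 * K ^ 2 / 2 ^ d) := by
  have : Nonempty (Fin d) := ⟨⟨0, hd⟩⟩
  refine (russo (BX_nonneg K) (BX_symm K) (show 0 < 127 by norm_num)).trans ?_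
  let η : ℝ := ((1 / 2) ^ K) ^ d
  have hη : 0 ≤ η := by positivity
  let t := Real.exp (64 * 127)
  have ht : 1 ≤ t := Real.one_le_exp (by norm_num)
  let Cw : (Fin K ↪ Q d) → Om d → Om d → ℝ := fun x ω ω' =>
    ∏ l ∈ range d, CN ω ω' (univ.image (⇑(pos ω d)⁻¹ ∘ x)) l
  have hCw : ∀ x ω ω', 0 < Cw x ω ω' := fun x ω ω' =>
    prod_pos fun l _ => zero_lt_one.trans_le (one_le_CN _ _ _ _)
  have h1 : ∀ x, ∑ x', BX d K x x' ^ (1 + 1 / (127 : ℕ) : ℝ) ≤
      η ^ (1 / 127 : ℝ) * 𝔼 ω, 𝔼 ω', Cw x ω ω' ^ (1 / 127 : ℝ) := by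
    intro x
    have h2 : ∀ x', BX d K x x' ^ (1 + 1 / (127 : ℕ) : ℝ) ≤ η ^ (1 / 127 : ℝ) *
        𝔼 p : Om d × Om d, if ⇑(pos p.1 d)⁻¹ ∘ x = ⇑(pos p.2 d)⁻¹ ∘ x' then
          Cw x p.1 p.2 ^ (1 / 127 : ℝ) else 0 := by
      intro x'
      have h3 := KI d le_rfl x x' x.injective x'.injective
      rw [if_pos (fun j l hl => absurd l.2 (by omega)), ← expect_product', univ_product_univ,
        Fintype.card_fin] at h3
      exact jensen_step (fun p : Om d × Om d => ⇑(pos p.1 d)⁻¹ ∘ x = ⇑(pos p.2 d)⁻¹ ∘ x')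
        (fun p => Cw x p.1 p.2) (fun p => hCw _ _ _) (by convert h3 using 2; simp only [Phi, Cw])
        (show (0 : ℝ) < 1 / 127 by norm_num)
    refine (sum_le_sum fun x' _ => h2 x').trans ?_
    rw [← mul_sum, ← expect_sum_comm, ← expect_product', univ_product_univ]
    refine mul_le_mul_of_nonneg_left (expect_le_expect fun p _ => ?_) (by positivity)
    rw [← sum_filter, sum_const, nsmul_eq_mul]
    refine mul_le_of_le_one_left (Real.rpow_nonneg (hCw _ _ _).le _) ?_
    norm_cast
    refine card_le_one.2 fun a ha b hb => DFunLike.coe_injective ?_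
    exact (pos p.2 d)⁻¹.injective.comp_left (((mem_filter.1 ha).2).symm.trans (mem_filter.1 hb).2)
  let F : Om d → (Fin K → Q d) → ℝ := fun ω y => ∑ l : Fin d,
    t ^ ((univ.image y).filter fun a => mu ω l a ∈ univ.image y).card
  have h2 : ∀ x ω, (𝔼 ω', Cw x ω ω' ^ (1 / 127 : ℝ)) ^ 127 ≤ F ω (⇑(pos ω d)⁻¹ ∘ x) := by
    intro x ω
    set S := univ.image (⇑(pos ω d)⁻¹ ∘ x)
    obtain ⟨l, -, hl⟩ := exists_max_image univ
      (fun l => (S.filter fun a => mu ω l a ∈ S).card) univ_nonempty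
    refine (pow_le_pow_left₀ (expect_nonneg fun _ _ => Real.rpow_nonneg (hCw _ _ _).le _)
      (expect_CN ω S fun l' => hl l' (mem_univ _)) _).trans (le_trans (le_of_eq ?_)
      (single_le_sum (f := fun l => t ^ (S.filter fun a => mu ω l a ∈ S).card)
        (fun _ _ => by positivity) (mem_univ l)))
    simp only [t]
    rw [← Real.exp_nat_mul, ← Real.exp_nat_mul]; congr 1; push_cast; ring
  have h3 : ∀ x, (∑ x', BX d K x x' ^ (1 + 1 / (127 : ℕ) : ℝ)) ^ 127 ≤
      η * 𝔼 ω, F ω (⇑(pos ω d)⁻¹ ∘ x) := by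
    intro x
    refine (pow_le_pow_left₀ (sum_nonneg fun _ _ => Real.rpow_nonneg (BX_nonneg _ _ _) _)
      (h1 x) _).trans ?_
    rw [mul_pow, ← Real.rpow_natCast (η ^ _), ← Real.rpow_mul hη]
    norm_num
    refine mul_le_mul_of_nonneg_left ((pow_expect_le _ (fun ω => expect_nonneg fun _ _ =>
      Real.rpow_nonneg (hCw _ _ _).le _) _).trans (expect_le_expect fun ω _ => h2 x ω)) hη
  refine (sum_le_sum fun x _ => h3 x).trans ?_
  rw [← mul_sum, ← expect_sum_comm]
  have h4 : ∀ ω : Om d, ∑ x : Fin K ↪ Q d, F ω (⇑(pos ω d)⁻¹ ∘ x) ≤ d * (2 ^ d + t ^ 2 * K) ^ K := by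
    intro ω
    rw [← sum_image (s := univ) (g := fun x : Fin K ↪ Q d => ⇑(pos ω d)⁻¹ ∘ x) (f := F ω)
      fun a _ b _ h => DFunLike.coe_injective ((pos ω d)⁻¹.injective.comp_left h)]
    refine (sum_le_sum_of_subset_of_nonneg (subset_univ _) fun y _ _ =>
      sum_nonneg fun _ _ => by positivity).trans ?_
    rw [sum_comm]
    refine (sum_le_sum fun l _ => sum_pairs_le (mu_mu ω l) (mu_ne ω l) ht K).trans ?_
    simp
  refine (mul_le_mul_of_nonneg_left (expect_le univ_nonempty fun ω _ => h4 ω) hη).trans ?_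
  rw [mul_left_comm]
  refine mul_le_mul_of_nonneg_left ?_ (Nat.cast_nonneg _)
  have e : η * (2 ^ d + t ^ 2 * K) ^ K = (t ^ 2 * K / 2 ^ d + 1) ^ K := by
    simp only [η]
    rw [← pow_mul, mul_comm K d, pow_mul, ← mul_pow]; congr 1
    rw [one_div, inv_pow]; field_simp; ring
  rw [e, show C0 * K ^ 2 / 2 ^ d = K * (t ^ 2 * K / 2 ^ d) by simp only [C0, t]; ring,
    Real.exp_nat_mul]
  gcongr
  exact Real.add_one_le_exp _

end Vale.Agent.P162
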