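import Vale.Agent.P162.Level
import Vale.Agent.P162.ZK

open Finset Equiv Function
open scoped BigOperators RealInnerProductSpace

noncomputable section

namespace Vale.Agent.P162

section Avg
variable {α : Type*} [Fintype α] [DecidableEq α]
variable {V : Type*} [NormedAddCommGroup V] [InnerProductSpace ℝ V]
variable (ρ : Perm α →* (V ≃ₗᵢ[ℝ] V)) {β γ : Type*} [Fintype β] [Fintype γ]

def avg (g : β → Perm α) : V →ₗ[ℝ] V := (Fintype.card β : ℝ)⁻¹ • ∑ b, rl ρ (g b)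

theorem avg_apply (g : β → Perm α) (v : V) :
    avg ρ g v = (Fintype.card β : ℝ)⁻¹ • ∑ b, ρ (g b) v := by
  simp [avg, LinearMap.sum_apply]

theorem norm_avg_le [Nonempty β] (g : β → Perm α) (v : V) : ‖avg ρ g v‖ ≤ ‖v‖ := by
  have hN : (0 : ℝ) < Fintype.card β := by exact_mod_cast Fintype.card_pos
  rw [avg_apply, norm_smul, norm_inv, Real.norm_natCast, inv_mul_le_iff₀ hN]
  refine (norm_sum_le _ _).trans (le_of_eq ?_)
  simp

theorem IsInv.avg_mem {ρ : Perm α →* (V ≃ₗᵢ[ℝ] V)} {W : Submodule ℝ V} (h : IsInv ρ W)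
    (g : β → Perm α) {w : V} (hw : w ∈ W) : avg ρ g w ∈ W := by
  rw [avg_apply]
  exact W.smul_mem _ (W.sum_mem fun b _ => h _ w hw)

theorem inner_avg (g : β → Perm α) (u v : V) : ⟪avg ρ g u, v⟫ = ⟪u, avg ρ (fun b => (g b)⁻¹) v⟫ := by
  rw [avg_apply, avg_apply, inner_smul_left, inner_smul_right, sum_inner, inner_sum]
  simp only [conj_trivial, rho_inner]

theorem inner_avg_right (g : β → Perm α) (u v : V) : ⟪u, avg ρ g v⟫ = 𝔼 b, ⟪u, ρ (g b) v⟫ := by
  rw [avg_apply, inner_smul_right, inner_sum, Fintype.expect_eq_sum_div_card, div_eq_inv_mul]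

theorem avg_prod (g : β → Perm α) (h : γ → Perm α) (v : V) :
    avg ρ (fun p : β × γ => g p.1 * h p.2) v = avg ρ g (avg ρ h v) := by
  rw [avg_apply, avg_apply, avg_apply, Fintype.sum_prod_type]
  simp only [map_smul, map_sum, ← smul_sum, smul_smul, rho_mul, Fintype.card_prod, Nat.cast_mul,
    mul_inv]

theorem avg_equiv (e : β ≃ γ) (g : γ → Perm α) (v : V) : avg ρ (fun b => g (e b)) v = avg ρ g v := by
  rw [avg_apply, avg_apply, Fintype.card_congr e, e.sum_comp fun c => ρ (g c) v]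

theorem P_intertwine {V' : Type*} [NormedAddCommGroup V'] [InnerProductSpace ℝ V']
    (ρ' : Perm α →* (V' ≃ₗᵢ[ℝ] V')) (F : V →ₗ[ℝ] V') (h : ∀ g v, F (ρ g v) = ρ' g (F v))
    (T : Finset α) (v : V) : F (P ρ T v) = P ρ' T (F v) := by
  simp only [P_apply, map_smul, map_sum, h]

end Avg

section Spec
variable {V : Type*} [NormedAddCommGroup V] [InnerProductSpace ℝ V] [FiniteDimensional ℝ V]

open Module.End in
theorem trace_spec {S : V →ₗ[ℝ] V} (hS : S.IsSymmetric) : ∃ Sp : Finset ℝ, (∀ m : ℕ,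
    LinearMap.trace ℝ V (S ^ m) = ∑ s ∈ Sp, s ^ m * Module.finrank ℝ (eigenspace S s)) ∧
    ∀ m : ℕ, Even m → ∀ Sp' : Finset ℝ,
      ∑ s ∈ Sp', s ^ m * Module.finrank ℝ (eigenspace S s) ≤ LinearMap.trace ℝ V (S ^ m) := by
  classical
  let μ := hS.eigenvalues rfl
  have h1 : ∀ m : ℕ, LinearMap.trace ℝ V (S ^ m) = ∑ i, μ i ^ m := by
    intro m
    rw [LinearMap.trace_eq_sum_inner _ (hS.eigenvectorBasis rfl)]
    refine sum_congr rfl fun i _ => ?_
    rw [(hS.hasEigenvector_eigenvectorBasis rfl i).pow_apply, inner_smul_right,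
      real_inner_self_eq_norm_sq, (hS.eigenvectorBasis rfl).orthonormal.1 i]
    simp [μ]
  have h2 : ∀ (m : ℕ) (Sp' : Finset ℝ), ∑ s ∈ Sp', s ^ m * Module.finrank ℝ (eigenspace S s) =
      ∑ i with μ i ∈ Sp', μ i ^ m := by
    intro m Sp'
    rw [← sum_fiberwise_eq_sum_filter' univ Sp' μ fun s => s ^ m]
    refine sum_congr rfl fun s _ => ?_
    rw [sum_const, ← hS.card_filter_eigenvalues_eq rfl s, nsmul_eq_mul, mul_comm]
    simp [μ]
  refine ⟨univ.image μ, fun m => ?_, fun m hm Sp' => ?_⟩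
  · rw [h1, h2, filter_true_of_mem fun i _ => mem_image_of_mem _ (mem_univ i)]
  · rw [h1, h2]
    exact sum_le_sum_of_subset_of_nonneg (filter_subset _ _) fun i _ _ => hm.pow_nonneg _

theorem trace_toEuc {ι : Type*} [Fintype ι] [DecidableEq ι] (M : Matrix ι ι ℝ) (m : ℕ) :
    LinearMap.trace ℝ _ (Matrix.toEuclideanLin M ^ m) = (M ^ m).trace := by
  rw [← Matrix.toLpLin_pow, Matrix.toLpLin_eq_toLin, Matrix.trace_toLin_eq]

theorem toEuc_apply {ι : Type*} [Fintype ι] [DecidableEq ι] (M : Matrix ι ι ℝ)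
    (f : EuclideanSpace ℝ ι) (x : ι) : Matrix.toEuclideanLin M f x = ∑ y, M x y * f y := rfl

theorem toEuc_symm {ι : Type*} [Fintype ι] [DecidableEq ι] {M : Matrix ι ι ℝ}
    (h : M.transpose = M) : (Matrix.toEuclideanLin M).IsSymmetric :=
  Matrix.isSymmetric_toEuclideanLin_iff.2 (by simpa [Matrix.IsHermitian] using h)

end Spec

section Reg
variable (α : Type*) [Fintype α] [DecidableEq α]

abbrev Rg := EuclideanSpace ℝ (Perm α)

def lam : Perm α →* (Rg α ≃ₗᵢ[ℝ] Rg α) :=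
  MonoidHom.mk' (fun g => LinearIsometryEquiv.piLpCongrLeft 2 ℝ ℝ (Equiv.mulLeft g)) fun g h => by
    ext f σ
    change f ((g * h)⁻¹ * σ) = f (h⁻¹ * (g⁻¹ * σ))
    rw [mul_inv_rev, mul_assoc]

def rgt : Perm α →* (Rg α ≃ₗᵢ[ℝ] Rg α) :=
  MonoidHom.mk' (fun g => LinearIsometryEquiv.piLpCongrLeft 2 ℝ ℝ (Equiv.mulRight g).symm) fun g h => by
    ext f σ
    change f (σ * (g * h)) = f (σ * g * h)
    rw [mul_assoc]

variable {α}

theorem lam_apply (g : Perm α) (f : Rg α) (σ : Perm α) : lam α g f σ = f (g⁻¹ * σ) := rfl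
theorem rgt_apply (g : Perm α) (f : Rg α) (σ : Perm α) : rgt α g f σ = f (σ * g) := rfl

theorem avg_lam {β : Type*} [Fintype β] (g : β → Perm α) (f : Rg α) (σ : Perm α) :
    avg (lam α) g f σ = 𝔼 b, f ((g b)⁻¹ * σ) := by
  rw [avg_apply, Fintype.expect_eq_sum_div_card, div_eq_inv_mul]
  simp [lam_apply]

theorem Psi_lam (t : ℕ) (f : Rg α) : Psi (lam α) t f = Psi (rgt α) t f := by
  ext σ
  have h1 : Psi (lam α) t f σ = Psi (lam α) t (lam α σ⁻¹ f) 1 := by
    rw [← rho_Psi, lam_apply]; simp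
  rw [h1, Psi_apply, Psi_apply]
  simp only [WithLp.ofLp_sum, Finset.sum_apply, P_apply, WithLp.ofLp_smul, Pi.smul_apply,
    lam_apply, rgt_apply, inv_inv, mul_one]
  refine sum_congr rfl fun T _ => congrArg _ ?_
  exact sum_bij' (fun g _ => g⁻¹) (fun g _ => g⁻¹) (fun g hg => inv_mem_Sup hg)
    (fun g hg => inv_mem_Sup hg) (by simp) (by simp) fun g _ => rfl

theorem Row_rgt_le (r : ℕ) : Row (rgt α) r ≤ Row (lam α) r := by
  intro f hf
  refine mem_Row_of_card _ fun T hT => ?_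
  have h1 := Psi_quad (lam α) (r + 1) f
  rw [Psi_lam, Psi_apply, sum_eq_zero fun T hT => hf T (by rw [(mem_powersetCard.1 hT).2]; omega),
    inner_zero_right, eq_comm, sum_eq_zero_iff_of_nonneg fun _ _ => sq_nonneg _] at h1
  simpa using h1 T (by simp [hT])

end Reg

section Shuffle
variable {d : ℕ} {V : Type*} [NormedAddCommGroup V] [InnerProductSpace ℝ V]
variable (ρ : Perm (Q d) →* (V ≃ₗᵢ[ℝ] V))

def As : V →ₗ[ℝ] V := avg ρ fun ω : Om d => (pos ω d)⁻¹

def Bop : V →ₗ[ℝ] V := avg ρ fun p : Om d × Om d => pos p.1 d * (pos p.2 d)⁻¹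

theorem inner_Bop (u v : V) : ⟪u, Bop ρ v⟫ = ⟪As ρ u, As ρ v⟫ := by
  rw [Bop, avg_prod ρ (fun ω : Om d => pos ω d) (fun ω : Om d => (pos ω d)⁻¹), As, inner_avg]
  simp only [inv_inv]

theorem Bop_symm : (Bop ρ).IsSymmetric := fun u v => by
  rw [real_inner_comm, inner_Bop, inner_Bop, real_inner_comm]

abbrev Eg (d : ℕ) (s : ℝ) : Submodule ℝ (Rg (Q d)) := Module.End.eigenspace (Bop (lam (Q d))) s

theorem Bop_lam (f : Rg (Q d)) (σ : Perm (Q d)) :
    Bop (lam (Q d)) f σ = 𝔼 p : Om d × Om d, f (pos p.2 d * (pos p.1 d)⁻¹ * σ) := by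
  rw [Bop, avg_lam]; simp

theorem isInv_Eg (s : ℝ) : IsInv (rgt (Q d)) (Eg d s) := by
  intro g f hf
  rw [Module.End.mem_eigenspace_iff] at hf ⊢
  rw [← map_smul, ← hf]
  ext σ
  simp only [Bop_lam, rgt_apply, mul_assoc]

open scoped Classical in
theorem mm_Eg_le {K : ℕ} {T : Finset (Q d)} (hT : T.card + K = 2 ^ d) (s : ℝ) :
    mm (rgt (Q d)) (Eg d s) T ≤
      Module.finrank ℝ (Module.End.eigenspace (Matrix.toEuclideanLin (BX d K)) s) := by
  have hc : Tᶜ.card = K := by rw [card_compl]; simp; omega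
  let x0 : Fin K ↪ Q d := (Tᶜ.equivFinOfCardEq hc).symm.toEmbedding.trans (Embedding.subtype _)
  have hx0 : ∀ a, a ∉ T → ∃ j, x0 j = a := fun a ha =>
    ⟨Tᶜ.equivFinOfCardEq hc ⟨a, mem_compl.2 ha⟩, by simp [x0]⟩
  let Φ : EuclideanSpace ℝ (Fin K ↪ Q d) →ₗ[ℝ] Rg (Q d) :=
    { toFun := fun φ => WithLp.toLp 2 fun σ => φ (x0.trans σ.toEmbedding)
      map_add' := fun _ _ => rfl
      map_smul' := fun _ _ => rfl }
  have hex : ∀ x : Fin K ↪ Q d, ∃ σ : Perm (Q d), x0.trans σ.toEmbedding = x := fun x => by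
    obtain ⟨σ, h⟩ := Perm.exists_extending_pair x0 x x0.injective x.injective
    exact ⟨σ, by ext1 j; exact h j⟩
  choose sec hsec using hex
  refine le_trans (Submodule.finrank_mono ?_) (Submodule.finrank_map_le Φ _)
  intro f hf
  let φ : EuclideanSpace ℝ (Fin K ↪ Q d) := WithLp.toLp 2 fun x => f (sec x)
  have h1 : ∀ σ : Perm (Q d), φ (x0.trans σ.toEmbedding) = f σ := by
    intro σ
    have h2 : σ⁻¹ * sec (x0.trans σ.toEmbedding) ∈ Sup T := by
      rw [mem_Sup]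
      intro a ha
      obtain ⟨j, rfl⟩ := hx0 a ha
      have := DFunLike.congr_fun (hsec (x0.trans σ.toEmbedding)) j
      simp only [Embedding.trans_apply, coe_toEmbedding] at this
      rw [Perm.mul_apply, this]; simp
    have := congrArg (fun F : Rg (Q d) => F σ) (hf.2 _ h2)
    simp only [rgt_apply, mul_inv_cancel_left] at this
    exact this
  refine ⟨φ, ?_, by ext σ; exact h1 σ⟩
  rw [SetLike.mem_coe, Module.End.mem_eigenspace_iff]
  ext x
  have h2 := congrArg (fun F : Rg (Q d) => F (sec x)) (Module.End.mem_eigenspace_iff.1 hf.1)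
  simp only [Bop_lam] at h2
  refine Eq.trans ?_ h2
  rw [toEuc_apply]
  simp only [BX, Matrix.of_apply, expect_mul, ← expect_sum_comm]
  refine expect_congr rfl fun p _ => ?_
  rw [← h1, sum_eq_single (x0.trans (pos p.2 d * (pos p.1 d)⁻¹ * sec x).toEmbedding), if_pos, one_mul]
  · conv_lhs => rw [← hsec x]
    funext j; simp
  · intro x' _ hx'
    rw [if_neg, zero_mul]
    intro hc
    refine hx' (DFunLike.ext _ _ fun j => ?_)
    have h3 := congrFun hc j
    have h4 := DFunLike.congr_fun (hsec x) j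
    simp only [Embedding.trans_apply, coe_toEmbedding, comp_apply] at h3 h4
    simp only [Embedding.trans_apply, coe_toEmbedding, Perm.mul_apply, h4, h3]
    simp
  · simp

open scoped Classical in
def ZZ (d K : ℕ) : ℝ := (BX d K ^ 128).trace

theorem sum_mm_le {K : ℕ} {T : Finset (Q d)} (hT : T.card + K = 2 ^ d) (Sp : Finset ℝ) :
    ∑ s ∈ Sp, s ^ 128 * mm (rgt (Q d)) (Eg d s) T ≤ ZZ d K := by
  classical
  obtain ⟨_, -, h⟩ := trace_spec (toEuc_symm (BX_symm (d := d) K))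
  have := h 128 (by decide) Sp
  rw [trace_toEuc] at this
  refine le_trans (sum_le_sum fun s _ => mul_le_mul_of_nonneg_left ?_ (by positivity))
    (this.trans (le_of_eq ?_))
  · exact_mod_cast mm_Eg_le hT s
  · rfl

theorem card_Q (d : ℕ) : Fintype.card (Q d) = 2 ^ d := by simp

theorem level_trace {r k K : ℕ} (hr : r + k = 2 ^ d) (hK : k ≤ K) (hK' : K < 2 ^ d)
    {T : Finset (Q d)} (hT : T.card = r) (Sp : Finset ℝ) :
    ∑ s ∈ Sp, s ^ 128 * mm (rgt (Q d)) (Eg d s ⊓ Row (rgt (Q d)) r) T ≤ rk k K * ZZ d K := by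
  obtain ⟨T0, -, h0⟩ := exists_subset_card_eq (s := (univ : Finset (Q d))) (n := 2 ^ d - K)
    (by rw [card_univ, card_Q]; omega)
  refine le_trans ?_ (mul_le_mul_of_nonneg_left (sum_mm_le (T := T0) (by omega) Sp) (rk_nonneg _ _))
  rw [mul_sum]
  refine sum_le_sum fun s _ => ?_
  rw [mul_left_comm]
  refine mul_le_mul_of_nonneg_left ?_ (by positivity)
  refine (mm_chain (rgt (Q d)) (by rw [card_Q]; exact hr) ((isInv_Eg s).inf (isInv_Row _ r))
    inf_le_right hT hK (by rwa [card_Q]) T0 (by rw [card_Q]; omega)).trans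
    (mul_le_mul_of_nonneg_left ?_ (rk_nonneg _ _))
  exact_mod_cast mm_mono _ inf_le_left _

theorem level_norm {r k K : ℕ} (hr : r + k = 2 ^ d) (hK : k ≤ K) (hK' : K < 2 ^ d)
    {T : Finset (Q d)} (hT : T.card = r) {u : V} (hu : u ∈ Row ρ r) (hTu : P ρ T u ≠ 0) {s : ℝ}
    (hs : Bop ρ u = s • u) : s ^ 128 ≤ rk k K * ZZ d K := by
  let Θ : V →ₗ[ℝ] Rg (Q d) :=
    { toFun := fun e => WithLp.toLp 2 fun σ => ⟪ρ σ e, u⟫
      map_add' := fun _ _ => by ext σ; simp [inner_add_left]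
      map_smul' := fun _ _ => by ext σ; simp [inner_smul_left] }
  have hΘ : ∀ e σ, Θ e σ = ⟪ρ σ e, u⟫ := fun _ _ => rfl
  have h1 : ∀ g v, Θ (ρ g v) = rgt (Q d) g (Θ v) := fun g v => by
    ext σ; rw [rgt_apply, hΘ, hΘ, rho_mul]
  have h2 : Θ (P ρ T u) ∈ (Eg d s ⊓ Row (rgt (Q d)) r) ⊓ Inv (rgt (Q d)) T := by
    refine ⟨⟨?_, fun T' hT' => ?_⟩, ?_⟩
    · rw [SetLike.mem_coe, Module.End.mem_eigenspace_iff]
      ext σ
      rw [Bop_lam, PiLp.smul_apply, hΘ, smul_eq_mul, ← inner_smul_right, ← hs, Bop,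
        inner_avg_right]
      refine expect_congr rfl fun p _ => ?_
      rw [hΘ, rho_mul, rho_inner]; simp
    · rw [← P_intertwine ρ _ Θ h1, (isInv_Row ρ r).P_mem T hu T' hT', map_zero]
    · rw [P_intertwine ρ _ Θ h1]; exact P_mem_Inv _ _ _
  have h3 : Θ (P ρ T u) ≠ 0 := fun h => by
    have := congrArg (fun F : Rg (Q d) => F 1) h
    simp only [hΘ, rho_one, PiLp.zero_apply] at this
    rw [real_inner_comm, ← norm_P_sq] at this
    exact hTu (by simpa using this)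
  have h4 : 1 ≤ mm (rgt (Q d)) (Eg d s ⊓ Row (rgt (Q d)) r) T :=
    Submodule.one_le_finrank_iff.2 ((Submodule.ne_bot_iff _).2 ⟨_, h2, h3⟩)
  have h5 := level_trace hr hK hK' hT {s}
  rw [sum_singleton] at h5
  exact (le_mul_of_one_le_right (by positivity) (by exact_mod_cast h4)).trans h5

theorem finrank_levels {α : Type*} [Fintype α] [DecidableEq α] [FiniteDimensional ℝ V]
    (ρ : Perm α →* (V ≃ₗᵢ[ℝ] V)) {W : Submodule ℝ V} (hW : IsInv ρ W) (k : ℕ)
    (hk : k ≤ Fintype.card α) : Module.finrank ℝ W ≤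
      Module.finrank ℝ (W ⊓ Row ρ (Fintype.card α - k) : Submodule ℝ V) +
      ∑ j ∈ range k, ∑ T ∈ powersetCard (Fintype.card α - j) univ,
        mm ρ (W ⊓ Row ρ (Fintype.card α - j)) T := by
  induction k with
  | zero =>
    simp only [range_zero, sum_empty, add_zero]
    exact Submodule.finrank_mono fun w hw => ⟨hw, fun T hT => absurd (card_le_univ T) (by omega)⟩
  | succ k ih =>
    have h1 := finrank_le_Row ρ (hW.inf (isInv_Row ρ (Fintype.card α - k)))
      (Fintype.card α - (k + 1))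
    have h2 : Module.finrank ℝ (W ⊓ Row ρ (Fintype.card α - k) ⊓
        Row ρ (Fintype.card α - (k + 1)) : Submodule ℝ V) ≤
        Module.finrank ℝ (W ⊓ Row ρ (Fintype.card α - (k + 1)) : Submodule ℝ V) :=
      Submodule.finrank_mono (inf_le_inf_right _ inf_le_left)
    rw [show Fintype.card α - (k + 1) + 1 = Fintype.card α - k by omega] at h1
    have := ih (by omega)
    rw [sum_range_succ]
    omega

theorem sum_pow_le {Sp : Finset ℝ} {m : ℝ → ℕ} {θ η : ℝ} (h : ∑ s ∈ Sp, s ^ 128 * m s ≤ θ)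
    (hη : 0 ≤ η) (h' : ∀ s ∈ Sp, m s ≠ 0 → s ^ 128 ≤ η) (a : ℕ) :
    ∑ s ∈ Sp, s ^ (128 * (a + 1)) * m s ≤ η ^ a * θ := by
  refine le_trans ?_ (mul_le_mul_of_nonneg_left h (by positivity))
  rw [mul_sum]
  refine sum_le_sum fun s hs => ?_
  by_cases h0 : m s = 0
  · simp [h0]
  rw [pow_mul, pow_succ, mul_assoc]
  gcongr
  exact h' s hs h0

theorem trace_Bop_le {k₂ : ℕ} (hk : k₂ ≤ 2 ^ d) (Kf : ℕ → ℕ)
    (hK : ∀ k < k₂, k ≤ Kf k ∧ Kf k < 2 ^ d) {β : ℝ}
    (hβ : ∀ u ∈ Row (lam (Q d)) (2 ^ d - k₂), ‖As (lam (Q d)) u‖ ^ 2 ≤ β * ‖u‖ ^ 2) (a : ℕ) :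
    LinearMap.trace ℝ _ (Bop (lam (Q d)) ^ (128 * (a + 1))) ≤ (β ^ 128) ^ a * ZZ d (2 ^ d) +
      ∑ k ∈ range k₂, (2 ^ d).choose k * (rk k (Kf k) * ZZ d (Kf k)) ^ (a + 1) := by
  obtain ⟨Sp, h, -⟩ := trace_spec (Bop_symm (lam (Q d)))
  rw [h]
  have h0 := fun s => finrank_levels (rgt (Q d)) (isInv_Eg s) k₂ (by rwa [card_Q])
  rw [card_Q] at h0
  refine (sum_le_sum fun s _ => mul_le_mul_of_nonneg_left (Nat.cast_le.2 (h0 s))
    (by rw [pow_mul]; positivity)).trans ?_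
  simp only [Nat.cast_add, Nat.cast_sum, mul_add, sum_add_distrib, mul_sum]
  refine add_le_add ?_ ?_
  · refine sum_pow_le (le_trans (sum_le_sum fun s _ => ?_) (sum_mm_le (T := ∅) (by simp) Sp))
      (by positivity) (fun s _ hs => ?_) a
    · refine mul_le_mul_of_nonneg_left (Nat.cast_le.2 (Submodule.finrank_mono ?_)) (by positivity)
      refine fun f hf => ⟨hf.1, fun g hg => ?_⟩
      rw [show g = 1 from Equiv.ext fun x => mem_Sup.1 hg x (by simp), rho_one]
    · obtain ⟨u, hu, hu0⟩ := (Submodule.ne_bot_iff _).1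
        (Submodule.one_le_finrank_iff.1 (Nat.pos_of_ne_zero hs))
      have h1 := hβ u (Row_rgt_le _ hu.2)
      have h2 := inner_Bop (lam (Q d)) u u
      rw [Module.End.mem_eigenspace_iff.1 hu.1, inner_smul_right, real_inner_self_eq_norm_sq,
        real_inner_self_eq_norm_sq] at h2
      have h3 : 0 < ‖u‖ ^ 2 := by positivity
      have h4 : 0 ≤ s := nonneg_of_mul_nonneg_left (by rw [h2]; positivity) h3
      exact pow_le_pow_left₀ h4 (le_of_mul_le_mul_right (h2 ▸ h1) h3) _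
  · rw [sum_comm]
    refine sum_le_sum fun k hk' => ?_
    rw [mem_range] at hk'
    rw [sum_comm]
    refine (sum_le_card_nsmul _ _ ((rk k (Kf k) * ZZ d (Kf k)) ^ (a + 1)) fun T hT => ?_).trans
      (le_of_eq ?_)
    · have h1 := fun Sp => level_trace (r := 2 ^ d - k) (by omega) (hK k hk').1 (hK k hk').2
        (mem_powersetCard.1 hT).2 Sp
      rw [pow_succ]
      refine sum_pow_le (h1 Sp) (by simpa using h1 ∅) (fun s _ hs => ?_) a
      have h2 := h1 {s}
      rw [sum_singleton] at h2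
      exact (le_mul_of_one_le_right (by positivity)
        (by exact_mod_cast Nat.pos_of_ne_zero hs)).trans h2
    · rw [card_powersetCard, card_univ, card_Q, Nat.choose_symm (by omega), nsmul_eq_mul]

end Shuffle

end Vale.Agent.P162
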