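import Vale.Agent.P162.Op

open Finset Equiv Function
open scoped BigOperators RealInnerProductSpace

noncomputable section

namespace Vale.Agent.P162

variable {d : ℕ}

def sn (y : Q d) (b : Bool) : Q (d + 1) := Fin.snoc (α := fun _ => Bool) y b

@[simp] theorem sn_last (y : Q d) (b : Bool) : sn y b (Fin.last d) = b := by simp [sn]
@[simp] theorem init_sn (y : Q d) (b : Bool) : Fin.init (sn y b) = y := by simp [sn]
@[simp] theorem sn_castSucc (y : Q d) (b : Bool) (l : Fin d) : sn y b l.castSucc = y l := by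
  simp [sn]
theorem sn_init (x : Q (d + 1)) : sn (Fin.init x) (x (Fin.last d)) = x := Fin.snoc_init_self x
theorem exists_sn (x : Q (d + 1)) : ∃ y b, x = sn y b := ⟨_, _, (sn_init x).symm⟩
theorem sn_inj {y y' : Q d} {b b' : Bool} (h : sn y b = sn y' b') : y = y' ∧ b = b' :=
  ⟨by simpa using congrArg Fin.init h, by simpa using congrFun h (Fin.last d)⟩
theorem update_sn (y : Q d) (b : Bool) (l : Fin d) (c : Bool) :
    update (sn y b) l.castSucc c = sn (update y l c) b := by simp [sn, Fin.snoc_update]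
theorem update_sn_last (y : Q d) (b c : Bool) : update (sn y b) (Fin.last d) c = sn y c :=
  Fin.update_snoc_last (α := fun _ => Bool) _ _ _

def emb (b : Bool) : Q d ↪ Q (d + 1) := ⟨fun y => sn y b, fun _ _ h => (sn_inj h).1⟩

def via (b : Bool) : Perm (Q d) →* Perm (Q (d + 1)) := Perm.viaEmbeddingHom (emb b)

theorem via_apply (b b' : Bool) (g : Perm (Q d)) (y : Q d) :
    via b g (sn y b') = sn (if b' = b then g y else y) b' := by
  split_ifs with h
  · subst h; exact Perm.viaEmbedding_apply g (emb b') y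
  · refine Perm.viaEmbedding_apply_of_notMem g (emb b) _ ?_
    rintro ⟨z, hz⟩
    exact h (sn_inj hz).2.symm

theorem via_comm (g h : Perm (Q d)) : via false g * via true h = via true h * via false g := by
  ext1 x
  obtain ⟨y, b, rfl⟩ := exists_sn x
  cases b <;> simp [via_apply]

theorem via_swap (b : Bool) (x y : Q d) : via b (swap x y) = swap (sn x b) (sn y b) := by
  ext1 z
  obtain ⟨w, b', rfl⟩ := exists_sn z
  rw [via_apply]
  split_ifs with h
  · subst h; exact (emb b').injective.map_swap x y w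
  · rw [swap_apply_of_ne_of_ne (fun hc => h (sn_inj hc).2) (fun hc => h (sn_inj hc).2)]

theorem sw_last (c : Q (d + 1) → Bool) (y : Q d) (b : Bool) :
    sw (Fin.last d) c (sn y b) = sn y (xor b (c (sn y false))) := by
  simp [sw_apply, key, update_sn_last]

theorem sw_castSucc (l : Fin d) (c : Q (d + 1) → Bool) (y : Q d) (b : Bool) :
    sw l.castSucc c (sn y b) = sn (sw l (fun z => c (sn z b)) y) b := by
  simp [sw_apply, key, update_sn]

def Xi (d : ℕ) : (Om d × Om d) × (Q (d + 1) → Bool) ≃ Om (d + 1) where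
  toFun p := Fin.snoc (α := fun _ => Q (d + 1) → Bool)
    (fun l x => if x (Fin.last d) then p.1.2 l (Fin.init x) else p.1.1 l (Fin.init x)) p.2
  invFun ω := ((fun l y => ω l.castSucc (sn y false), fun l y => ω l.castSucc (sn y true)),
    ω (Fin.last d))
  left_inv p := by simp
  right_inv ω := by
    funext l
    refine Fin.lastCases (by simp) (fun l => ?_) l
    funext x
    obtain ⟨y, b, rfl⟩ := exists_sn x
    cases b <;> simp

theorem pos_Xi (p : (Om d × Om d) × (Q (d + 1) → Bool)) (i : ℕ) (hi : i ≤ d) :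
    pos (Xi d p) i = via true (pos p.1.2 i) * via false (pos p.1.1 i) := by
  induction i with
  | zero => simp [pos]
  | succ i ih =>
    ext1 x
    obtain ⟨y, b, rfl⟩ := exists_sn x
    let l : Fin d := ⟨i, hi⟩
    have h1 := pos_succ (Xi d p) l.castSucc (sn y b)
    have h2 := pos_succ p.1.1 l y
    have h3 := pos_succ p.1.2 l y
    simp only [Fin.val_castSucc, l] at h1 h2 h3
    rw [h1, ih (by omega)]
    cases b <;> simp only [Perm.mul_apply, via_apply, h2, h3, sw_castSucc, Xi, coe_fn_mk,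
      Fin.snoc_castSucc, sn_last, init_sn] <;> simp [h2, h3]

variable {V : Type*} [NormedAddCommGroup V] [InnerProductSpace ℝ V]
variable (ρ : Perm (Q (d + 1)) →* (V ≃ₗᵢ[ℝ] V))

def Ll : V →ₗ[ℝ] V := avg ρ fun c : Q (d + 1) → Bool => sw (Fin.last d) c

theorem As_succ (u : V) :
    As ρ u = As (ρ.comp (via false)) (As (ρ.comp (via true)) (Ll ρ u)) := by
  rw [As, ← avg_equiv ρ (Xi d)]
  have : ∀ p : (Om d × Om d) × (Q (d + 1) → Bool), (pos (Xi d p) (d + 1))⁻¹ =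
      via false (pos p.1.1 d)⁻¹ * via true (pos p.1.2 d)⁻¹ * sw (Fin.last d) p.2 := by
    intro p
    rw [pos, pos_Xi p d le_rfl, lay, dif_pos (Nat.lt_succ_self d), mul_inv_rev, mul_inv_rev,
      map_inv, map_inv, sw_inv]
    congr 2
    change Xi d p (Fin.last d) = _
    simp [Xi]
  simp only [this]
  rw [avg_prod ρ (fun q : Om d × Om d => via false (pos q.1 d)⁻¹ * via true (pos q.2 d)⁻¹),
    avg_prod ρ (fun ω : Om d => via false (pos ω d)⁻¹) (fun ω : Om d => via true (pos ω d)⁻¹)]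
  rfl

theorem Ll_inv (c₀ : Q (d + 1) → Bool) (u : V) : ρ (sw (Fin.last d) c₀) (Ll ρ u) = Ll ρ u := by
  have hi : Involutive fun (c : Q (d + 1) → Bool) x => xor (c x) (c₀ x) := fun c => by simp
  conv_rhs => rw [Ll, ← avg_equiv ρ hi.toPerm]
  rw [Ll, avg_apply, avg_apply, map_smul, map_sum]
  refine congrArg _ (sum_congr rfl fun c _ => ?_)
  rw [← rho_mul]
  congr 2
  ext1 x
  obtain ⟨y, b, rfl⟩ := exists_sn x
  simp [sw_last]

theorem norm_P_sub (b : Bool) (T : Finset (Q d)) (v : V) :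
    ‖P (ρ.comp (via b)) T v‖ ≤ ‖P ρ (T.map (emb b)) v‖ := by
  have h1 : P (ρ.comp (via b)) T v ∈ Inv ρ (T.map (emb b)) := by
    refine inv_of_swaps ρ fun x hx y hy => ?_
    obtain ⟨x, hx', rfl⟩ := mem_map.1 hx
    obtain ⟨y, hy', rfl⟩ := mem_map.1 hy
    have := P_mem_Inv (ρ.comp (via b)) T v _ (swap_mem_Sup hx' hy')
    rwa [MonoidHom.comp_apply, via_swap] at this
  have h2 := norm_P_sq (ρ.comp (via b)) T v
  rw [← P_of_mem ρ h1, ← P_symm, P_of_mem ρ h1] at h2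
  have h3 := real_inner_le_norm (P ρ (T.map (emb b)) v) (P (ρ.comp (via b)) T v)
  have := norm_nonneg (P ρ (T.map (emb b)) v)
  have := norm_nonneg (P (ρ.comp (via b)) T v)
  nlinarith

theorem P_As_comm (T : Finset (Q d)) (v : V) :
    P (ρ.comp (via false)) T (As (ρ.comp (via true)) v) =
      As (ρ.comp (via true)) (P (ρ.comp (via false)) T v) := by
  refine (P_intertwine _ _ (As (ρ.comp (via true))) (fun g v => ?_) T v).symm
  simp only [As, avg_apply, map_smul, map_sum, MonoidHom.comp_apply, ← rho_mul, via_comm]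

theorem norm_P_map {α : Type*} [Fintype α] [DecidableEq α] (ρ : Perm α →* (V ≃ₗᵢ[ℝ] V))
    {g : Perm α} {w : V} (h : ρ g w = w) (T : Finset α) :
    ‖P ρ (T.map g.toEmbedding) w‖ = ‖P ρ T w‖ := by
  conv_lhs => rw [← h, ← rho_P, LinearIsometryEquiv.norm_map]

theorem inv_bound {w : V} (hw : ∀ c, ρ (sw (Fin.last d) c) w = w) (b : Bool) (T : Finset (Q d))
    (t : ℕ) : (T.card.choose t * 2 ^ t : ℝ) * ‖P ρ (T.map (emb b)) w‖ ^ 2 ≤
      ∑ T' ∈ powersetCard t univ, ‖P ρ T' w‖ ^ 2 := by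
  let φ : (Σ _ : Finset (Q d), Finset (Q d)) → Finset (Q (d + 1)) := fun p =>
    p.1.map ⟨fun y => sn y (xor b (decide (y ∈ p.2))), fun _ _ h => (sn_inj h).1⟩
  let A := (powersetCard t T).sigma fun T' => T'.powerset
  have hφ : ∀ p y b', sn y b' ∈ φ p ↔ y ∈ p.1 ∧ b' = xor b (decide (y ∈ p.2)) := by
    intro p y b'
    simp only [φ, mem_map, Embedding.coeFn_mk]
    constructor
    · rintro ⟨z, hz, h⟩
      obtain ⟨rfl, rfl⟩ := sn_inj h
      exact ⟨hz, rfl⟩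
    · rintro ⟨h, rfl⟩; exact ⟨y, h, rfl⟩
  have hinj : Set.InjOn φ A := by
    rintro ⟨T₁, U₁⟩ h₁ ⟨T₂, U₂⟩ h₂ h
    simp only [A, coe_sigma, Set.mem_sigma_iff, mem_coe, mem_powerset] at h₁ h₂
    have e : ∀ y b', (y ∈ T₁ ∧ b' = xor b (decide (y ∈ U₁))) ↔
        (y ∈ T₂ ∧ b' = xor b (decide (y ∈ U₂))) := fun y b' => by
      rw [← hφ ⟨T₁, U₁⟩, ← hφ ⟨T₂, U₂⟩, h]
    have e1 : T₁ = T₂ := by
      ext y; exact ⟨fun h => ((e y _).1 ⟨h, rfl⟩).1, fun h => ((e y _).2 ⟨h, rfl⟩).1⟩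
    subst e1
    congr
    ext y
    by_cases hy : y ∈ T₁
    · simpa using ((e y _).1 ⟨hy, rfl⟩).2
    · exact ⟨fun h => absurd (h₁.2 h) hy, fun h => absurd (h₂.2 h) hy⟩
  have hA : (A.card : ℝ) = T.card.choose t * 2 ^ t := by
    rw [card_sigma, sum_congr rfl fun T' hT' => by
      rw [card_powerset, (mem_powersetCard.1 hT').2], sum_const, card_powersetCard]
    simp
  rw [← hA, ← nsmul_eq_mul, ← sum_const]
  refine le_trans (sum_le_sum (g := fun p => ‖P ρ (φ p) w‖ ^ 2) fun p hp => ?_) ?_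
  · have h1 : φ p = (p.1.map (emb b)).map
        (sw (Fin.last d) fun x => decide (Fin.init x ∈ p.2)).toEmbedding := by
      rw [map_map]
      refine congrArg (fun e => p.1.map e) (DFunLike.ext _ _ fun y => ?_)
      change sn y (xor b (decide (y ∈ p.2))) =
        sw (Fin.last d) (fun x => decide (Fin.init x ∈ p.2)) (sn y b)
      simp [sw_last]
    rw [h1, norm_P_map ρ (hw _)]
    exact pow_le_pow_left₀ (norm_nonneg _) (norm_P_mono ρ
      (map_subset_map.2 (mem_powersetCard.1 (mem_sigma.1 hp).1).1) w) 2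
  · rw [← sum_image (f := fun T' => ‖P ρ T' w‖ ^ 2) hinj]
    refine sum_le_sum_of_subset_of_nonneg (fun T' hT' => ?_) fun _ _ _ => sq_nonneg _
    obtain ⟨p, hp, rfl⟩ := mem_image.1 hT'
    simp [φ, (mem_powersetCard.1 (mem_sigma.1 hp).1).2]

theorem half_gap [FiniteDimensional ℝ V] {w : V} (hw : ∀ c, ρ (sw (Fin.last d) c) w = w)
    (hr : w ∈ Row ρ (2 ^ (d + 1) - 1)) :
    ‖P ρ (univ.map (emb false)) w‖ ^ 2 ≤ (1 - 1 / (2 * 2 ^ (d + 1))) * ‖w‖ ^ 2 := by
  set H := (univ : Finset (Q d)).map (emb false)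
  set η := ‖w‖ ^ 2 - ‖P ρ H w‖ ^ 2 with hη
  have hη0 : 0 ≤ η := sub_nonneg.2 (pow_le_pow_left₀ (norm_nonneg _) (norm_P_le _ _ _) 2)
  have h1 : ∀ x, sn x false ∈ H := fun x => mem_map.2 ⟨x, mem_univ _, rfl⟩
  have h2 : ∀ x ∈ H, ∀ y ∈ H, ‖w‖ ^ 2 - 2 * η ≤ ⟪w, ρ (swap x y) w⟫ := by
    intro x hx y hy
    set p := P ρ H w with hp
    have e1 : ρ (swap x y) p = p := P_mem_Inv ρ H w _ (swap_mem_Sup hx hy)
    have e2 : ⟪w, p⟫ = ‖p‖ ^ 2 := (norm_P_sq ρ H w).symm
    have e3 : ‖w - p‖ ^ 2 = η := by rw [norm_sub_sq_real, e2, hη]; ring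
    have e4 := abs_real_inner_le_norm (w - p) (ρ (swap x y) (w - p))
    rw [LinearIsometryEquiv.norm_map, ← sq, e3, map_sub, e1, inner_sub_left, inner_sub_right,
      inner_sub_right, e2, real_inner_self_eq_norm_sq, real_inner_comm _ p, rho_inner ρ _ w p,
      swap_inv, e1, e2] at e4
    linarith [(abs_le.1 e4).1]
  have h3 : ∀ x y, x ≠ y → ‖w‖ ^ 2 - 2 * η ≤ ⟪w, ρ (swap x y) w⟫ := by
    intro x y hxy
    obtain ⟨x, a, rfl⟩ := exists_sn x
    obtain ⟨y, b, rfl⟩ := exists_sn y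
    by_cases h : x = y
    · subst h
      have : swap (sn x a) (sn x b) = sw (Fin.last d) fun z => decide (Fin.init z = x) := by
        have hab : b = !a := by
          revert hxy; cases a <;> cases b <;> simp
        ext1 z
        obtain ⟨z, c, rfl⟩ := exists_sn z
        rw [sw_last, init_sn]
        by_cases hz : z = x
        · subst hz hab; cases a <;> cases c <;> simp
        · rw [swap_apply_of_ne_of_ne (fun h => hz (sn_inj h).1) (fun h => hz (sn_inj h).1)]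
          simp [hz]
      rw [this, hw, real_inner_self_eq_norm_sq]; linarith
    · let g := sw (Fin.last d) fun z => if Fin.init z = x then a else b
      have e1 : g (sn x a) = sn x false := by simp [g, sw_last]
      have e2 : g (sn y b) = sn y false := by simp [g, sw_last, Ne.symm h]
      refine (h2 _ (h1 x) _ (h1 y)).trans (le_of_eq ?_)
      rw [← e1, ← e2, swap_apply_apply, rho_mul, rho_mul, sw_inv, hw, real_inner_comm, rho_inner,
        sw_inv, hw, real_inner_comm]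
  have h4 := Jm_quad_le ρ _ default hr
  rw [Jm_apply, inner_sum] at h4
  have h5 := card_nsmul_le_sum (univ.erase default) _ _
    fun y hy => h3 default y (ne_of_mem_erase hy).symm
  have h6 : 1 ≤ 2 ^ (d + 1) := Nat.one_le_two_pow
  rw [card_erase_of_mem (mem_univ _), card_univ, card_Q, nsmul_eq_mul] at h5
  rw [Nat.cast_sub h6] at h4 h5
  push_cast at h4 h5
  have h7 : (0 : ℝ) < 2 ^ (d + 1) := by positivity
  have h8 : ‖w‖ ^ 2 ≤ 2 * 2 ^ (d + 1) * η := by nlinarith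
  have h9 : 1 / (2 * 2 ^ (d + 1)) * ‖w‖ ^ 2 ≤ η := by
    rw [one_div, inv_mul_le_iff₀ (by positivity)]; exact h8
  linarith

def HB (d k : ℕ) (a : ℝ) : Prop :=
  ∀ (V : Type) [NormedAddCommGroup V] [InnerProductSpace ℝ V] [FiniteDimensional ℝ V]
    (ρ : Perm (Q d) →* (V ≃ₗᵢ[ℝ] V)), ∀ u ∈ Row ρ (2 ^ d - k), ‖As ρ u‖ ^ 2 ≤ a * ‖u‖ ^ 2

theorem HB.mono {d k k' : ℕ} {a a' : ℝ} (h : HB d k a) (hk : k ≤ k') (ha : a ≤ a') : HB d k' a' :=
  fun V _ _ _ ρ u hu => (h V ρ u (Row_mono ρ (by omega) hu)).trans (by gcongr)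

theorem HB.split {d k : ℕ} {a : ℝ} (h : HB d k a) (ha : a ≤ 1) {V : Type} [NormedAddCommGroup V]
    [InnerProductSpace ℝ V] [FiniteDimensional ℝ V] (ρ : Perm (Q d) →* (V ≃ₗᵢ[ℝ] V)) (u : V) :
    ‖As ρ u‖ ^ 2 ≤ a * ‖u‖ ^ 2 +
      (1 - a) * ∑ T ∈ powersetCard (2 ^ d - k + 1) univ, ‖P ρ T u‖ ^ 2 :=
  split_bound ρ _ (As ρ) ha (h V ρ) (norm_avg_le ρ _) (fun _ hW _ hw => hW.avg_mem _ hw) u

theorem HB_zero : HB 0 1 0 := by
  intro V _ _ _ ρ u hu
  have h1 : u ∈ Inv ρ univ := fun g _ => by rw [Subsingleton.elim g 1, rho_one]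
  have h2 : u = 0 := by rw [← P_of_mem ρ h1, hu univ (by simp)]
  simp [h2]

theorem HB_gap_step {d : ℕ} {a : ℝ} (h : HB d 1 a) (ha0 : 0 ≤ a) (ha : a ≤ 1) :
    HB (d + 1) 1 (1 - (1 - a) / (2 * 2 ^ (d + 1))) := by
  intro V _ _ _ ρ u hu
  have h1 := half_gap ρ (fun c => Ll_inv ρ c u) ((isInv_Row ρ _).avg_mem _ hu)
  have h2 := h.split ha (ρ.comp (via false)) (Ll ρ u)
  rw [Nat.sub_add_cancel Nat.one_le_two_pow, ← card_Q, ← card_univ, powersetCard_self,
    sum_singleton] at h2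
  have h3 := pow_le_pow_left₀ (norm_nonneg _) (norm_P_sub ρ false univ (Ll ρ u)) 2
  have h4 : ‖As ρ u‖ ≤ ‖As (ρ.comp (via false)) (Ll ρ u)‖ := by
    have : As ρ u = As (ρ.comp (via true)) (As (ρ.comp (via false)) (Ll ρ u)) := by
      rw [As_succ]
      simp only [As, avg_apply, map_smul, map_sum, MonoidHom.comp_apply, ← rho_mul, via_comm,
        smul_sum]
      exact sum_comm
    rw [this]; exact norm_avg_le _ _ _
  have h5 : ‖Ll ρ u‖ ^ 2 ≤ ‖u‖ ^ 2 := pow_le_pow_left₀ (norm_nonneg _) (norm_avg_le _ _ _) 2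
  have h6 : 0 ≤ 1 - (1 - a) / (2 * 2 ^ (d + 1)) := by
    rw [sub_nonneg, div_le_one (by positivity)]
    have : (1 : ℝ) ≤ 2 ^ (d + 1) := one_le_pow₀ (by norm_num)
    linarith
  calc _ ≤ ‖As (ρ.comp (via false)) (Ll ρ u)‖ ^ 2 := by gcongr
    _ ≤ a * ‖Ll ρ u‖ ^ 2 + (1 - a) * ((1 - 1 / (2 * 2 ^ (d + 1))) * ‖Ll ρ u‖ ^ 2) := by
      refine h2.trans (add_le_add_right (mul_le_mul_of_nonneg_left (h3.trans h1) (by linarith)) _)
    _ = (1 - (1 - a) / (2 * 2 ^ (d + 1))) * ‖Ll ρ u‖ ^ 2 := by ring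
    _ ≤ _ := by gcongr

theorem HB_gap (d : ℕ) : HB d 1 (1 - (1 / 2) ^ (d + 1) ^ 2) := by
  induction d with
  | zero => exact HB_zero.mono le_rfl (by norm_num)
  | succ d ih =>
    refine (HB_gap_step ih (sub_nonneg.2 (pow_le_one₀ (by norm_num) (by norm_num)))
      (by simp)).mono le_rfl ?_
    rw [sub_sub_cancel, sub_le_sub_iff_left, ← pow_succ', div_eq_mul_inv ((1 / 2 : ℝ) ^ _),
      ← inv_pow, ← one_div, ← pow_add]
    exact pow_le_pow_of_le_one (by norm_num) (by norm_num) (by nlinarith)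

theorem HB_step {d k₁ k t : ℕ} {a ε : ℝ} (h : HB d k₁ a) (ha0 : 0 ≤ a) (ha : a ≤ 1)
    (hk : k ≤ 2 ^ (d + 1)) (ht : t ≤ 2 ^ d - k₁ + 1)
    (hε : ((2 ^ d).choose (2 ^ d - k₁ + 1) : ℝ) * ((2 ^ (d + 1)).choose t *
      (1 - k / (2 * 2 ^ (d + 1) : ℝ)) ^ (t - 1)) ≤ ε * ((2 ^ d - k₁ + 1).choose t * 2 ^ t)) :
    HB (d + 1) k (a ^ 2 + 2 * ε) := by
  intro V _ _ _ ρ u hu
  set w := Ll ρ u
  have hw : w ∈ Row ρ _ := (isInv_Row ρ _).avg_mem _ hu
  have hpos : (0 : ℝ) < (2 ^ d - k₁ + 1).choose t * 2 ^ t := by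
    have := Nat.choose_pos ht
    positivity
  have h0 := sum_P_le ρ (k := k) (by rw [card_Q]; omega) hw t
  rw [card_Q] at h0
  have h1 : ∀ b, ∑ T ∈ powersetCard (2 ^ d - k₁ + 1) univ, ‖P (ρ.comp (via b)) T w‖ ^ 2 ≤
      ε * ‖w‖ ^ 2 := by
    intro b
    refine le_of_mul_le_mul_left ?_ hpos
    rw [mul_sum]
    refine (sum_le_card_nsmul _ _ _ fun T hT => le_trans ?_
      ((inv_bound ρ (fun c => Ll_inv ρ c u) b T t).trans h0)).trans ?_
    · rw [(mem_powersetCard.1 hT).2]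
      gcongr
      exact norm_P_sub ρ b T w
    · rw [card_powersetCard, card_univ, card_Q, nsmul_eq_mul, ← mul_assoc, ← mul_assoc _ ε,
        mul_comm _ ε]
      push_cast
      gcongr
  have h2 := h.split ha (ρ.comp (via false)) (As (ρ.comp (via true)) w)
  have h3 := h.split ha (ρ.comp (via true)) w
  have h4 : ∑ T ∈ powersetCard (2 ^ d - k₁ + 1) univ,
      ‖P (ρ.comp (via false)) T (As (ρ.comp (via true)) w)‖ ^ 2 ≤ ε * ‖w‖ ^ 2 := by
    refine le_trans (sum_le_sum fun T _ => ?_) (h1 false)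
    rw [P_As_comm]
    exact pow_le_pow_left₀ (norm_nonneg _) (norm_avg_le _ _ _) 2
  have h5 : ‖w‖ ^ 2 ≤ ‖u‖ ^ 2 := pow_le_pow_left₀ (norm_nonneg _) (norm_avg_le _ _ _) 2
  have h6 : 0 ≤ ε * ‖w‖ ^ 2 := le_trans (by positivity) h4
  have hε0 : 0 ≤ ε := by
    have hβ : 0 ≤ 1 - k / (2 * 2 ^ (d + 1) : ℝ) := by
      have : (k : ℝ) ≤ 2 ^ (d + 1) := by exact_mod_cast hk
      rw [sub_nonneg, div_le_one (by positivity)]; linarith [(by positivity : (0 : ℝ) < 2 ^ (d + 1))]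
    exact nonneg_of_mul_nonneg_left (le_trans (by positivity) hε) hpos
  rw [As_succ]
  have h7 := mul_le_mul_of_nonneg_left h4 (sub_nonneg.2 ha)
  have h8 := mul_le_mul_of_nonneg_left (h1 true) (sub_nonneg.2 ha)
  have h9 := mul_le_mul_of_nonneg_left (h3.trans (add_le_add_right h8 _)) ha0
  calc _ ≤ (a ^ 2 + 2 * ε) * ‖w‖ ^ 2 := by nlinarith [mul_nonneg ha0 h6, mul_nonneg ha0 (mul_nonneg ha0 h6)]
    _ ≤ _ := by gcongr

theorem HB_low {d k₁ k₂ : ℕ} (hk : k₂ ≤ 2 ^ d) (Kf : ℕ → ℕ) {a : ℝ} (ha : 0 ≤ a)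
    (hK : ∀ k, k₁ ≤ k → k < k₂ → k ≤ Kf k ∧ Kf k < 2 ^ d ∧ rk k (Kf k) * ZZ d (Kf k) ≤ a ^ 128)
    (h : HB d k₂ a) : HB d k₁ a := by
  intro V _ _ _ ρ u hu
  rw [← real_inner_self_eq_norm_sq (As ρ u), ← inner_Bop]
  refine quad_le _ (Bop_symm ρ) (Row ρ (2 ^ d - k₁)) (fun w hw => (isInv_Row ρ _).avg_mem _ hw) a
    ?_ u hu
  intro v hv hv0 s hs
  by_contra hc
  push Not at hc
  have h1 : ∀ j, k₁ + j ≤ k₂ → v ∈ Row ρ (2 ^ d - (k₁ + j)) := by
    intro j
    induction j with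
    | zero => exact fun _ => hv
    | succ j ih =>
      intro hj
      refine mem_Row_of_card ρ fun T hT => ?_
      by_contra hT0
      obtain ⟨e1, e2, e3⟩ := hK (k₁ + j) (by omega) (by omega)
      have := (level_norm ρ (r := 2 ^ d - (k₁ + j)) (by omega) e1 e2 (by omega) (ih (by omega))
        hT0 hs).trans e3
      exact absurd (pow_lt_pow_left₀ hc ha (by norm_num)) (not_lt.2 this)
  have h2 : v ∈ Row ρ (2 ^ d - k₂) := by
    rcases le_total k₁ k₂ with h3 | h3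
    · simpa [Nat.add_sub_cancel' h3] using h1 (k₂ - k₁) (by omega)
    · exact Row_mono ρ (by omega) hv
  have h3 := h V ρ v h2
  rw [← real_inner_self_eq_norm_sq (As ρ v), ← inner_Bop, hs, inner_smul_right,
    real_inner_self_eq_norm_sq] at h3
  have : 0 < ‖v‖ ^ 2 := by positivity
  nlinarith

end Vale.Agent.P162
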