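import Mathlib

open Finset Equiv
open scoped RealInnerProductSpace

noncomputable section

namespace Vale.Agent.P162

section Eig
variable {V : Type*} [NormedAddCommGroup V] [InnerProductSpace ℝ V] [FiniteDimensional ℝ V]

theorem exists_eigenbasis (S : V →ₗ[ℝ] V) (hS : S.IsSymmetric) (W : Submodule ℝ V)
    (hW : ∀ w ∈ W, S w ∈ W) :
    ∃ (b : OrthonormalBasis (Fin (Module.finrank ℝ W)) ℝ W) (μ : Fin (Module.finrank ℝ W) → ℝ),
      ∀ i, S (b i) = μ i • (b i : V) := by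
  have h := hS.restrict_invariant hW
  refine ⟨h.eigenvectorBasis rfl, h.eigenvalues rfl, fun i => ?_⟩
  exact congrArg Subtype.val (h.apply_eigenvectorBasis rfl i)

theorem eig_induction (S : V →ₗ[ℝ] V) (hS : S.IsSymmetric) (W : Submodule ℝ V)
    (hW : ∀ w ∈ W, S w ∈ W) (U : Submodule ℝ V)
    (h : ∀ v ∈ W, v ≠ 0 → ∀ μ : ℝ, S v = μ • v → v ∈ U) : W ≤ U := by
  obtain ⟨b, μ, hb⟩ := exists_eigenbasis S hS W hW
  intro w hw
  have h1 := congrArg Subtype.val (b.sum_repr ⟨w, hw⟩)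
  simp only [AddSubmonoidClass.coe_finsetSum, SetLike.val_smul] at h1
  rw [← h1]
  refine U.sum_mem fun i _ => U.smul_mem _ (h _ (b i).2 ?_ _ (hb i))
  have := b.orthonormal.ne_zero i
  simpa using this

theorem quad_eq (S : V →ₗ[ℝ] V) (W : Submodule ℝ V) {ι : Type*} [Fintype ι]
    (b : OrthonormalBasis ι ℝ W) (μ : ι → ℝ) (hb : ∀ i, S (b i) = μ i • (b i : V)) (w : V)
    (hw : w ∈ W) : ⟪w, S w⟫ = ∑ i, μ i * b.repr ⟨w, hw⟩ i ^ 2 ∧
      ‖w‖ ^ 2 = ∑ i, b.repr ⟨w, hw⟩ i ^ 2 := by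
  have h1 := congrArg Subtype.val (b.sum_repr ⟨w, hw⟩)
  simp only [AddSubmonoidClass.coe_finsetSum, SetLike.val_smul] at h1
  have h2 : ∀ i, ⟪w, (b i : V)⟫ = b.repr ⟨w, hw⟩ i := fun i => by
    rw [b.repr_apply_apply, real_inner_comm]; rfl
  constructor
  · conv_lhs => rw [← h1]
    rw [map_sum, inner_sum]
    refine sum_congr rfl fun i _ => ?_
    rw [map_smul, hb, h1, inner_smul_right, inner_smul_right, h2]; ring
  · rw [← real_inner_self_eq_norm_sq]
    conv_lhs => rw [← h1]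
    rw [inner_sum]
    refine sum_congr rfl fun i _ => ?_
    rw [h1, inner_smul_right, h2]; ring

theorem quad_le (S : V →ₗ[ℝ] V) (hS : S.IsSymmetric) (W : Submodule ℝ V)
    (hW : ∀ w ∈ W, S w ∈ W) (a : ℝ)
    (h : ∀ v ∈ W, v ≠ 0 → ∀ μ : ℝ, S v = μ • v → μ ≤ a) (w : V) (hw : w ∈ W) :
    ⟪w, S w⟫ ≤ a * ‖w‖ ^ 2 := by
  obtain ⟨b, μ, hb⟩ := exists_eigenbasis S hS W hW
  obtain ⟨h1, h2⟩ := quad_eq S W b μ hb w hw
  rw [h1, h2, mul_sum]
  refine sum_le_sum fun i _ => mul_le_mul_of_nonneg_right (h _ (b i).2 ?_ _ (hb i)) (sq_nonneg _)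
  have := b.orthonormal.ne_zero i
  simpa using this

/-- trace of an orthogonal projection computed in an orthonormal basis -/
theorem sum_proj_eq (Q : V →ₗ[ℝ] V) (hQ : Q.IsSymmetric) (W W' : Submodule ℝ V) (hle : W' ≤ W)
    (h1 : ∀ w ∈ W, Q w ∈ W') (h2 : ∀ w ∈ W', Q w = w) {ι : Type*} [Fintype ι]
    (b : OrthonormalBasis ι ℝ W) :
    ∑ i, ⟪(b i : V), Q (b i)⟫ = Module.finrank ℝ W' := by
  let c := stdOrthonormalBasis ℝ W'
  have e1 : ∀ w ∈ W, ⟪w, Q w⟫ = ∑ j, ⟪w, (c j : V)⟫ ^ 2 := by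
    intro w hw
    have h3 := congrArg Subtype.val (c.sum_repr ⟨Q w, h1 w hw⟩)
    simp only [AddSubmonoidClass.coe_finsetSum, SetLike.val_smul] at h3
    rw [← h3, inner_sum]
    refine sum_congr rfl fun j _ => ?_
    rw [inner_smul_right, c.repr_apply_apply]
    have : ⟪c j, (⟨Q w, h1 w hw⟩ : W')⟫ = ⟪w, (c j : V)⟫ := by
      change ⟪(c j : V), Q w⟫ = _
      rw [← hQ, h2 _ (c j).2, real_inner_comm]
    rw [this]; ring
  rw [sum_congr rfl fun i _ => e1 _ (b i).2, sum_comm]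
  have e2 : ∀ j, ∑ i, ⟪(b i : V), (c j : V)⟫ ^ 2 = 1 := by
    intro j
    have := b.sum_sq_norm_inner_right (⟨c j, hle (c j).2⟩ : W)
    simp only [Real.norm_eq_abs, sq_abs] at this
    have h4 : ‖(⟨c j, hle (c j).2⟩ : W)‖ = 1 := c.orthonormal.1 j
    rw [h4] at this
    simpa using this
  simp [e2]

end Eig

variable {α : Type*} [Fintype α] [DecidableEq α]

def Sup (T : Finset α) : Finset (Perm α) := univ.filter fun g => ∀ x, x ∉ T → g x = x

theorem mem_Sup {T : Finset α} {g : Perm α} : g ∈ Sup T ↔ ∀ x, x ∉ T → g x = x := by simp [Sup]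

theorem one_mem_Sup (T : Finset α) : (1 : Perm α) ∈ Sup T := by simp [mem_Sup]

theorem mul_mem_Sup {T : Finset α} {g h : Perm α} (hg : g ∈ Sup T) (hh : h ∈ Sup T) :
    g * h ∈ Sup T := by
  rw [mem_Sup] at *
  intro x hx; rw [Perm.mul_apply, hh x hx, hg x hx]

theorem inv_mem_Sup {T : Finset α} {g : Perm α} (hg : g ∈ Sup T) : g⁻¹ ∈ Sup T := by
  rw [mem_Sup] at *
  intro x hx; rw [Perm.inv_eq_iff_eq, hg x hx]

theorem Sup_mono {T T' : Finset α} (h : T ⊆ T') : Sup T ⊆ Sup T' := by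
  intro g hg
  rw [mem_Sup] at *
  exact fun x hx => hg x fun hc => hx (h hc)

theorem swap_mem_Sup {T : Finset α} {a b : α} (ha : a ∈ T) (hb : b ∈ T) : swap a b ∈ Sup T := by
  rw [mem_Sup]
  intro x hx
  exact swap_apply_of_ne_of_ne (fun h => hx (h ▸ ha)) (fun h => hx (h ▸ hb))

theorem Sup_apply_mem {T : Finset α} {g : Perm α} (hg : g ∈ Sup T) {x : α} (hx : x ∈ T) :
    g x ∈ T := by
  by_contra h
  have := mem_Sup.1 hg _ h
  rw [g.injective this] at h
  exact h hx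

theorem card_Sup_pos (T : Finset α) : (0 : ℝ) < (Sup T).card := by
  exact_mod_cast card_pos.2 ⟨1, one_mem_Sup T⟩

variable {V : Type*} [NormedAddCommGroup V] [InnerProductSpace ℝ V]
variable (ρ : Perm α →* (V ≃ₗᵢ[ℝ] V))

theorem rho_mul (g h : Perm α) (v : V) : ρ (g * h) v = ρ g (ρ h v) := by
  rw [map_mul]; rfl

theorem rho_one (v : V) : ρ 1 v = v := by rw [map_one]; rfl

theorem rho_inner (g : Perm α) (u v : V) : ⟪ρ g u, v⟫ = ⟪u, ρ g⁻¹ v⟫ := by
  rw [← (ρ g).inner_map_map u, ← rho_mul, mul_inv_cancel, rho_one]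

def rl (g : Perm α) : V →ₗ[ℝ] V := (ρ g).toLinearEquiv.toLinearMap

@[simp] theorem rl_apply (g : Perm α) (v : V) : rl ρ g v = ρ g v := rfl

def P (T : Finset α) : V →ₗ[ℝ] V := ((Sup T).card : ℝ)⁻¹ • ∑ g ∈ Sup T, rl ρ g

theorem P_apply (T : Finset α) (v : V) :
    P ρ T v = ((Sup T).card : ℝ)⁻¹ • ∑ g ∈ Sup T, ρ g v := by
  simp [P, LinearMap.sum_apply]

def Inv (T : Finset α) : Submodule ℝ V where
  carrier := {w | ∀ g ∈ Sup T, ρ g w = w}
  add_mem' := fun {a b} ha hb g hg => by rw [map_add, ha g hg, hb g hg]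
  zero_mem' := fun g _ => map_zero _
  smul_mem' := fun c x hx g hg => by rw [map_smul, hx g hg]

theorem mem_Inv {T : Finset α} {w : V} : w ∈ Inv ρ T ↔ ∀ g ∈ Sup T, ρ g w = w := Iff.rfl

theorem P_mem_Inv (T : Finset α) (v : V) : P ρ T v ∈ Inv ρ T := by
  intro h hh
  rw [P_apply, map_smul, map_sum]
  congr 1
  refine sum_bij' (fun g _ => h * g) (fun g _ => h⁻¹ * g) (fun g hg => mul_mem_Sup hh hg)
    (fun g hg => mul_mem_Sup (inv_mem_Sup hh) hg) (by simp) (by simp) fun g _ => ?_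
  rw [rho_mul]

theorem P_rho {T : Finset α} {h : Perm α} (hh : h ∈ Sup T) (v : V) :
    P ρ T (ρ h v) = P ρ T v := by
  rw [P_apply, P_apply]
  congr 1
  refine sum_bij' (fun g _ => g * h) (fun g _ => g * h⁻¹) (fun g hg => mul_mem_Sup hg hh)
    (fun g hg => mul_mem_Sup hg (inv_mem_Sup hh)) (by simp) (by simp) fun g _ => ?_
  rw [rho_mul]

theorem P_of_mem {T : Finset α} {w : V} (hw : w ∈ Inv ρ T) : P ρ T w = w := by
  rw [P_apply, sum_congr rfl fun g hg => hw g hg, sum_const, ← Nat.cast_smul_eq_nsmul ℝ, smul_smul,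
    inv_mul_cancel₀ (card_Sup_pos T).ne', one_smul]

theorem P_symm (T : Finset α) : (P ρ T).IsSymmetric := by
  intro u v
  rw [P_apply, P_apply, inner_smul_left, inner_smul_right, sum_inner, inner_sum]
  simp only [conj_trivial]
  congr 1
  refine sum_bij' (fun g _ => g⁻¹) (fun g _ => g⁻¹) (fun g hg => inv_mem_Sup hg)
    (fun g hg => inv_mem_Sup hg) (by simp) (by simp) fun g _ => rho_inner ρ g u v

theorem P_P {T T' : Finset α} (h : T' ⊆ T) (v : V) : P ρ T (P ρ T' v) = P ρ T v := by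
  rw [P_apply ρ T', map_smul, map_sum, sum_congr rfl fun g hg => P_rho ρ (Sup_mono h hg) v,
    sum_const, ← Nat.cast_smul_eq_nsmul ℝ, smul_smul, inv_mul_cancel₀ (card_Sup_pos T').ne', one_smul]

theorem norm_P_sq (T : Finset α) (v : V) : ‖P ρ T v‖ ^ 2 = ⟪v, P ρ T v⟫ := by
  rw [← real_inner_self_eq_norm_sq, P_symm, P_P ρ subset_rfl]

theorem norm_P_le (T : Finset α) (v : V) : ‖P ρ T v‖ ≤ ‖v‖ := by
  have h1 := norm_P_sq ρ T v
  have h2 := real_inner_le_norm v (P ρ T v)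
  have := norm_nonneg (P ρ T v)
  have := norm_nonneg v
  nlinarith

theorem norm_P_mono {T T' : Finset α} (h : T' ⊆ T) (v : V) : ‖P ρ T v‖ ≤ ‖P ρ T' v‖ := by
  rw [← P_P ρ h]; exact norm_P_le _ _ _

theorem rho_P (g : Perm α) (T : Finset α) (v : V) :
    ρ g (P ρ T v) = P ρ (T.map g.toEmbedding) (ρ g v) := by
  have hb : ∀ h ∈ Sup T, g * h * g⁻¹ ∈ Sup (T.map g.toEmbedding) := by
    intro h hh
    rw [mem_Sup] at *
    intro x hx
    have : g⁻¹ x ∉ T := fun hc => hx (mem_map.2 ⟨_, hc, by simp⟩)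
    rw [Perm.mul_apply, Perm.mul_apply, hh _ this]; simp
  have hb' : ∀ h ∈ Sup (T.map g.toEmbedding), g⁻¹ * h * g ∈ Sup T := by
    intro h hh
    rw [mem_Sup] at *
    intro x hx
    have : g x ∉ T.map g.toEmbedding := by simpa using hx
    simp [hh _ this]
  have hc : (Sup T).card = (Sup (T.map g.toEmbedding)).card :=
    card_bij' (fun h _ => g * h * g⁻¹) (fun h _ => g⁻¹ * h * g) hb hb'
      (fun h _ => by group) (fun h _ => by group)
  rw [P_apply, P_apply, map_smul, map_sum, hc]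
  congr 1
  refine sum_bij' (fun h _ => g * h * g⁻¹) (fun h _ => g⁻¹ * h * g) hb hb'
      (fun h _ => by group) (fun h _ => by group) fun h _ => ?_
  rw [← rho_mul, ← rho_mul]; simp

def IsInv (W : Submodule ℝ V) : Prop := ∀ g, ∀ w ∈ W, ρ g w ∈ W

theorem IsInv.P_mem {ρ : Perm α →* (V ≃ₗᵢ[ℝ] V)} {W : Submodule ℝ V} (h : IsInv ρ W)
    (T : Finset α) {w : V} (hw : w ∈ W) : P ρ T w ∈ W := by
  rw [P_apply]
  exact W.smul_mem _ (W.sum_mem fun g _ => h g w hw)

/-- vectors with no component invariant under the symmetric group of more than `r` points -/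
def Row (r : ℕ) : Submodule ℝ V where
  carrier := {v | ∀ T : Finset α, r < T.card → P ρ T v = 0}
  add_mem' := fun {a b} ha hb T hT => by rw [map_add, ha T hT, hb T hT, add_zero]
  zero_mem' := fun T _ => map_zero _
  smul_mem' := fun c x hx T hT => by rw [map_smul, hx T hT, smul_zero]

theorem mem_Row {r : ℕ} {v : V} : v ∈ Row ρ r ↔ ∀ T : Finset α, r < T.card → P ρ T v = 0 :=
  Iff.rfl

theorem mem_Row_of_card {r : ℕ} {v : V} (h : ∀ T : Finset α, T.card = r + 1 → P ρ T v = 0) :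
    v ∈ Row ρ r := by
  intro T hT
  obtain ⟨T', h1, h2⟩ := exists_subset_card_eq (show r + 1 ≤ T.card from hT)
  rw [← P_P ρ h1, h T' h2, map_zero]

theorem isInv_Row (r : ℕ) : IsInv ρ (Row ρ r) := by
  intro g w hw T hT
  have := rho_P ρ g (T.map g⁻¹.toEmbedding) w
  rw [hw _ (by simpa using hT), map_zero, map_map] at this
  rw [this]
  congr 2
  ext x; simp

theorem Row_mono {r r' : ℕ} (h : r ≤ r') : Row ρ r ≤ Row ρ r' :=
  fun _ hv T hT => hv T (lt_of_le_of_lt h hT)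

theorem inv_of_swaps {T : Finset α} {w : V} (h : ∀ a ∈ T, ∀ b ∈ T, ρ (swap a b) w = w) :
    w ∈ Inv ρ T := by
  intro g hg
  induction' hn : g.support.card using Nat.strong_induction_on with n ih generalizing g
  by_cases h1 : g = 1
  · rw [h1, rho_one]
  obtain ⟨a, ha⟩ : ∃ a, g a ≠ a := by
    by_contra hc
    push Not at hc
    exact h1 (Equiv.ext hc)
  have haT : a ∈ T := by
    by_contra hc
    exact ha (mem_Sup.1 hg a hc)
  have hga := Sup_apply_mem hg haT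
  have h2 := ih _ (hn ▸ Perm.card_support_swap_mul ha) (swap a (g a) * g)
    (mul_mem_Sup (swap_mem_Sup haT hga) hg) rfl
  calc ρ g w = ρ (swap a (g a) * (swap a (g a) * g)) w := by rw [swap_mul_self_mul]
    _ = w := by rw [rho_mul, h2, h a haT _ hga]

end Vale.Agent.P162
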